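/-
S0351 package WITT/API: the abstract interface of the period field `B_r` (completed fraction field of `W(𝒪_C)`
with the Gauss norm of radius `r`), the two-sided sums `ell`, Frobenius powers with integer exponents.
`Witt/GaussNorm.lean` constructs an instance. See BLUEPRINT.md §PR.
-/
import Crest.Agent.LT.CharP.Pi

set_option autoImplicit false

open Crest.LubinTate

namespace Crest.Agent.LT

noncomputable section

variable (p : ℕ) [Fact p.Prime]
variable (C : Type) [NontriviallyNormedField C] [IsUltrametricDist C] [CompleteSpace C]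

/-- Interface: `B` a complete ultrametric normed field in which `‖p‖ = r`, with a closed subring `Ap` (the closure of
`W(𝒪_C)`), multiplicative Teichmüller map, and reduction `θ : Ap → 𝒪_C` with kernel `p Ap`. -/
structure PeriodField (r : ℝ) (B : Type) [NontriviallyNormedField B] [IsUltrametricDist B]
    [CompleteSpace B] where
  teich : OC C →* B
  norm_teich : ∀ a, ‖teich a‖ = ‖(a : C)‖
  Ap : Subring B
  closed : IsClosed (Ap : Set B)
  le_one : ∀ x ∈ Ap, ‖x‖ ≤ 1
  teich_mem : ∀ a, teich a ∈ Ap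
  natCast_p_norm : ‖(p : B)‖ = r
  theta : Ap →+* OC C
  theta_teich : ∀ a, theta ⟨teich a, teich_mem a⟩ = a
  norm_theta : ∀ x : Ap, ‖((theta x : OC C) : C)‖ ≤ ‖(x : B)‖
  ker_theta : ∀ x : Ap, theta x = 0 → ∃ y : Ap, (x : B) = (p : B) * y
  /-- digit lower bound: the Gauss norm of a finite digit expansion is the sup. -/
  norm_digits : ∀ (N : ℕ) (a : ℕ → OC C) (k : ℕ), k < N →
    ‖((a k : OC C) : C)‖ * r ^ k ≤ ‖∑ j ∈ Finset.range N, teich (a j) * (p : B) ^ j‖

variable {p C}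
variable {r : ℝ} {B : Type} [NontriviallyNormedField B] [IsUltrametricDist B] [CompleteSpace B]

/-- Teichmüller on `C`, junk outside the unit ball. -/
def PeriodField.tc (PF : PeriodField p C r B) (u : C) : B :=
  open Classical in if h : ‖u‖ ≤ 1 then PF.teich ⟨u, h⟩ else 0

end

section FPow

variable (p : ℕ) [Fact p.Prime]
variable {C : Type} [NontriviallyNormedField C] [IsUltrametricDist C] [CompleteSpace C]
  [CharP C p] [IsAlgClosed C]

/-- Frobenius power with integer exponent: `u^(p^e)`, `e ∈ ℤ`. -/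
noncomputable def fpow (e : ℤ) (u : C) : C :=
  if 0 ≤ e then u ^ (p ^ e.toNat) else pRoot p (-e).toNat u

private theorem phi_pow_apply (e : ℕ) (u : C) :
    ((frobeniusEquiv C p : RingAut C) ^ e) u = u ^ (p ^ e) := by
  induction e with
  | zero => simp
  | succ e ih =>
    rw [pow_succ', RingAut.mul_apply, ih]
    simp only [coe_frobeniusEquiv, frobenius_def]
    rw [← pow_mul, pow_succ]

private theorem phi_pow_pRoot (e : ℕ) (x : C) :
    ((frobeniusEquiv C p : RingAut C) ^ e)⁻¹ x = pRoot p e x := by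
  have h : ((frobeniusEquiv C p : RingAut C) ^ e) (pRoot p e x) = x := by
    rw [phi_pow_apply, pRoot_pow]
  calc ((frobeniusEquiv C p : RingAut C) ^ e)⁻¹ x
      = ((frobeniusEquiv C p : RingAut C) ^ e)⁻¹ (((frobeniusEquiv C p : RingAut C) ^ e) (pRoot p e x)) := by rw [h]
    _ = pRoot p e x := by
      rw [← RingAut.mul_apply, inv_mul_cancel]; rfl

private theorem fpow_eq (e : ℤ) (u : C) :
    fpow p e u = ((frobeniusEquiv C p : RingAut C) ^ e) u := by
  unfold fpow
  split_ifs with h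
  · obtain ⟨n, rfl⟩ := Int.eq_ofNat_of_zero_le h
    simp [phi_pow_apply]
  · obtain ⟨n, hn⟩ : ∃ n : ℕ, e = -(n : ℤ) := ⟨(-e).toNat, by omega⟩
    subst hn
    simp only [neg_neg, Int.toNat_natCast, zpow_neg, zpow_natCast, phi_pow_pRoot]

theorem fpow_natCast (e : ℕ) (u : C) : fpow p (e : ℤ) u = u ^ (p ^ e) := by
  simp [fpow]

theorem fpow_add (e e' : ℤ) (u : C) : fpow p (e + e') u = fpow p e (fpow p e' u) := by
  simp only [fpow_eq, zpow_add, RingAut.mul_apply]

theorem fpow_mul (e : ℤ) (u v : C) : fpow p e (u * v) = fpow p e u * fpow p e v := by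
  simp only [fpow_eq, map_mul]

theorem fpow_sum {ι : Type*} (e : ℤ) (s : Finset ι) (u : ι → C) :
    fpow p e (∑ i ∈ s, u i) = ∑ i ∈ s, fpow p e (u i) := by
  simp only [fpow_eq, map_sum]

/-- `‖u^(p^e)‖ = ‖u‖^(p^e)`. -/
theorem norm_fpow (e : ℤ) (u : C) : ‖fpow p e u‖ = ‖u‖ ^ ((p : ℝ) ^ e) := by
  have hp : 1 ≤ p := (Fact.out : p.Prime).one_lt.le
  by_cases h : 0 ≤ e
  · obtain ⟨n, rfl⟩ := Int.eq_ofNat_of_zero_le h
    rw [fpow_natCast, norm_pow, zpow_natCast]
    rw [← Real.rpow_natCast]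
    push_cast
    rfl
  · obtain ⟨n, hn⟩ : ∃ n : ℕ, e = -(n : ℤ) := ⟨(-e).toNat, by omega⟩
    subst hn
    have h1 : fpow p (-(n : ℤ)) u = pRoot p n u := by
      unfold fpow; rw [if_neg h]; simp
    rw [h1, zpow_neg, zpow_natCast]
    have h2 := norm_pRoot p n u
    have h3 : (0 : ℝ) < (p : ℝ) ^ n := by positivity
    rw [← h2, ← Real.rpow_natCast, ← Real.rpow_mul (norm_nonneg _)]
    push_cast
    rw [mul_inv_cancel₀ h3.ne', Real.rpow_one]

/-- If `β^(p^N) = β` then `fpow` on `β` is periodic in `e` with period `N`. -/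
theorem fpow_periodic (N : ℕ) (β : C) (hβ : β ^ (p ^ N) = β) (e : ℤ) :
    fpow p (e + N) β = fpow p e β := by
  rw [fpow_add, fpow_natCast, hβ]

variable {p}
variable {r : ℝ} {B : Type} [NontriviallyNormedField B] [IsUltrametricDist B] [CompleteSpace B]

private theorem PeriodField.tc_mul (PF : PeriodField p C r B) {a b : C} (ha : ‖a‖ ≤ 1) (hb : ‖b‖ ≤ 1) :
    PF.tc (a * b) = PF.tc a * PF.tc b := by
  have hab : ‖a * b‖ ≤ 1 := by rw [norm_mul]; exact mul_le_one₀ ha (norm_nonneg _) hb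
  simp only [PeriodField.tc, dif_pos ha, dif_pos hb, dif_pos hab]
  rw [← map_mul]
  rfl

private theorem PeriodField.norm_tc (PF : PeriodField p C r B) {a : C} (ha : ‖a‖ ≤ 1) :
    ‖PF.tc a‖ = ‖a‖ := by
  simp only [PeriodField.tc, dif_pos ha, PF.norm_teich]

private theorem norm_fpow_le_one (e : ℤ) {y : C} (hy : ‖y‖ ≤ 1) : ‖fpow p e y‖ ≤ 1 := by
  rw [norm_fpow]
  exact Real.rpow_le_one (norm_nonneg _) hy (by positivity)

/-- `ell N u y = ∑_{k ∈ ℤ} [y^(p^(u + N k))] p^(-k)`. For `N = h`, `u = 0`: the logarithm `𝓛` of `H₀`;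
for `N = n`: the period functions `ell^(u)` of the Rank lemma. -/
noncomputable def PeriodField.ell (PF : PeriodField p C r B) (N : ℕ) (u : ℤ) (y : C) : B :=
  ∑' k : ℤ, PF.tc (fpow p (u + N * k) y) * ((p : B) ^ (-k))

/-- Convergence for `‖y‖ < 1`, `0 < r < 1`, `N ≥ 1`: `k → +∞`: `‖y‖^(p^(u+Nk)) r^(-k) → 0` superexponentially; `k → -∞`:
`≤ r^|k|`. -/
theorem PeriodField.summable_ell (PF : PeriodField p C r B) (hr0 : 0 < r) (hr1 : r < 1) (N : ℕ)
    (hN : 1 ≤ N) (u : ℤ) (y : C) (hy : ‖y‖ < 1) :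
    Summable (fun k : ℤ => PF.tc (fpow p (u + N * k) y) * ((p : B) ^ (-k))) := by
  have hp2 : 2 ≤ p := (Fact.out : p.Prime).two_le
  have hp0 : (0 : ℝ) < p := by positivity
  have hnorm : ∀ k : ℤ, ‖PF.tc (fpow p (u + N * k) y) * ((p : B) ^ (-k))‖
      = ‖y‖ ^ ((p : ℝ) ^ (u + N * k)) * r ^ (-k) := by
    intro k
    rw [norm_mul, PF.norm_tc (norm_fpow_le_one _ hy.le), norm_fpow, norm_zpow, PF.natCast_p_norm]
  refine Summable.of_nat_of_neg ?_ ?_
  · -- positive side: super-exponential decay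
    set a : ℝ := ‖y‖ ^ ((p : ℝ) ^ u) with ha_def
    have ha0 : 0 ≤ a := Real.rpow_nonneg (norm_nonneg _) _
    have ha1 : a < 1 := Real.rpow_lt_one (norm_nonneg _) hy (by positivity)
    have hterm : ∀ j : ℕ, ‖PF.tc (fpow p (u + N * ((j : ℕ) : ℤ)) y) * ((p : B) ^ (-((j : ℕ) : ℤ)))‖
        = a ^ (p ^ (N * j)) * (r⁻¹) ^ j := by
      intro j
      rw [hnorm, ha_def, ← Real.rpow_natCast (‖y‖ ^ ((p : ℝ) ^ u)), ← Real.rpow_mul (norm_nonneg _),
        zpow_add₀ hp0.ne']
      congr 1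
      · congr 1
        push_cast
        rw [pow_mul, zpow_mul, zpow_natCast, zpow_natCast]
      · rw [zpow_neg, zpow_natCast, inv_pow]
    have hev : ∀ᶠ j : ℕ in Filter.atTop, a ^ j * r⁻¹ ≤ 1 / 2 := by
      have h1 : Filter.Tendsto (fun j : ℕ => a ^ j * r⁻¹) Filter.atTop (nhds (0 * r⁻¹)) :=
        (tendsto_pow_atTop_nhds_zero_of_lt_one ha0 ha1).mul_const _
      rw [zero_mul] at h1
      exact h1.eventually (ge_mem_nhds (by norm_num))
    refine summable_of_ratio_norm_eventually_le (r := 1 / 2) (by norm_num) ?_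
    filter_upwards [hev] with j hj
    rw [hterm (j + 1), hterm j]
    set E : ℕ := p ^ (N * j) with hE
    have hjE : j ≤ E := by
      calc j ≤ 2 ^ j := Nat.lt_two_pow_self.le
        _ ≤ p ^ j := Nat.pow_le_pow_left hp2 j
        _ ≤ p ^ (N * j) := Nat.pow_le_pow_right (by omega) (Nat.le_mul_of_pos_left j hN)
    have hE2 : E + E ≤ p ^ (N * (j + 1)) := by
      have : p ^ (N * (j + 1)) = E * p ^ N := by rw [hE, mul_add, mul_one, pow_add]
      rw [this]
      have h2 : 2 ≤ p ^ N := by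
        calc 2 ≤ p := hp2
          _ = p ^ 1 := (pow_one p).symm
          _ ≤ p ^ N := Nat.pow_le_pow_right (by omega) hN
      nlinarith
    have hrinv : 0 ≤ r⁻¹ := by positivity
    have h3 : a ^ (p ^ (N * (j + 1))) ≤ a ^ E * a ^ E := by
      rw [← pow_add]
      exact pow_le_pow_of_le_one ha0 ha1.le hE2
    have h4 : a ^ E * r⁻¹ ≤ 1 / 2 := by
      refine le_trans ?_ hj
      exact mul_le_mul_of_nonneg_right (pow_le_pow_of_le_one ha0 ha1.le hjE) hrinv
    have h5 : 0 ≤ a ^ E * (r⁻¹) ^ j := by positivity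
    calc a ^ (p ^ (N * (j + 1))) * r⁻¹ ^ (j + 1)
        ≤ (a ^ E * a ^ E) * r⁻¹ ^ (j + 1) := by gcongr
      _ = (a ^ E * r⁻¹) * (a ^ E * r⁻¹ ^ j) := by rw [pow_succ]; ring
      _ ≤ 1 / 2 * (a ^ E * r⁻¹ ^ j) := by gcongr
  · -- negative side: geometric
    refine Summable.of_norm_bounded (summable_geometric_of_lt_one hr0.le hr1) ?_
    intro j
    rw [hnorm, neg_neg, zpow_natCast]
    have h1 : ‖y‖ ^ ((p : ℝ) ^ (u + N * (-(j : ℤ)))) ≤ 1 :=
      Real.rpow_le_one (norm_nonneg _) hy.le (by positivity)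
    have h2 : 0 ≤ r ^ j := by positivity
    nlinarith

/-- `ell N u (y^(p^N)) = p · ell N u y`; `ell N (u + N) y = p · ell N u y`. -/
theorem PeriodField.ell_add_period (PF : PeriodField p C r B) (hr0 : 0 < r) (hr1 : r < 1) (N : ℕ)
    (hN : 1 ≤ N) (u : ℤ) (y : C) (hy : ‖y‖ < 1) :
    PF.ell N (u + N) y = (p : B) * PF.ell N u y := by
  have hp0 : (p : B) ≠ 0 := by
    intro h0
    have := PF.natCast_p_norm
    rw [h0, norm_zero] at this
    exact hr0.ne this
  unfold PeriodField.ell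
  rw [← tsum_mul_left, ← (Equiv.addRight (1 : ℤ)).tsum_eq
    (fun k : ℤ => (p : B) * (PF.tc (fpow p (u + N * k) y) * (p : B) ^ (-k)))]
  refine tsum_congr fun k => ?_
  simp only [Equiv.coe_addRight]
  have h1 : u + (N : ℤ) + N * k = u + N * (k + 1) := by ring
  rw [h1, neg_add, zpow_add₀ hp0, zpow_neg_one]
  field_simp

/-- Frobenius: `ell N u (y^(p^e)) = ell N (u + e) y`. -/
theorem PeriodField.ell_fpow (PF : PeriodField p C r B) (N : ℕ) (u e : ℤ) (y : C) :
    PF.ell N u (fpow p e y) = PF.ell N (u + e) y := by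
  unfold PeriodField.ell
  refine tsum_congr fun k => ?_
  rw [← fpow_add]
  congr 3
  ring

/-- Scalars: for `β^(p^N) = β`, `‖β‖ ≤ 1`: `ell N u (β y) = [β^(p^u)] ell N u y`. -/
theorem PeriodField.ell_mul_teich (PF : PeriodField p C r B) (hr0 : 0 < r) (hr1 : r < 1) (N : ℕ)
    (hN : 1 ≤ N) (u : ℤ) (β y : C) (hβ : β ^ (p ^ N) = β) (hβ1 : ‖β‖ ≤ 1) (hy : ‖y‖ < 1) :
    PF.ell N u (β * y) = PF.tc (fpow p u β) * PF.ell N u y := by
  have hper : ∀ k : ℤ, fpow p (u + N * k) β = fpow p u β := by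
    intro k
    induction k using Int.induction_on with
    | zero => simp
    | succ i ih =>
      have : u + (N : ℤ) * ((i : ℤ) + 1) = u + N * (i : ℤ) + N := by ring
      rw [this, fpow_periodic p N β hβ, ih]
    | pred i ih =>
      have : u + (N : ℤ) * (-(i : ℤ) - 1) + N = u + N * (-(i : ℤ)) := by ring
      rw [← fpow_periodic p N β hβ, this, ih]
  unfold PeriodField.ell
  rw [← tsum_mul_left]
  refine tsum_congr fun k => ?_
  rw [fpow_mul, hper k, PF.tc_mul (norm_fpow_le_one _ hβ1) (norm_fpow_le_one _ hy.le), mul_assoc]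

end FPow

end Crest.Agent.LT
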