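/-
S0351 package WITT/LOG: the logarithm `𝓛 = ell h 0` of Honda's law `H₀` of height `h`, additive, continuous, injective.
See BLUEPRINT.md §WL.
-/
import Crest.Agent.LT.Witt.API
import Crest.Agent.LT.Abstract.FS
import Crest.Agent.LT.LogEval

set_option autoImplicit false
set_option linter.unusedSectionVars false
set_option linter.unusedVariables false

open Crest.LubinTate

namespace Crest.Agent.LT

noncomputable section

/-! ### Elementary real estimates -/

/-- `ρ^(2^k) r^(-k) → 0` for `0 ≤ ρ < 1`, `r > 0`. -/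
theorem tendsto_pow_two_pow_div (ρ r : ℝ) (hρ0 : 0 ≤ ρ) (hρ1 : ρ < 1) (hr : 0 < r) :
    Filter.Tendsto (fun k : ℕ => ρ ^ (2 ^ k) / r ^ k) Filter.atTop (nhds 0) := by
  obtain ⟨s, hs⟩ : ∃ s : ℕ, ρ ^ s < r / 2 := exists_pow_lt_of_lt_one (by positivity) hρ1
  have h2 : ∀ᶠ k : ℕ in Filter.atTop, s * k ≤ 2 ^ k := by
    have h1 := tendsto_pow_const_div_const_pow_of_one_lt 1 (by norm_num : (1 : ℝ) < 2)
    have h' : ∀ᶠ k : ℕ in Filter.atTop, ((k : ℝ) ^ 1 / 2 ^ k) < 1 / ((s : ℝ) + 1) :=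
      h1.eventually (gt_mem_nhds (by positivity))
    filter_upwards [h'] with k hk
    have hpos : (0 : ℝ) < 2 ^ k := by positivity
    have hs1 : (0 : ℝ) < (s : ℝ) + 1 := by positivity
    rw [pow_one, div_lt_div_iff₀ hpos hs1] at hk
    have : ((s * k : ℕ) : ℝ) ≤ ((2 ^ k : ℕ) : ℝ) := by
      push_cast
      nlinarith [Nat.cast_nonneg (α := ℝ) k]
    exact_mod_cast this
  have h3 : Filter.Tendsto (fun k : ℕ => ((1 : ℝ) / 2) ^ k) Filter.atTop (nhds 0) :=
    tendsto_pow_atTop_nhds_zero_of_lt_one (by norm_num) (by norm_num)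
  refine squeeze_zero' (Filter.Eventually.of_forall fun k => by positivity) ?_ h3
  filter_upwards [h2] with k hk
  have h4 : ρ ^ (2 ^ k) ≤ ρ ^ (s * k) := pow_le_pow_of_le_one hρ0 hρ1.le hk
  have h5 : ρ ^ (s * k) ≤ (r / 2) ^ k := by
    rw [pow_mul]; exact pow_le_pow_left₀ (by positivity) hs.le k
  have h6 : (r / 2) ^ k = (1 / 2) ^ k * r ^ k := by rw [← mul_pow]; ring_nf
  rw [div_le_iff₀ (by positivity)]
  linarith

/-- Ultrametric inequality for differences. -/
theorem norm_sub_le_max' {E : Type*} [SeminormedAddCommGroup E] [IsUltrametricDist E] (x y : E) :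
    ‖x - y‖ ≤ max ‖x‖ ‖y‖ := by
  rw [sub_eq_add_neg]
  simpa using IsUltrametricDist.norm_add_le_max x (-y)

section Group

variable {p : ℕ} [Fact p.Prime]
variable {C : Type} [NontriviallyNormedField C] [IsUltrametricDist C] [CompleteSpace C]
  [CharP C p] [IsAlgClosed C]
variable {r : ℝ} {B : Type} [NontriviallyNormedField B] [IsUltrametricDist B] [CompleteSpace B]
  [CharZero B]

/-- `𝓛(u) = ∑_k [u^(P^k)] p^(-k)`. -/
abbrev PeriodField.LL (PF : PeriodField p C r B) (h : ℕ) (u : C) : B := PF.ell h 0 u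

/-! ### The Teichmüller map on `C` -/

theorem PeriodField.tc_of_le (PF : PeriodField p C r B) {u : C} (hu : ‖u‖ ≤ 1) :
    PF.tc u = PF.teich ⟨u, hu⟩ := dif_pos hu

theorem PeriodField.norm_tc (PF : PeriodField p C r B) {u : C} (hu : ‖u‖ ≤ 1) : ‖PF.tc u‖ = ‖u‖ := by
  rw [PF.tc_of_le hu, PF.norm_teich]

theorem PeriodField.norm_tc_le_one (PF : PeriodField p C r B) (u : C) : ‖PF.tc u‖ ≤ 1 := by
  by_cases hu : ‖u‖ ≤ 1
  · rw [PF.norm_tc hu]; exact hu
  · simp [PeriodField.tc, hu]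

theorem PeriodField.tc_mem (PF : PeriodField p C r B) (u : C) : PF.tc u ∈ PF.Ap := by
  by_cases hu : ‖u‖ ≤ 1
  · rw [PF.tc_of_le hu]; exact PF.teich_mem _
  · simp only [PeriodField.tc, hu, dite_false]; exact PF.Ap.zero_mem

theorem PeriodField.tc_pow (PF : PeriodField p C r B) {u : C} (hu : ‖u‖ ≤ 1) (n : ℕ) :
    PF.tc (u ^ n) = PF.tc u ^ n := by
  have hun : ‖u ^ n‖ ≤ 1 := by rw [norm_pow]; exact pow_le_one₀ (norm_nonneg _) hu
  rw [PF.tc_of_le hun, PF.tc_of_le hu, ← map_pow]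
  rfl

theorem PeriodField.theta_tc (PF : PeriodField p C r B) {u : C} (hu : ‖u‖ ≤ 1) :
    (PF.theta ⟨PF.tc u, PF.tc_mem u⟩ : C) = u := by
  have h1 : (⟨PF.tc u, PF.tc_mem u⟩ : PF.Ap) = ⟨PF.teich ⟨u, hu⟩, PF.teich_mem _⟩ :=
    Subtype.ext (PF.tc_of_le hu)
  rw [h1, PF.theta_teich]

/-! ### `log₀` -/

/-- `log₀ y = ∑_{k≥0} y^(P^k) p^(-k)`, `P = p^h`. -/
def log0 (p h : ℕ) {B : Type} [NormedField B] (y : B) : B :=
  ∑' k : ℕ, y ^ (p ^ (h * k)) / (p : B) ^ k

theorem tendsto_term_log0 (h : ℕ) (hh : 1 ≤ h) (hp : (p : B) ≠ 0) (ρ : ℝ) (hρ1 : ρ < 1) (hρ0 : 0 ≤ ρ)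
    (t : ℕ → B) (ht : ∀ k, ‖t k‖ ≤ ρ ^ (p ^ (h * k))) :
    Filter.Tendsto (fun k : ℕ => t k / (p : B) ^ k) Filter.atTop (nhds 0) := by
  have hp' : 0 < ‖(p : B)‖ := norm_pos_iff.mpr hp
  refine squeeze_zero_norm ?_ (tendsto_pow_two_pow_div ρ ‖(p : B)‖ hρ0 hρ1 hp')
  intro k
  rw [norm_div, norm_pow]
  refine div_le_div_of_nonneg_right ((ht k).trans ?_) (by positivity)
  refine pow_le_pow_of_le_one hρ0 hρ1.le ?_
  have hp2 : 2 ≤ p := (Fact.out : p.Prime).two_le
  calc 2 ^ k ≤ p ^ k := Nat.pow_le_pow_left hp2 k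
    _ ≤ p ^ (h * k) := Nat.pow_le_pow_right (by omega) (Nat.le_mul_of_pos_left k (by omega))

theorem summable_log0 (h : ℕ) (hh : 1 ≤ h) (hp : (p : B) ≠ 0) (y : B) (hy : ‖y‖ < 1) :
    Summable (fun k : ℕ => y ^ (p ^ (h * k)) / (p : B) ^ k) := by
  apply NonarchimedeanAddGroup.summable_of_tendsto_cofinite_zero
  rw [Nat.cofinite_eq_atTop]
  refine tendsto_term_log0 h hh hp ‖y‖ hy (norm_nonneg _) _ (fun k => ?_)
  rw [norm_pow]

/-- Congruence: `a ≡ b mod p Ap`, `‖a‖, ‖b‖ < 1` implies `∑_k (a^(P^k) - b^(P^k)) p^(-k) ∈ p Ap`, since `a^(p^e) ≡ b^(p^e) mod p^(e+1)`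
(and `Ap`, `p Ap` are closed). Here `log₀ y = ∑_{k≥0} y^(P^k) p^(-k)`. -/
theorem PeriodField.log_congr (PF : PeriodField p C r B) (hr0 : 0 < r) (hr1 : r < 1) (h : ℕ) (hh : 1 ≤ h)
    (a b : PF.Ap) (ha : ‖(a : B)‖ < 1) (hb : ‖(b : B)‖ < 1) (hab : ∃ y : PF.Ap, (a : B) - b = (p : B) * y) :
    ∃ y : PF.Ap, ∑' k : ℕ, ((a : B) ^ (p ^ (h * k)) - (b : B) ^ (p ^ (h * k))) / (p : B) ^ k = (p : B) * y := by
  obtain ⟨y, hy⟩ := hab
  have hpn : ‖(p : B)‖ = r := PF.natCast_p_norm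
  have hp : (p : B) ≠ 0 := by
    intro h0; rw [h0, norm_zero] at hpn; linarith
  have hdvd : ((p : ℕ) : PF.Ap) ∣ a - b := ⟨y, Subtype.ext (by push_cast; exact hy)⟩
  have key : ∀ k : ℕ, ∃ z : PF.Ap, (a : B) ^ (p ^ (h * k)) - (b : B) ^ (p ^ (h * k)) =
      (p : B) ^ (h * k + 1) * z := by
    intro k
    obtain ⟨z, hz⟩ := dvd_sub_pow_of_dvd_sub hdvd (h * k)
    refine ⟨z, ?_⟩
    have := congrArg (Subtype.val) hz
    push_cast at this
    exact this
  choose z hz using key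
  -- the elements `y_k`
  let w : ℕ → B := fun k => (p : B) ^ (h * k - k) * z k
  have hw : ∀ k, w k ∈ PF.Ap := fun k =>
    PF.Ap.mul_mem (PF.Ap.pow_mem (by exact_mod_cast (natCast_mem PF.Ap p)) _) (z k).2
  have hterm : ∀ k : ℕ, ((a : B) ^ (p ^ (h * k)) - (b : B) ^ (p ^ (h * k))) / (p : B) ^ k =
      (p : B) * w k := by
    intro k
    have hk : k ≤ h * k := Nat.le_mul_of_pos_left k (by omega)
    have h1 : (p : B) ^ (h * k + 1) = (p : B) ^ k * ((p : B) * (p : B) ^ (h * k - k)) := by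
      rw [← pow_succ', ← pow_add]; congr 1; omega
    rw [hz, h1]
    simp only [w]
    field_simp
  have htend : Filter.Tendsto (fun k : ℕ => ((a : B) ^ (p ^ (h * k)) - (b : B) ^ (p ^ (h * k))) / (p : B) ^ k)
      Filter.atTop (nhds 0) := by
    refine tendsto_term_log0 h hh hp (max ‖(a : B)‖ ‖(b : B)‖) (max_lt ha hb)
      (le_max_of_le_left (norm_nonneg _)) _ (fun k => ?_)
    refine (norm_sub_le_max' _ _).trans (max_le ?_ ?_)
    · rw [norm_pow]; exact pow_le_pow_left₀ (norm_nonneg _) (le_max_left _ _) _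
    · rw [norm_pow]; exact pow_le_pow_left₀ (norm_nonneg _) (le_max_right _ _) _
  have hwt : Filter.Tendsto w Filter.atTop (nhds 0) := by
    have h1 : Filter.Tendsto (fun k => (p : B)⁻¹ * ((p : B) * w k)) Filter.atTop (nhds ((p : B)⁻¹ * 0)) :=
      (by simpa only [hterm] using htend : Filter.Tendsto (fun k => (p : B) * w k) Filter.atTop (nhds 0)).const_mul _
    simpa [hp] using h1
  have hs : Summable w := by
    apply NonarchimedeanAddGroup.summable_of_tendsto_cofinite_zero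
    rwa [Nat.cofinite_eq_atTop]
  refine ⟨⟨∑' k, w k, tsum_mem PF.closed hw⟩, ?_⟩
  simp only [hterm]
  rw [tsum_mul_left]

/-! ### The coefficients of `log` at `e_h` -/

theorem ellV_eParam_step (h : ℕ) (K : ℕ) (hK : 1 ≤ K) :
    (p : B) * ellV p (eParam h : ℕ → OC B) K =
      if h ≤ K ∧ 1 ≤ h then ellV p (eParam h : ℕ → OC B) (K - h) else 0 := by
  rw [ellV_rec p _ K hK]
  have h1 : ∀ i ∈ Finset.Icc 1 K, ellV p (eParam h : ℕ → OC B) (K - i) *
      ((eParam h (i - 1) : OC B) : B) ^ (p ^ (K - i)) =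
      if i = h then ellV p (eParam h : ℕ → OC B) (K - h) else 0 := by
    intro i hi
    have hi1 := (Finset.mem_Icc.mp hi).1
    have e : i - 1 + 1 = i := by omega
    simp only [eParam, e]
    split_ifs with hih
    · subst hih; simp
    · simp [zero_pow (pow_ne_zero _ (Fact.out : p.Prime).ne_zero)]
  rw [Finset.sum_congr rfl h1, Finset.sum_ite_eq']
  simp only [Finset.mem_Icc]
  by_cases hc : h ≤ K ∧ 1 ≤ h
  · rw [if_pos ⟨hc.2, hc.1⟩, if_pos hc]
  · rw [if_neg (fun hd => hc ⟨hd.2, hd.1⟩), if_neg hc]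

theorem ellV_eParam_mul (h : ℕ) (hh : 1 ≤ h) (k : ℕ) :
    ellV p (eParam h : ℕ → OC B) (h * k) = ((p : B) ^ k)⁻¹ := by
  have hp : (p : B) ≠ 0 := Nat.cast_ne_zero.mpr (Fact.out : p.Prime).ne_zero
  induction k with
  | zero => simp [ellV_zero]
  | succ k ih =>
    have h1 : 1 ≤ h * (k + 1) := Nat.mul_pos (by omega) (by omega)
    have h2 : h ≤ h * (k + 1) := Nat.le_mul_of_pos_right h (by omega)
    have h3 := ellV_eParam_step (p := p) (B := B) h (h * (k + 1)) h1
    rw [if_pos ⟨h2, hh⟩] at h3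
    have h4 : h * (k + 1) - h = h * k := by rw [Nat.mul_succ]; omega
    rw [h4, ih] at h3
    rw [pow_succ, mul_inv]
    field_simp at h3 ⊢
    linear_combination h3

theorem ellV_eParam_of_not_dvd (h : ℕ) (hh : 1 ≤ h) (K : ℕ) (hK : ¬ h ∣ K) :
    ellV p (eParam h : ℕ → OC B) K = 0 := by
  have hp : (p : B) ≠ 0 := Nat.cast_ne_zero.mpr (Fact.out : p.Prime).ne_zero
  induction K using Nat.strong_induction_on with
  | _ K ih =>
    have hK1 : 1 ≤ K := by
      rcases Nat.eq_zero_or_pos K with h0 | h0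
      · subst h0; exact absurd (dvd_zero h) hK
      · exact h0
    have h3 := ellV_eParam_step (p := p) (B := B) h K hK1
    by_cases hc : h ≤ K
    · rw [if_pos ⟨hc, hh⟩, ih (K - h) (by omega) (fun hd => hK ?_)] at h3
      · exact (mul_eq_zero.mp h3).resolve_left hp
      · have := (Nat.dvd_sub_iff_left hc (dvd_refl h)).mp hd
        exact this
    · rw [if_neg (fun hd => hc hd.1)] at h3
      exact (mul_eq_zero.mp h3).resolve_left hp

theorem logV_eParam (h : ℕ) (hh : 1 ≤ h) (y : B) :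
    logV p (eParam h : ℕ → OC B) y = log0 p h y := by
  unfold logV log0
  have hinj : Function.Injective (fun k : ℕ => h * k) := fun a b hab =>
    Nat.eq_of_mul_eq_mul_left (by omega) hab
  have hsupp : Function.support (fun K : ℕ => ellV p (eParam h : ℕ → OC B) K * y ^ (p ^ K)) ⊆
      Set.range (fun k : ℕ => h * k) := by
    intro K hK
    by_contra hne
    apply hK
    have hnd : ¬ h ∣ K := by
      rintro ⟨c, rfl⟩
      exact hne ⟨c, rfl⟩
    simp [ellV_eParam_of_not_dvd h hh K hnd]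
  rw [← hinj.tsum_eq hsupp]
  refine tsum_congr fun k => ?_
  rw [ellV_eParam_mul h hh k]
  field_simp

/-! ### `fpow` with negative exponents -/

theorem fpow_neg_natCast (e : ℕ) (x : C) : fpow p (-(e : ℤ)) x = pRoot p e x := by
  rcases Nat.eq_zero_or_pos e with rfl | he
  · have h0 := fpow_natCast (p := p) 0 x
    simp only [Nat.cast_zero, pow_zero, pow_one] at h0
    simp [h0, pRoot]
  · have hneg : ¬ (0 : ℤ) ≤ -(e : ℤ) := by omega
    unfold fpow
    rw [if_neg hneg, neg_neg, Int.toNat_natCast]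

theorem norm_fpow_lt_one (e : ℤ) (u : C) (hu : ‖u‖ < 1) : ‖fpow p e u‖ < 1 := by
  rw [norm_fpow]
  have hp0 : (0 : ℝ) < p := by exact_mod_cast (Fact.out : p.Prime).pos
  exact Real.rpow_lt_one (norm_nonneg _) hu (zpow_pos hp0 e)

/-! ### `𝓛` as a limit of `log₀` -/

theorem PeriodField.norm_LL_sub_log0 (PF : PeriodField p C r B) (hr0 : 0 < r) (hr1 : r < 1) (h : ℕ)
    (hh : 1 ≤ h) (w : C) (hw : ‖w‖ < 1) (N : ℕ) :
    ‖PF.LL h w - (p : B) ^ N * log0 p h (PF.tc (pRoot p (h * N) w))‖ ≤ r ^ (N + 1) := by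
  have hpn : ‖(p : B)‖ = r := PF.natCast_p_norm
  have hp : (p : B) ≠ 0 := Nat.cast_ne_zero.mpr (Fact.out : p.Prime).ne_zero
  set f : ℤ → B := fun k => PF.tc (fpow p ((0 : ℤ) + h * k) w) * ((p : B) ^ (-k)) with hfdef
  have hf : Summable f := PF.summable_ell hr0 hr1 h (by omega) 0 w hw
  set α : C := pRoot p (h * N) w with hα
  have hα1 : ‖α‖ ≤ 1 := (norm_pRoot_lt_one p _ _ hw).le
  -- the terms of `p^N log₀`
  have hterm : ∀ k : ℕ, (p : B) ^ N * ((PF.tc α) ^ (p ^ (h * k)) / (p : B) ^ k) = f ((k : ℤ) - N) := by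
    intro k
    simp only [hfdef]
    have e1 : (PF.tc α) ^ (p ^ (h * k)) = PF.tc (α ^ (p ^ (h * k))) := (PF.tc_pow hα1 _).symm
    have e2 : α ^ (p ^ (h * k)) = fpow p ((0 : ℤ) + h * ((k : ℤ) - N)) w := by
      rw [← fpow_natCast, hα, ← fpow_neg_natCast, ← fpow_add]
      congr 1
      push_cast
      ring
    have e3 : (p : B) ^ (-((k : ℤ) - N)) = (p : B) ^ N / (p : B) ^ k := by
      rw [neg_sub, zpow_sub₀ hp, zpow_natCast, zpow_natCast]
    rw [e1, e2, e3]
    field_simp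
  have hginj : Function.Injective (fun k : ℕ => (k : ℤ) - N) := fun a b hab => by
    simpa using hab
  set S : Set ℤ := Set.range (fun k : ℕ => (k : ℤ) - N) with hS
  have hmemS : ∀ j : ℤ, j ∈ S ↔ -(N : ℤ) ≤ j := by
    intro j
    constructor
    · rintro ⟨k, rfl⟩
      simp
    · intro hj
      refine ⟨(j + N).toNat, ?_⟩
      have : (((j + N).toNat : ℕ) : ℤ) = j + N := Int.toNat_of_nonneg (by omega)
      simp [this]
  have hlog : (p : B) ^ N * log0 p h (PF.tc α) = ∑' j : ℤ, S.indicator f j := by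
    unfold log0
    rw [← tsum_mul_left]
    simp only [hterm]
    have := hginj.tsum_eq (f := S.indicator f) (by
      intro j hj
      by_contra hjS
      exact hj (Set.indicator_of_notMem hjS f))
    rw [← this]
    refine tsum_congr fun k => ?_
    rw [Set.indicator_of_mem]
    exact ⟨k, rfl⟩
  have hLL : PF.LL h w = ∑' j : ℤ, f j := rfl
  rw [hlog, hLL, ← (hf.tsum_sub (hf.indicator S))]
  refine IsUltrametricDist.norm_tsum_le_of_forall_le_of_nonneg (by positivity) fun j => ?_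
  by_cases hj : j ∈ S
  · rw [Set.indicator_of_mem hj, sub_self, norm_zero]; positivity
  · rw [Set.indicator_of_notMem hj, sub_zero]
    have hj' : j < -(N : ℤ) := by
      by_contra hc
      exact hj ((hmemS j).mpr (by omega))
    obtain ⟨m, hm⟩ : ∃ m : ℕ, -j = m := ⟨(-j).toNat, (Int.toNat_of_nonneg (by omega)).symm⟩
    have hmN : N + 1 ≤ m := by omega
    simp only [hfdef]
    rw [norm_mul, hm, zpow_natCast, norm_pow, hpn]
    calc ‖PF.tc (fpow p ((0 : ℤ) + h * j) w)‖ * r ^ m ≤ 1 * r ^ m := by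
          gcongr; exact PF.norm_tc_le_one _
      _ = r ^ m := one_mul _
      _ ≤ r ^ (N + 1) := pow_le_pow_of_le_one hr0.le hr1.le hmN

/-! ### The law `H₀` has integer coefficients -/

omit [Fact p.Prime] in
theorem map_eParam {R S : Type*} [CommRing R] [CommRing S] (φ : R →+* S) (h : ℕ) :
    (fun i => φ ((eParam h : ℕ → R) i)) = (eParam h : ℕ → S) := by
  funext i
  simp only [eParam]
  split_ifs <;> simp

/-- The Honda law over `ℤ`. -/
abbrev H0Z (p h : ℕ) [Fact p.Prime] : FormalGroup ℤ := hzv p (eParam h : ℕ → ℤ)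

theorem hzv_eParam_eq_map {R : Type*} [CommRing R] (h : ℕ) :
    hzv p (eParam h : ℕ → R) = (H0Z p h).map (Int.castRingHom R) := by
  rw [hzv_map, map_eParam]

/-- Integer coefficients of `H₀`. -/
def nd (p h : ℕ) [Fact p.Prime] (d : Fin 2 →₀ ℕ) : ℤ :=
  MvPowerSeries.coeff d (H0Z p h).toPowerSeries

theorem coeff_hzv_eParam {R : Type*} [CommRing R] (h : ℕ) (d : Fin 2 →₀ ℕ) :
    MvPowerSeries.coeff d (hzv p (eParam h : ℕ → R)).toPowerSeries = ((nd p h d : ℤ) : R) := by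
  rw [hzv_eParam_eq_map]
  simp [FormalGroup.map, nd]

/-- The general term of `H₀`-addition. -/
def lawTerm (p h : ℕ) [Fact p.Prime] {R : Type*} [CommRing R] (a b : R) (d : Fin 2 →₀ ℕ) : R :=
  ((nd p h d : ℤ) : R) * d.prod (fun i e => (![a, b] : Fin 2 → R) i ^ e)

theorem map_lawTerm {R S : Type*} [CommRing R] [CommRing S] (φ : R →+* S) (h : ℕ) (a b : R)
    (d : Fin 2 →₀ ℕ) : φ (lawTerm p h a b d) = lawTerm p h (φ a) (φ b) d := by
  unfold lawTerm
  rw [map_mul, map_intCast, map_finsuppProd]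
  congr 1
  refine Finsupp.prod_congr fun i _ => ?_
  rw [map_pow]
  congr 1
  fin_cases i <;> rfl

/-- Summands of `lawAdd` over `OC L`. -/
theorem cf_mul_prod_eq {L : Type} [NormedField L] [IsUltrametricDist L] (h : ℕ) (a b : L) (d : Fin 2 →₀ ℕ) :
    cf (hzv p (eParam h : ℕ → OC L)).toPowerSeries d * d.prod (fun i e => (![a, b] : Fin 2 → L) i ^ e) =
      lawTerm p h a b d := by
  unfold lawTerm cf
  rw [coeff_hzv_eParam]
  simp

theorem hasSum_lawAdd {L : Type} [NontriviallyNormedField L] [IsUltrametricDist L] [CompleteSpace L]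
    (h : ℕ) (a b : L) (ha : ‖a‖ < 1) (hb : ‖b‖ < 1) :
    HasSum (lawTerm p h a b) (lawAdd (hzv p (eParam h : ℕ → OC L)) a b) := by
  have hab : ∀ i : Fin 2, ‖(![a, b] : Fin 2 → L) i‖ < 1 := by
    intro i; fin_cases i
    · exact ha
    · exact hb
  have h1 := (summable_evMv (hzv p (eParam h : ℕ → OC L)).toPowerSeries ![a, b] hab).hasSum
  simp only [cf_mul_prod_eq] at h1
  have h2 : lawAdd (hzv p (eParam h : ℕ → OC L)) a b = ∑' d, lawTerm p h a b d := by
    unfold lawAdd evMv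
    exact tsum_congr fun d => cf_mul_prod_eq h a b d
  rw [h2]
  exact h1

/-- `H₀` commutes with Frobenius on `C`. -/
theorem lawAdd_frob (h e : ℕ) (x y : C) (hx : ‖x‖ < 1) (hy : ‖y‖ < 1) :
    lawAdd (H0C p h C) (x ^ (p ^ e)) (y ^ (p ^ e)) = (lawAdd (H0C p h C) x y) ^ (p ^ e) := by
  have hpow : ∀ z : C, ‖z‖ < 1 → ‖z ^ (p ^ e)‖ < 1 := fun z hz => by
    rw [norm_pow]; exact pow_lt_one₀ (norm_nonneg _) hz (pow_ne_zero _ (Fact.out : p.Prime).ne_zero)
  have h1 := hasSum_lawAdd (p := p) h x y hx hy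
  have hcont : Continuous (iterateFrobenius C p e) := by
    have : (iterateFrobenius C p e : C → C) = fun z => z ^ (p ^ e) := by
      funext z; exact iterateFrobenius_def p e z
    rw [this]; exact continuous_pow _
  have h2 := h1.map (iterateFrobenius C p e) hcont
  have h3 : (iterateFrobenius C p e) ∘ lawTerm p h x y = lawTerm p h (x ^ (p ^ e)) (y ^ (p ^ e)) := by
    funext d
    simp only [Function.comp]
    rw [map_lawTerm]
    simp [iterateFrobenius_def]
  rw [h3] at h2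
  have h4 := hasSum_lawAdd (p := p) h (x ^ (p ^ e)) (y ^ (p ^ e)) (hpow x hx) (hpow y hy)
  rw [← iterateFrobenius_def]
  exact h4.unique h2

/-- Partial inverse of `lawAdd_frob`. -/
theorem pRoot_lawAdd (h e : ℕ) (x y : C) (hx : ‖x‖ < 1) (hy : ‖y‖ < 1) :
    pRoot p e (lawAdd (H0C p h C) x y) = lawAdd (H0C p h C) (pRoot p e x) (pRoot p e y) := by
  have h1 := lawAdd_frob (p := p) h e (pRoot p e x) (pRoot p e y) (norm_pRoot_lt_one p _ _ hx)
    (norm_pRoot_lt_one p _ _ hy)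
  rw [pRoot_pow, pRoot_pow] at h1
  rw [h1, pow_pRoot]

/-! ### Transfer to `B` -/

theorem PeriodField.lawAdd_mem (PF : PeriodField p C r B) (h : ℕ) (a b : PF.Ap) :
    lawAdd (hzv p (eParam h : ℕ → OC B)) (a : B) b ∈ PF.Ap := by
  unfold lawAdd evMv
  refine tsum_mem PF.closed fun d => ?_
  rw [cf_mul_prod_eq]
  have h1 : ∀ d : Fin 2 →₀ ℕ, lawTerm p h (a : B) (b : B) d =
      ((lawTerm p h a b d : PF.Ap) : B) := fun d =>
    (map_lawTerm (PF.Ap.subtype) h a b d).symm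
  rw [h1]
  exact (lawTerm p h a b d).2

theorem PeriodField.continuous_theta (PF : PeriodField p C r B) :
    Continuous (fun x : PF.Ap => ((PF.theta x : OC C) : C)) := by
  refine continuous_iff_continuousAt.mpr fun x => ?_
  rw [ContinuousAt]
  rw [Metric.tendsto_nhds_nhds]
  intro ε hε
  refine ⟨ε, hε, fun y hy => ?_⟩
  rw [dist_eq_norm]
  have h1 : ((PF.theta y : OC C) : C) - ((PF.theta x : OC C) : C) = ((PF.theta (y - x) : OC C) : C) := by
    rw [map_sub]; rfl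
  rw [h1]
  refine lt_of_le_of_lt (PF.norm_theta _) ?_
  have h2 : dist y x = ‖(y : B) - x‖ := dist_eq_norm _ _
  rw [h2] at hy
  simpa using hy

theorem PeriodField.theta_lawAdd (PF : PeriodField p C r B) (h : ℕ) (a b : PF.Ap)
    (ha : ‖(a : B)‖ < 1) (hb : ‖(b : B)‖ < 1) :
    ((PF.theta ⟨lawAdd (hzv p (eParam h : ℕ → OC B)) (a : B) b, PF.lawAdd_mem h a b⟩ : OC C) : C) =
      lawAdd (H0C p h C) ((PF.theta a : OC C) : C) ((PF.theta b : OC C) : C) := by
  have h1 := hasSum_lawAdd (p := p) h (a : B) (b : B) ha hb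
  have hsub : HasSum (lawTerm p h a b)
      (⟨lawAdd (hzv p (eParam h : ℕ → OC B)) (a : B) b, PF.lawAdd_mem h a b⟩ : PF.Ap) := by
    unfold HasSum at h1 ⊢
    rw [tendsto_subtype_rng]
    refine h1.congr fun s => ?_
    rw [AddSubmonoidClass.coe_finsetSum]
    exact Finset.sum_congr rfl fun d _ => (map_lawTerm (PF.Ap.subtype) h a b d).symm
  let Φ : PF.Ap →+* C := (OC C).subtype.comp PF.theta
  have hΦ : Continuous Φ := PF.continuous_theta
  have h2 := hsub.map Φ hΦ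
  have h3 : (Φ ∘ lawTerm p h a b) = lawTerm p h (Φ a) (Φ b) := by
    funext d
    simp only [Function.comp]
    rw [map_lawTerm]
  rw [h3] at h2
  have hna : ‖Φ a‖ < 1 := lt_of_le_of_lt (PF.norm_theta a) ha
  have hnb : ‖Φ b‖ < 1 := lt_of_le_of_lt (PF.norm_theta b) hb
  have h4 := hasSum_lawAdd (p := p) h (Φ a) (Φ b) hna hnb
  exact h2.unique h4

/-- **Additivity of `𝓛` on `H₀(𝔪_C)`.** `𝓛(u) = lim_N p^N log₀([u^(1/P^N)])`, `log₀ = logV` for `eParam h` over `B`
(`ellV = p^(-k)` at `K = hk`, else `0`). `H₀` has `𝔽_p`-coefficients and `[p]_{H₀} = X^P`, so `s = u +_{H₀} v` has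
`s^(1/P^N) = u^(1/P^N) +_{H₀} v^(1/P^N)`. The integral law `Ĥ₀ = hzv p (eParam h)` over `OC B` reduces to `H₀` under `θ`,
so `[s^(1/P^N)] ≡ [u^(1/P^N)] +_{Ĥ₀} [v^(1/P^N)] mod p Ap`, `log_congr` and `logV_add` give
`log₀[s^(1/P^N)] - log₀[u^(1/P^N)] - log₀[v^(1/P^N)] ∈ p Ap`. Multiply by `p^N`, let `N → ∞`. -/
theorem PeriodField.LL_add (PF : PeriodField p C r B) (hr0 : 0 < r) (hr1 : r < 1) (h : ℕ) (hh : 1 ≤ h)
    (u v : LawPt (H0C p h C)) : PF.LL h (u + v).val = PF.LL h u.val + PF.LL h v.val := by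
  have hpn : ‖(p : B)‖ = r := PF.natCast_p_norm
  have hp : (p : B) ≠ 0 := Nat.cast_ne_zero.mpr (Fact.out : p.Prime).ne_zero
  have hu := u.norm_lt
  have hv := v.norm_lt
  have hs := (u + v).norm_lt
  have hbound : ∀ N : ℕ, ‖PF.LL h (u + v).val - PF.LL h u.val - PF.LL h v.val‖ ≤ r ^ (N + 1) := by
    intro N
    set α := pRoot p (h * N) u.val with hα
    set β := pRoot p (h * N) v.val with hβ
    set γ := pRoot p (h * N) (u + v).val with hγ
    have hαn : ‖α‖ < 1 := norm_pRoot_lt_one p _ _ hu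
    have hβn : ‖β‖ < 1 := norm_pRoot_lt_one p _ _ hv
    have hγn : ‖γ‖ < 1 := norm_pRoot_lt_one p _ _ hs
    have hγeq : γ = lawAdd (H0C p h C) α β := by
      rw [hγ, LawPt.val_add, pRoot_lawAdd h _ _ _ hu hv]
    let a : PF.Ap := ⟨PF.tc α, PF.tc_mem α⟩
    let b : PF.Ap := ⟨PF.tc β, PF.tc_mem β⟩
    let g : PF.Ap := ⟨PF.tc γ, PF.tc_mem γ⟩
    let c : PF.Ap := ⟨lawAdd (hzv p (eParam h : ℕ → OC B)) (a : B) b, PF.lawAdd_mem h a b⟩
    have han : ‖(a : B)‖ < 1 := by
      show ‖PF.tc α‖ < 1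
      rw [PF.norm_tc hαn.le]; exact hαn
    have hbn : ‖(b : B)‖ < 1 := by
      show ‖PF.tc β‖ < 1
      rw [PF.norm_tc hβn.le]; exact hβn
    have hgn : ‖(g : B)‖ < 1 := by
      show ‖PF.tc γ‖ < 1
      rw [PF.norm_tc hγn.le]; exact hγn
    have hcn : ‖(c : B)‖ < 1 := by
      refine lt_of_le_of_lt (norm_lawAdd_le _ _ _ han hbn) (max_lt han hbn)
    have hθc : ((PF.theta c : OC C) : C) = γ := by
      rw [PF.theta_lawAdd h a b han hbn, hγeq]
      show lawAdd (H0C p h C) ((PF.theta ⟨PF.tc α, PF.tc_mem α⟩ : OC C) : C)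
        ((PF.theta ⟨PF.tc β, PF.tc_mem β⟩ : OC C) : C) = _
      rw [PF.theta_tc hαn.le, PF.theta_tc hβn.le]
    have hθg : ((PF.theta g : OC C) : C) = γ := PF.theta_tc hγn.le
    have hker : PF.theta (g - c) = 0 := by
      rw [map_sub]
      apply sub_eq_zero.mpr
      exact Subtype.ext (hθg.trans hθc.symm)
    obtain ⟨y, hy⟩ := PF.ker_theta _ hker
    obtain ⟨y', hy'⟩ := PF.log_congr hr0 hr1 h hh g c hgn hcn ⟨y, by simpa using hy⟩
    have hsumg := summable_log0 (p := p) h hh hp (g : B) hgn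
    have hsumc := summable_log0 (p := p) h hh hp (c : B) hcn
    have hlog1 : log0 p h (g : B) - log0 p h (c : B) = (p : B) * y' := by
      rw [← hy']
      unfold log0
      rw [← hsumg.tsum_sub hsumc]
      refine tsum_congr fun k => ?_
      rw [sub_div]
    have hlog2 : log0 p h (c : B) = log0 p h (a : B) + log0 p h (b : B) := by
      rw [← logV_eParam (p := p) h hh, ← logV_eParam (p := p) h hh, ← logV_eParam (p := p) h hh]
      exact logV_add p _ _ _ han hbn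
    have hE1 := PF.norm_LL_sub_log0 hr0 hr1 h hh _ hs N
    have hE2 := PF.norm_LL_sub_log0 hr0 hr1 h hh _ hu N
    have hE3 := PF.norm_LL_sub_log0 hr0 hr1 h hh _ hv N
    have hE4 : ‖(p : B) ^ N * ((p : B) * y')‖ ≤ r ^ (N + 1) := by
      rw [norm_mul, norm_mul, norm_pow, hpn, pow_succ]
      have : ‖(y' : B)‖ ≤ 1 := PF.le_one _ y'.2
      have hr00 : 0 ≤ r ^ N * r := by positivity
      nlinarith [norm_nonneg (y' : B)]
    have hid : PF.LL h (u + v).val - PF.LL h u.val - PF.LL h v.val =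
        (PF.LL h (u + v).val - (p : B) ^ N * log0 p h (PF.tc γ))
          - (PF.LL h u.val - (p : B) ^ N * log0 p h (PF.tc α))
          - (PF.LL h v.val - (p : B) ^ N * log0 p h (PF.tc β))
          + (p : B) ^ N * ((p : B) * y') := by
      rw [← hlog1, hlog2]
      show _ = _ - _ - _ + (p : B) ^ N * (log0 p h (PF.tc γ) - (log0 p h (PF.tc α) + log0 p h (PF.tc β)))
      ring
    rw [hid]
    refine (IsUltrametricDist.norm_add_le_max _ _).trans (max_le ?_ hE4)
    refine (norm_sub_le_max' _ _).trans (max_le ?_ hE3)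
    exact (norm_sub_le_max' _ _).trans (max_le hE1 hE2)
  have hlim : Filter.Tendsto (fun N : ℕ => r ^ (N + 1)) Filter.atTop (nhds 0) :=
    (tendsto_pow_atTop_nhds_zero_of_lt_one hr0.le hr1).comp (Filter.tendsto_add_atTop_nat 1)
  have hle := ge_of_tendsto' hlim hbound
  have h0 : ‖PF.LL h (u + v).val - PF.LL h u.val - PF.LL h v.val‖ = 0 :=
    le_antisymm hle (norm_nonneg _)
  have h1 := norm_eq_zero.mp h0
  linear_combination h1

/-- `𝓛 → 0` at `0`: for `ε > 0` take `t` with `r^t < ε`; terms with `|k| ≥ t` are `< ε` once `‖w‖ < 1/2`-ish; the finitely many others are small for `w` small. -/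
theorem PeriodField.tendsto_LL_zero (PF : PeriodField p C r B) (hr0 : 0 < r) (hr1 : r < 1) (h : ℕ)
    (hh : 1 ≤ h) : Filter.Tendsto (PF.LL h) (nhdsWithin 0 {x | ‖x‖ < 1}) (nhds 0) := by
  have hpn : ‖(p : B)‖ = r := PF.natCast_p_norm
  have hp2 : 2 ≤ p := (Fact.out : p.Prime).two_le
  rw [Metric.tendsto_nhdsWithin_nhds]
  intro ε hε
  set ε' : ℝ := min (ε / 2) (1 / 2) with hε'
  have hε'0 : 0 < ε' := lt_min (by positivity) (by norm_num)
  have hε'1 : ε' < 1 := lt_of_le_of_lt (min_le_right _ _) (by norm_num)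
  have hε'ε : ε' < ε := lt_of_le_of_lt (min_le_left _ _) (by linarith)
  obtain ⟨t, ht⟩ : ∃ t : ℕ, r ^ t < ε' := exists_pow_lt_of_lt_one hε'0 hr1
  refine ⟨min r (ε' ^ (p ^ (h * t))), lt_min hr0 (by positivity), ?_⟩
  intro x hx1 hxδ
  rw [dist_zero_right] at hxδ
  rw [dist_zero_right]
  have hxr : ‖x‖ < r := lt_of_lt_of_le hxδ (min_le_left _ _)
  have hxε : ‖x‖ < ε' ^ (p ^ (h * t)) := lt_of_lt_of_le hxδ (min_le_right _ _)
  have hx1' : ‖x‖ < 1 := hx1
  refine lt_of_le_of_lt ?_ hε'ε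
  refine IsUltrametricDist.norm_tsum_le_of_forall_le_of_nonneg hε'0.le fun j => ?_
  rw [norm_mul, norm_zpow, hpn]
  obtain ⟨m, rfl | rfl⟩ := j.eq_nat_or_neg
  · -- `j = m ≥ 0`
    have e1 : fpow p ((0 : ℤ) + h * (m : ℤ)) x = x ^ (p ^ (h * m)) := by
      rw [← fpow_natCast]; congr 1; push_cast; ring
    rw [e1, PF.norm_tc (by rw [norm_pow]; exact pow_le_one₀ (norm_nonneg _) hx1'.le), norm_pow]
    rw [zpow_neg, zpow_natCast]
    have hm : m + 1 ≤ p ^ (h * m) := by
      calc m + 1 ≤ 2 ^ m := Nat.lt_two_pow_self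
        _ ≤ p ^ m := Nat.pow_le_pow_left hp2 m
        _ ≤ p ^ (h * m) := Nat.pow_le_pow_right (by omega) (Nat.le_mul_of_pos_left m (by omega))
    have h1 : ‖x‖ ^ (p ^ (h * m)) ≤ ‖x‖ ^ (m + 1) := pow_le_pow_of_le_one (norm_nonneg _) hx1'.le hm
    have h2 : ‖x‖ ^ m ≤ r ^ m := pow_le_pow_left₀ (norm_nonneg _) hxr.le m
    have h3 : ‖x‖ ≤ ε' := by
      have : ε' ^ (p ^ (h * t)) ≤ ε' ^ 1 :=
        pow_le_pow_of_le_one hε'0.le hε'1.le (Nat.one_le_pow _ _ (by omega))
      rw [pow_one] at this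
      exact hxε.le.trans this
    have hrm : 0 < r ^ m := by positivity
    rw [← div_eq_mul_inv, div_le_iff₀ hrm]
    calc ‖x‖ ^ (p ^ (h * m)) ≤ ‖x‖ ^ (m + 1) := h1
      _ = ‖x‖ ^ m * ‖x‖ := pow_succ _ _
      _ ≤ r ^ m * ε' := by gcongr
      _ = ε' * r ^ m := mul_comm _ _
  · -- `j = -m`
    rw [neg_neg, zpow_natCast]
    have e1 : fpow p ((0 : ℤ) + h * (-(m : ℤ))) x = pRoot p (h * m) x := by
      rw [← fpow_neg_natCast]; congr 1; push_cast; ring
    rw [e1]
    have hy1 : ‖pRoot p (h * m) x‖ < 1 := norm_pRoot_lt_one p _ _ hx1'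
    rw [PF.norm_tc hy1.le]
    by_cases hmt : t ≤ m
    · calc ‖pRoot p (h * m) x‖ * r ^ m ≤ 1 * r ^ m := by gcongr
        _ = r ^ m := one_mul _
        _ ≤ r ^ t := pow_le_pow_of_le_one hr0.le hr1.le hmt
        _ ≤ ε' := ht.le
    · have hQ : p ^ (h * m) ≤ p ^ (h * t) :=
        Nat.pow_le_pow_right (by omega) (Nat.mul_le_mul_left h (by omega))
      have h1 : ‖pRoot p (h * m) x‖ ^ (p ^ (h * m)) = ‖x‖ := norm_pRoot p _ _
      have h2 : ‖x‖ ≤ ε' ^ (p ^ (h * m)) :=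
        hxε.le.trans (pow_le_pow_of_le_one hε'0.le hε'1.le hQ)
      have h3 : ‖pRoot p (h * m) x‖ ≤ ε' := by
        rw [← h1] at h2
        exact (pow_le_pow_iff_left₀ (norm_nonneg _) hε'0.le
          (pow_ne_zero _ (by omega))).mp h2
      calc ‖pRoot p (h * m) x‖ * r ^ m ≤ ε' * 1 := by
            gcongr
            exact pow_le_one₀ hr0.le hr1.le
        _ = ε' := mul_one _

/-- `𝓛` is continuous on `H₀(𝔪_C)` (additive + continuous at `0`). -/
theorem PeriodField.continuous_LL (PF : PeriodField p C r B) (hr0 : 0 < r) (hr1 : r < 1) (h : ℕ)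
    (hh : 1 ≤ h) (u : ℕ → LawPt (H0C p h C)) (s : LawPt (H0C p h C))
    (hu : Filter.Tendsto (fun N => (u N).val) Filter.atTop (nhds s.val)) :
    Filter.Tendsto (fun N => PF.LL h (u N).val) Filter.atTop (nhds (PF.LL h s.val)) := by
  have hsub : ∀ x y : LawPt (H0C p h C), PF.LL h (x - y).val = PF.LL h x.val - PF.LL h y.val := by
    intro x y
    have h1 := PF.LL_add hr0 hr1 h hh (x - y) y
    rw [sub_add_cancel] at h1
    rw [h1]; ring
  have h0 : Filter.Tendsto (fun N => ((u N) - s : LawPt (H0C p h C)).val) Filter.atTop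
      (nhdsWithin 0 {x | ‖x‖ < 1}) := by
    rw [tendsto_nhdsWithin_iff]
    refine ⟨?_, Filter.Eventually.of_forall fun N => LawPt.norm_lt _⟩
    rw [tendsto_zero_iff_norm_tendsto_zero]
    simp only [LawPt.norm_sub_eq]
    exact (tendsto_iff_norm_sub_tendsto_zero).mp hu
  have h1 := (PF.tendsto_LL_zero hr0 hr1 h hh).comp h0
  have h2 : (PF.LL h ∘ fun N => ((u N) - s : LawPt (H0C p h C)).val) =
      fun N => PF.LL h (u N).val - PF.LL h s.val := by
    funext N
    exact hsub _ _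
  rw [h2] at h1
  exact tendsto_sub_nhds_zero_iff.mp h1

/-- `𝓛` is injective on the ball: `‖𝓛(u)‖ ≥ ‖u‖` by `norm_digits` applied to partial sums (multiplied by `p^K`). -/
theorem PeriodField.LL_eq_zero (PF : PeriodField p C r B) (hr0 : 0 < r) (hr1 : r < 1) (h : ℕ) (hh : 1 ≤ h)
    (u : C) (hu : ‖u‖ < 1) (h0 : PF.LL h u = 0) : u = 0 := by
  by_contra hne
  have hpn : ‖(p : B)‖ = r := PF.natCast_p_norm
  have hp : (p : B) ≠ 0 := Nat.cast_ne_zero.mpr (Fact.out : p.Prime).ne_zero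
  have hp2 : 2 ≤ p := (Fact.out : p.Prime).two_le
  have hx0 : 0 < ‖u‖ := norm_pos_iff.mpr hne
  set x := ‖u‖ with hx
  set f : ℤ → B := fun k => PF.tc (fpow p ((0 : ℤ) + h * k) u) * ((p : B) ^ (-k)) with hfdef
  have hf : Summable f := PF.summable_ell hr0 hr1 h (by omega) 0 u hu
  have hLL : ∑' j : ℤ, f j = 0 := h0
  -- the window
  have hev := (tendsto_pow_two_pow_div x r hx0.le hu hr0).eventually (gt_mem_nhds (half_pos hx0))
  obtain ⟨K, hK⟩ := Filter.eventually_atTop.mp hev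
  set c : ℝ := r ^ K * (x / 2) with hc
  have hc0 : 0 < c := by positivity
  obtain ⟨M₀, hM₀⟩ : ∃ M : ℕ, r ^ M < c := exists_pow_lt_of_lt_one hc0 hr1
  set M := max M₀ (K + 1) with hM
  have hMK : K < M := lt_of_lt_of_le (Nat.lt_succ_self K) (le_max_right _ _)
  have hrM : r ^ M ≤ c := (pow_le_pow_of_le_one hr0.le hr1.le (le_max_left _ _)).trans hM₀.le
  -- digits
  let a : ℕ → OC C := fun j => ⟨fpow p ((0 : ℤ) + h * ((K : ℤ) - j)) u, (norm_fpow_lt_one _ _ hu).le⟩
  have hdig := PF.norm_digits M a K hMK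
  have haK : ((a K : OC C) : C) = u := by
    show fpow p ((0 : ℤ) + h * ((K : ℤ) - K)) u = u
    have := fpow_natCast (p := p) 0 u
    simp only [Nat.cast_zero, pow_zero, pow_one] at this
    simpa using this
  rw [haK] at hdig
  -- split the series
  set W : Finset ℤ := (Finset.range M).image (fun j : ℕ => (K : ℤ) - j) with hW
  have hinjW : Function.Injective (fun j : ℕ => (K : ℤ) - j) := fun a b hab => by
    simpa using hab
  have hsplit := hf.sum_add_tsum_compl (s := W)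
  rw [hLL] at hsplit
  have hD : (∑ k ∈ W, f k) * (p : B) ^ K =
      ∑ j ∈ Finset.range M, PF.teich (a j) * (p : B) ^ j := by
    rw [hW, Finset.sum_image (fun x _ y _ hxy => hinjW hxy), Finset.sum_mul]
    refine Finset.sum_congr rfl fun j hj => ?_
    simp only [hfdef]
    have h1 : PF.tc (fpow p ((0 : ℤ) + h * ((K : ℤ) - j)) u) = PF.teich (a j) :=
      PF.tc_of_le (norm_fpow_lt_one _ _ hu).le
    rw [h1, mul_assoc]
    congr 1
    rw [neg_sub, zpow_sub₀ hp, zpow_natCast, zpow_natCast]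
    field_simp
  have hout : ‖∑' k : ↑((W : Set ℤ)ᶜ), f k‖ * r ^ K ≤ c := by
    have hb : ∀ k : ↑((W : Set ℤ)ᶜ), ‖f k‖ * r ^ K ≤ c := by
      rintro ⟨k, hk⟩
      simp only [hfdef]
      rw [norm_mul, norm_zpow, hpn]
      have hkW : ∀ j : ℕ, j < M → k ≠ (K : ℤ) - j := by
        intro j hj hkj
        apply hk
        simp only [hW, Finset.coe_image, Set.mem_image]
        exact ⟨j, by simpa using hj, hkj.symm⟩
      by_cases hkK : (K : ℤ) < k
      · -- `k > K`
        obtain ⟨m, rfl⟩ : ∃ m : ℕ, k = m := ⟨k.toNat, (Int.toNat_of_nonneg (by omega)).symm⟩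
        have hKm : K ≤ m := by omega
        have e1 : fpow p ((0 : ℤ) + h * (m : ℤ)) u = u ^ (p ^ (h * m)) := by
          rw [← fpow_natCast]; congr 1; push_cast; ring
        rw [e1, PF.norm_tc (by rw [norm_pow]; exact pow_le_one₀ (norm_nonneg _) hu.le), norm_pow,
          zpow_neg, zpow_natCast]
        have h1 : x ^ (p ^ (h * m)) ≤ x ^ (2 ^ m) := by
          refine pow_le_pow_of_le_one hx0.le hu.le ?_
          calc 2 ^ m ≤ p ^ m := Nat.pow_le_pow_left hp2 m
            _ ≤ p ^ (h * m) := Nat.pow_le_pow_right (by omega) (Nat.le_mul_of_pos_left m (by omega))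
        have h2 := hK m hKm
        have hrm : 0 < r ^ m := by positivity
        have h3 : x ^ (p ^ (h * m)) * (r ^ m)⁻¹ ≤ x / 2 := by
          rw [← div_eq_mul_inv]
          exact (div_le_div_of_nonneg_right h1 hrm.le).trans h2.le
        calc x ^ (p ^ (h * m)) * (r ^ m)⁻¹ * r ^ K ≤ (x / 2) * r ^ K := by gcongr
          _ = c := by rw [hc]; ring
      · -- `k ≤ K`, outside the window: `K - k ≥ M`
        obtain ⟨j, hj⟩ : ∃ j : ℕ, (K : ℤ) - k = j := ⟨((K : ℤ) - k).toNat, (Int.toNat_of_nonneg (by omega)).symm⟩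
        have hjM : M ≤ j := by
          by_contra hlt
          exact hkW j (by omega) (by omega)
        have h1 : r ^ (-k) * r ^ K = r ^ j := by
          rw [← zpow_natCast r K, ← zpow_add₀ hr0.ne', ← zpow_natCast r j]
          congr 1
          omega
        calc ‖PF.tc (fpow p ((0 : ℤ) + h * k) u)‖ * r ^ (-k) * r ^ K ≤ 1 * r ^ (-k) * r ^ K := by
              gcongr; exact PF.norm_tc_le_one _
          _ = r ^ j := by rw [one_mul, h1]
          _ ≤ r ^ M := pow_le_pow_of_le_one hr0.le hr1.le hjM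
          _ ≤ c := hrM
    have hrK : 0 < r ^ K := by positivity
    rw [← le_div_iff₀ hrK]
    refine IsUltrametricDist.norm_tsum_le_of_forall_le_of_nonneg (by positivity) fun k => ?_
    rw [le_div_iff₀ hrK]
    exact hb k
  have hsum : ∑ j ∈ Finset.range M, PF.teich (a j) * (p : B) ^ j =
      -((∑' k : ↑((W : Set ℤ)ᶜ), f k) * (p : B) ^ K) := by
    rw [← hD]
    have : ∑ k ∈ W, f k = -(∑' k : ↑((W : Set ℤ)ᶜ), f k) := by
      linear_combination hsplit
    rw [this]; ring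
  rw [hsum, norm_neg, norm_mul, norm_pow, hpn] at hdig
  have hlt : c < x * r ^ K := by
    have hrK : 0 < r ^ K := by positivity
    rw [hc]
    nlinarith [mul_pos hrK hx0]
  linarith

end Group

end

end Crest.Agent.LT
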