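/-
S0351 package WITT/EXP, private helper: Teichmüller lemmas, real estimates, the coefficient uniqueness theorem.
-/
import Crest.Agent.LT.Witt.Log
import Crest.Agent.LT.Tokens

set_option autoImplicit false
set_option linter.unusedSectionVars false
set_option linter.deprecated false

open Crest.LubinTate
open Filter Topology

namespace Crest.Agent.LT

noncomputable section

section RealEstimates

variable (p : ℕ) [Fact p.Prime]

theorem one_lt_p_real : (1 : ℝ) < (p : ℝ) := by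
  exact_mod_cast (Fact.out : p.Prime).one_lt

theorem p_real_pos : (0 : ℝ) < (p : ℝ) := lt_trans zero_lt_one (one_lt_p_real p)

/-- `a^K x^(p^K)` is summable over `K ∈ ℤ`, for `a > 1`, `0 ≤ x < 1`. -/
theorem summable_zpow_mul_rpow (a x : ℝ) (ha : 1 < a) (hx0 : 0 ≤ x) (hx : x < 1) :
    Summable (fun K : ℤ => a ^ K * x ^ ((p : ℝ) ^ K)) := by
  have ha0 : 0 < a := lt_trans zero_lt_one ha
  have hp1 := one_lt_p_real p
  have hp0 := p_real_pos p
  -- the power of `p` above `2 a`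
  obtain ⟨c, hc⟩ := pow_unbounded_of_one_lt (2 * a) hp1
  -- boundedness of `n^c x^n`
  have hT : Tendsto (fun n : ℕ => (n : ℝ) ^ c * x ^ n) atTop (𝓝 0) :=
    tendsto_pow_const_mul_const_pow_of_abs_lt_one c (by rw [abs_of_nonneg hx0]; exact hx)
  obtain ⟨M, hM⟩ := hT.bddAbove_range
  have hM' : ∀ n : ℕ, (n : ℝ) ^ c * x ^ n ≤ M := fun n => hM ⟨n, rfl⟩
  have hM0 : 0 ≤ M := le_trans (by positivity) (hM' 0)
  refine Summable.of_nat_of_neg_add_one ?_ ?_
  · -- `K ≥ 0`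
    have hgeo : Summable (fun K : ℕ => M * (1 / 2 : ℝ) ^ K) :=
      (summable_geometric_of_lt_one (by norm_num) (by norm_num)).mul_left _
    refine Summable.of_nonneg_of_le (fun K => ?_) (fun K => ?_) hgeo
    · simp only [zpow_natCast]; positivity
    · simp only [zpow_natCast]
      have h1 : x ^ ((p : ℝ) ^ K) = x ^ (p ^ K) := by
        rw [← Real.rpow_natCast x (p ^ K)]; push_cast; rfl
      rw [h1]
      have h2 : (2 * a) ^ K * x ^ (p ^ K) ≤ M := by
        have h3 : (2 * a) ^ K ≤ (((p ^ K : ℕ) : ℝ)) ^ c := by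
          push_cast
          rw [← pow_mul, mul_comm K c, pow_mul]
          exact pow_le_pow_left₀ (by positivity) hc.le K
        calc (2 * a) ^ K * x ^ (p ^ K) ≤ ((p ^ K : ℕ) : ℝ) ^ c * x ^ (p ^ K) := by gcongr
          _ ≤ M := hM' _
      have h4 : a ^ K * x ^ (p ^ K) = (1 / 2 : ℝ) ^ K * ((2 * a) ^ K * x ^ (p ^ K)) := by
        rw [mul_pow, ← mul_assoc, ← mul_assoc, ← mul_pow]; norm_num
      rw [h4, mul_comm M]
      gcongr
  · -- `K < 0`
    have hgeo : Summable (fun K : ℕ => (a⁻¹) * (a⁻¹) ^ K) :=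
      (summable_geometric_of_lt_one (by positivity) (inv_lt_one_of_one_lt₀ ha)).mul_left _
    refine Summable.of_nonneg_of_le (fun K => ?_) (fun K => ?_) hgeo
    · positivity
    · have h1 : x ^ ((p : ℝ) ^ (-(K + 1 : ℤ))) ≤ 1 := by
        refine Real.rpow_le_one hx0 hx.le ?_
        positivity
      have h2 : a ^ (-((K : ℤ) + 1)) = a⁻¹ * a⁻¹ ^ K := by
        rw [zpow_neg, zpow_add_one₀ ha0.ne', zpow_natCast, mul_inv, inv_pow, mul_comm]
      rw [show (-(K + 1 : ℤ)) = -((K : ℤ) + 1) from rfl] at *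
      rw [h2]
      calc a⁻¹ * a⁻¹ ^ K * x ^ ((p : ℝ) ^ (-((K : ℤ) + 1))) ≤ a⁻¹ * a⁻¹ ^ K * 1 := by
            gcongr
        _ = _ := mul_one _

/-- `s^(p^m) → 0`, uniformly: for `ε > 0`, `s^(p^m) ≤ ε` for all large integers `m`. -/
theorem exists_rpow_pow_le (s ε : ℝ) (hs0 : 0 < s) (hs1 : s < 1) (hε : 0 < ε) :
    ∃ K : ℕ, ∀ m : ℤ, (K : ℤ) ≤ m → s ^ ((p : ℝ) ^ m) ≤ ε := by
  have hp1 := one_lt_p_real p
  have hp0 := p_real_pos p
  have hT : Tendsto (fun K : ℕ => s ^ ((p : ℝ) ^ K)) atTop (𝓝 0) :=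
    (tendsto_rpow_atTop_of_base_lt_one s (by linarith) hs1).comp
      (tendsto_pow_atTop_atTop_of_one_lt hp1)
  obtain ⟨K, hK⟩ := ((hT.eventually (gt_mem_nhds hε))).exists
  refine ⟨K, fun m hm => ?_⟩
  have h1 : (p : ℝ) ^ K ≤ (p : ℝ) ^ m := by
    rw [← zpow_natCast]; exact zpow_le_zpow_right₀ hp1.le hm
  exact (Real.rpow_le_rpow_of_exponent_ge hs0 hs1.le h1).trans hK.le

/-- `s^(p^(J + nN)) → 0` as `N → ∞`. -/
theorem tendsto_rpow_pow_shift (s : ℝ) (hs0 : 0 < s) (hs1 : s < 1) (J : ℤ) (n : ℕ) (hn : 1 ≤ n) :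
    Tendsto (fun N : ℕ => s ^ ((p : ℝ) ^ (J + n * N))) atTop (𝓝 0) := by
  rw [Metric.tendsto_atTop]
  intro ε hε
  obtain ⟨K, hK⟩ := exists_rpow_pow_le p s (ε / 2) hs0 hs1 (half_pos hε)
  refine ⟨(K + J.natAbs), fun N hN => ?_⟩
  have h1 : (K : ℤ) ≤ J + n * N := by
    have h2 : (K : ℤ) + (J.natAbs : ℤ) ≤ N := by exact_mod_cast hN
    have h3 : (N : ℤ) ≤ n * N := by
      have : (1 : ℤ) ≤ n := by exact_mod_cast hn
      nlinarith [Int.natCast_nonneg N]
    have h4 : -(J.natAbs : ℤ) ≤ J := by omega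
    linarith
  have h5 := hK _ h1
  rw [Real.dist_eq, sub_zero, abs_of_nonneg (Real.rpow_nonneg hs0.le _)]
  linarith

end RealEstimates

section Teich

variable {p : ℕ} [Fact p.Prime]
variable {C : Type} [NontriviallyNormedField C] [IsUltrametricDist C] [CompleteSpace C]
  [CharP C p] [IsAlgClosed C]
variable {r : ℝ} {B : Type} [NontriviallyNormedField B] [IsUltrametricDist B] [CompleteSpace B]
  [CharZero B]

/-- `[u^(p^K)]`. -/
abbrev PeriodField.tF (PF : PeriodField p C r B) (K : ℤ) (u : C) : B := PF.tc (fpow p K u)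

theorem PeriodField.tc_mul (PF : PeriodField p C r B) {u v : C} (hu : ‖u‖ ≤ 1) (hv : ‖v‖ ≤ 1) :
    PF.tc (u * v) = PF.tc u * PF.tc v := by
  have huv : ‖u * v‖ ≤ 1 := by
    rw [norm_mul]; exact mul_le_one₀ hu (norm_nonneg _) hv
  rw [PF.tc_of_le huv, PF.tc_of_le hu, PF.tc_of_le hv, ← map_mul]
  rfl

theorem PeriodField.tc_zero (PF : PeriodField p C r B) : PF.tc (0 : C) = 0 := by
  have h := PF.norm_tc (u := (0 : C)) (by simp)
  simpa using h

theorem PeriodField.tc_one (PF : PeriodField p C r B) : PF.tc (1 : C) = 1 := by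
  rw [PF.tc_of_le (u := (1 : C)) (by simp)]
  exact map_one PF.teich

theorem fpow_zero_base (e : ℤ) : fpow p e (0 : C) = 0 := by
  have h := norm_fpow p e (0 : C)
  have hp : (p : ℝ) ^ e ≠ 0 := (zpow_pos (p_real_pos p) e).ne'
  rw [norm_zero, Real.zero_rpow hp] at h
  simpa using h

theorem fpow_one_base (e : ℤ) : fpow p e (1 : C) = 1 := by
  rcases le_or_gt 0 e with he | he
  · simp [fpow, he]
  · -- `x := fpow e 1`, `x ^ (p ^ |e|) = 1`; Frobenius injective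
    have h1 : fpow p (e + (-e)) (1 : C) = fpow p e (fpow p (-e) (1 : C)) := fpow_add p e (-e) 1
    have h2 : fpow p (-e) (1 : C) = 1 := by
      have h3 : 0 ≤ -e := by omega
      rw [fpow, if_pos h3, one_pow]
    rw [h2] at h1
    rw [← h1, add_neg_cancel, fpow, if_pos le_rfl]
    simp

theorem norm_fpow_le_one (e : ℤ) {u : C} (hu : ‖u‖ ≤ 1) : ‖fpow p e u‖ ≤ 1 := by
  rw [norm_fpow p]
  exact Real.rpow_le_one (norm_nonneg _) hu (zpow_pos (p_real_pos p) e).le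

theorem PeriodField.norm_tF (PF : PeriodField p C r B) (K : ℤ) {u : C} (hu : ‖u‖ ≤ 1) :
    ‖PF.tF K u‖ = ‖u‖ ^ ((p : ℝ) ^ K) := by
  rw [PeriodField.tF, PF.norm_tc (norm_fpow_le_one K hu), norm_fpow p]

theorem PeriodField.norm_tF_le_one (PF : PeriodField p C r B) (K : ℤ) {u : C} (hu : ‖u‖ ≤ 1) :
    ‖PF.tF K u‖ ≤ 1 := by
  rw [PeriodField.tF, PF.norm_tc (norm_fpow_le_one K hu)]
  exact norm_fpow_le_one K hu

theorem PeriodField.tF_mul (PF : PeriodField p C r B) (K : ℤ) {u v : C} (hu : ‖u‖ ≤ 1)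
    (hv : ‖v‖ ≤ 1) : PF.tF K (u * v) = PF.tF K u * PF.tF K v := by
  rw [PeriodField.tF, fpow_mul p, PF.tc_mul (norm_fpow_le_one K hu) (norm_fpow_le_one K hv)]

theorem PeriodField.tF_fpow (PF : PeriodField p C r B) (K e : ℤ) (u : C) :
    PF.tF K (fpow p e u) = PF.tF (K + e) u := by
  rw [PeriodField.tF, PeriodField.tF, fpow_add p]

theorem PeriodField.tF_zero (PF : PeriodField p C r B) (K : ℤ) : PF.tF K (0 : C) = 0 := by
  rw [PeriodField.tF, fpow_zero_base, PF.tc_zero]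

theorem PeriodField.tF_one (PF : PeriodField p C r B) (K : ℤ) : PF.tF K (1 : C) = 1 := by
  rw [PeriodField.tF, fpow_one_base, PF.tc_one]

end Teich

section Unique

/-- Ultrametric: a strict maximal term cannot be cancelled. -/
theorem tsum_ne_zero_of_strict_max {ι B : Type*} [NormedField B] [IsUltrametricDist B]
    [CompleteSpace B] (f : ι → B) (hf : Tendsto f cofinite (𝓝 0)) (i₀ : ι) (h0 : f i₀ ≠ 0)
    (hmax : ∀ i, i ≠ i₀ → ‖f i‖ < ‖f i₀‖) : ∑' i, f i ≠ 0 := by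
  classical
  have hs : Summable f := NonarchimedeanAddGroup.summable_of_tendsto_cofinite_zero hf
  have hpos : 0 < ‖f i₀‖ := norm_pos_iff.mpr h0
  have hfin : {i | ‖f i₀‖ / 2 ≤ ‖f i‖}.Finite := by
    have h1 : ∀ᶠ i in cofinite, f i ∈ Metric.ball (0 : B) (‖f i₀‖ / 2) :=
      hf (Metric.ball_mem_nhds _ (half_pos hpos))
    rw [Filter.eventually_cofinite] at h1
    refine h1.subset (fun i hi => ?_)
    simp only [Set.mem_setOf_eq, Metric.mem_ball, dist_zero_right, not_lt] at hi ⊢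
    exact hi
  -- a uniform bound on the other terms
  obtain ⟨ε, hε0, hε1, hε⟩ : ∃ ε : ℝ, 0 ≤ ε ∧ ε < ‖f i₀‖ ∧ ∀ i, i ≠ i₀ → ‖f i‖ ≤ ε := by
    let S : Finset ι := hfin.toFinset.erase i₀
    let T : Finset ℝ := insert (‖f i₀‖ / 2) (S.image fun i => ‖f i‖)
    have hT : T.Nonempty := Finset.insert_nonempty _ _
    refine ⟨T.max' hT, ?_, ?_, fun i hi => ?_⟩
    · exact le_trans (by positivity) (Finset.le_max' T (‖f i₀‖ / 2) (Finset.mem_insert_self _ _))
    · rw [Finset.max'_lt_iff]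
      intro y hy
      rcases Finset.mem_insert.mp hy with rfl | hy
      · linarith
      · obtain ⟨i, hi, rfl⟩ := Finset.mem_image.mp hy
        exact hmax i (Finset.ne_of_mem_erase hi)
    · by_cases hi2 : ‖f i₀‖ / 2 ≤ ‖f i‖
      · refine Finset.le_max' T _ (Finset.mem_insert_of_mem (Finset.mem_image.mpr ⟨i, ?_, rfl⟩))
        exact Finset.mem_erase.mpr ⟨hi, hfin.mem_toFinset.mpr hi2⟩
      · exact (not_le.mp hi2).le.trans
          (Finset.le_max' T (‖f i₀‖ / 2) (Finset.mem_insert_self _ _))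
  intro hsum
  have h1 : ‖∑' i, (if i = i₀ then 0 else f i)‖ ≤ ε :=
    IsUltrametricDist.norm_tsum_le_of_forall_le_of_nonneg hε0 (fun i => by
      by_cases hi : i = i₀
      · simpa [hi] using hε0
      · simpa [hi] using hε i hi)
  have h2 : ∑' i, f i = f i₀ + ∑' i, (if i = i₀ then 0 else f i) := hs.tsum_eq_add_tsum_ite i₀
  rw [hsum] at h2
  have h3 : f i₀ = - ∑' i, (if i = i₀ then 0 else f i) := by
    rw [eq_neg_iff_add_eq_zero]; exact h2.symm
  rw [h3, norm_neg] at hε1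
  linarith

/-- The value group of an algebraically closed nontrivially normed field is dense: any nonempty open
set of positive reals contains some `ν` with `‖w‖ = exp(-ν)`, `w ≠ 0`. -/
theorem exists_norm_eq_exp (C : Type) [NontriviallyNormedField C] [IsAlgClosed C] (U : Set ℝ)
    (hU : IsOpen U) (hne : U.Nonempty) (hpos : U ⊆ Set.Ioi 0) :
    ∃ (w : C) (ν : ℝ), w ≠ 0 ∧ ν ∈ U ∧ ‖w‖ = Real.exp (-ν) := by
  obtain ⟨g, hg⟩ := NormedField.exists_one_lt_norm C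
  have hg0 : 0 < ‖g‖ := lt_trans zero_lt_one hg
  set L := Real.log ‖g‖ with hL
  have hLpos : 0 < L := Real.log_pos hg
  obtain ⟨ν₀, hν₀⟩ := hne
  obtain ⟨ε, hε, hball⟩ := Metric.isOpen_iff.mp hU ν₀ hν₀
  obtain ⟨q, hq1, hq2⟩ := exists_rat_btwn
    (show (ν₀ - ε) / L < (ν₀ + ε) / L from by
      apply div_lt_div_of_pos_right _ hLpos; linarith)
  have hqmem : L * q ∈ U := by
    apply hball
    rw [Metric.mem_ball, Real.dist_eq, abs_lt]
    rw [div_lt_iff₀ hLpos] at hq1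
    rw [lt_div_iff₀ hLpos] at hq2
    constructor <;> nlinarith
  have hqpos : (0 : ℝ) < q := by
    have h1 : 0 < L * q := hpos hqmem
    exact (pos_iff_pos_of_mul_pos h1).mp hLpos
  have hqpos' : 0 < q := by exact_mod_cast hqpos
  -- `q = m / N`
  obtain ⟨m, hm⟩ : ∃ m : ℕ, (m : ℤ) = q.num := ⟨q.num.toNat, Int.toNat_of_nonneg (Rat.num_nonneg.mpr hqpos'.le)⟩
  have hN : q.den ≠ 0 := q.den_nz
  obtain ⟨w, hw⟩ := IsAlgClosed.exists_pow_nat_eq ((g⁻¹) ^ m : C) (Nat.pos_of_ne_zero hN)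
  have hg1 : g ≠ 0 := norm_pos_iff.mp hg0
  have hw0 : w ≠ 0 := by
    rintro rfl
    rw [zero_pow hN] at hw
    exact (pow_ne_zero m (inv_ne_zero hg1)) hw.symm
  refine ⟨w, L * q, hw0, hqmem, ?_⟩
  have hw1 : 0 < ‖w‖ := norm_pos_iff.mpr hw0
  have h1 : ‖w‖ ^ q.den = (‖g‖⁻¹) ^ m := by
    rw [← norm_pow, hw, norm_pow, norm_inv]
  have h2 : (q.den : ℝ) * Real.log ‖w‖ = - ((m : ℝ) * L) := by
    have h3 := congrArg Real.log h1
    rw [Real.log_pow, Real.log_pow, Real.log_inv] at h3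
    rw [h3]; ring
  have hq3 : (q : ℝ) = (m : ℝ) / (q.den : ℝ) := by
    have h4 : (q : ℝ) = (q.num : ℝ) / (q.den : ℝ) := by exact_mod_cast (Rat.num_div_den q).symm
    rw [h4, ← hm]; simp
  have hNr : (0 : ℝ) < q.den := by exact_mod_cast Nat.pos_of_ne_zero hN
  rw [← Real.exp_log hw1]
  congr 1
  rw [hq3]
  field_simp
  linarith

end Unique

section UniqueTeich

variable {p : ℕ} [Fact p.Prime]
variable {C : Type} [NontriviallyNormedField C] [IsUltrametricDist C] [CompleteSpace C]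
  [CharP C p] [IsAlgClosed C]
variable {r : ℝ} {B : Type} [NontriviallyNormedField B] [IsUltrametricDist B] [CompleteSpace B]
  [CharZero B]

/-- Independence of the functions `w ↦ [w^(p^K)]`: if a two-sided series with at most geometric growth of
coefficients (`a > 1`) vanishes on `𝔪_C` then it is `0`. For a fixed window of `ν(w)`, only finitely many
terms can be maximal; the value group of `C` is dense; so at a suitable `w` there is a unique term of
maximal norm. -/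
theorem PeriodField.coeff_eq_zero_of_forall (PF : PeriodField p C r B)
    (c : ℤ → B) (A a : ℝ) (ha : 1 < a) (hc : ∀ K : ℤ, ‖c K‖ ≤ A * a ^ K)
    (h0 : ∀ w : C, ‖w‖ < 1 → w ≠ 0 → ∑' K : ℤ, c K * PF.tc (fpow p K w) = 0) : c = 0 := by
  classical
  by_contra hne
  obtain ⟨K₀, hK₀⟩ : ∃ K₀, c K₀ ≠ 0 := by
    by_contra hall
    exact hne (funext fun K => by_contra fun hK => hall ⟨K, hK⟩)
  have hp0 := p_real_pos p
  have hp1 := one_lt_p_real p
  have hpow : ∀ K : ℤ, (0 : ℝ) < (p : ℝ) ^ K := fun K => zpow_pos hp0 K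
  have hpinj : ∀ K K' : ℤ, K ≠ K' → (p : ℝ) ^ K ≠ (p : ℝ) ^ K' := fun K K' h h' =>
    h (zpow_right_injective₀ hp0 hp1.ne' h')
  have hc0 : 0 < ‖c K₀‖ := norm_pos_iff.mpr hK₀
  set e₁ : ℝ := Real.exp (-1) with he₁
  have he₁0 : 0 < e₁ := Real.exp_pos _
  have he₁1 : e₁ < 1 := by rw [he₁, Real.exp_lt_one_iff]; norm_num
  set m : ℝ := ‖c K₀‖ * Real.exp (-2 * (p : ℝ) ^ K₀) with hm
  have hm0 : 0 < m := mul_pos hc0 (Real.exp_pos _)
  have hsum := summable_zpow_mul_rpow p a e₁ ha he₁0.le he₁1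
  have hnull : Tendsto (fun K : ℤ => A * (a ^ K * e₁ ^ ((p : ℝ) ^ K))) cofinite (𝓝 0) := by
    simpa using hsum.tendsto_cofinite_zero.const_mul A
  have hfin : {K : ℤ | m ≤ A * (a ^ K * e₁ ^ ((p : ℝ) ^ K))}.Finite := by
    have h1 : ∀ᶠ K : ℤ in cofinite, A * (a ^ K * e₁ ^ ((p : ℝ) ^ K)) < m :=
      hnull.eventually (gt_mem_nhds hm0)
    rw [Filter.eventually_cofinite] at h1
    refine h1.subset (fun K hK => ?_)
    simpa using hK
  -- the finite set of relevant indices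
  let F' : Finset ℤ := (insert K₀ hfin.toFinset).filter (fun K => c K ≠ 0)
  have hK₀F : K₀ ∈ F' := by simp [F', hK₀]
  let bad : Finset ℝ := F'.offDiag.image
    (fun q => (Real.log ‖c q.1‖ - Real.log ‖c q.2‖) / ((p : ℝ) ^ q.1 - (p : ℝ) ^ q.2))
  -- the choice of `ν` and `w`
  have hU : IsOpen (Set.Ioo (1 : ℝ) 2 \ (bad : Set ℝ)) :=
    isOpen_Ioo.sdiff bad.finite_toSet.isClosed
  have hUne : (Set.Ioo (1 : ℝ) 2 \ (bad : Set ℝ)).Nonempty :=
    ((Set.Ioo_infinite (by norm_num : (1 : ℝ) < 2)).diff bad.finite_toSet).nonempty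
  obtain ⟨w, ν, hw0, hν, hwν⟩ := exists_norm_eq_exp C _ hU hUne
    (fun x hx => lt_trans zero_lt_one hx.1.1)
  obtain ⟨⟨hν1, hν2⟩, hνbad⟩ := hν
  have hw1 : ‖w‖ < 1 := by
    rw [hwν, Real.exp_lt_one_iff]; linarith
  -- norms of the terms
  have hnorm : ∀ K : ℤ, ‖c K * PF.tc (fpow p K w)‖ = ‖c K‖ * Real.exp (-ν * (p : ℝ) ^ K) := by
    intro K
    rw [norm_mul, PF.norm_tF K hw1.le, hwν, ← Real.exp_mul]
  -- the maximiser
  obtain ⟨K', hK'F, hK'max⟩ := F'.exists_max_image (fun K => ‖c K‖ * Real.exp (-ν * (p : ℝ) ^ K))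
    ⟨K₀, hK₀F⟩
  have hK'c : c K' ≠ 0 := (Finset.mem_filter.mp hK'F).2
  have hlow : m ≤ ‖c K₀‖ * Real.exp (-ν * (p : ℝ) ^ K₀) := by
    rw [hm]
    gcongr
  have hK'low := hK'max K₀ hK₀F
  have hstrict : ∀ K : ℤ, K ≠ K' →
      ‖c K‖ * Real.exp (-ν * (p : ℝ) ^ K) < ‖c K'‖ * Real.exp (-ν * (p : ℝ) ^ K') := by
    intro K hKK'
    by_cases hcK : c K = 0
    · rw [hcK, norm_zero, zero_mul]
      exact mul_pos (norm_pos_iff.mpr hK'c) (Real.exp_pos _)
    by_cases hKF : K ∈ F'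
    · refine lt_of_le_of_ne (hK'max K hKF) (fun heq => hνbad ?_)
      -- equality forces `ν` to be bad
      have hlog := congrArg Real.log heq
      rw [Real.log_mul (norm_ne_zero_iff.mpr hcK) (Real.exp_pos _).ne',
        Real.log_mul (norm_ne_zero_iff.mpr hK'c) (Real.exp_pos _).ne',
        Real.log_exp, Real.log_exp] at hlog
      have hne' : (p : ℝ) ^ K - (p : ℝ) ^ K' ≠ 0 := sub_ne_zero.mpr (hpinj K K' hKK')
      simp only [bad, Finset.coe_image, Set.mem_image, Finset.mem_coe, Finset.mem_offDiag]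
      refine ⟨(K, K'), ⟨hKF, hK'F, hKK'⟩, ?_⟩
      field_simp
      linarith
    · -- outside the finite set
      have hKnot : ¬ (m ≤ A * (a ^ K * e₁ ^ ((p : ℝ) ^ K))) := by
        intro hmK
        apply hKF
        simp only [F', Finset.mem_filter, Finset.mem_insert, Set.Finite.mem_toFinset,
          Set.mem_setOf_eq]
        exact ⟨Or.inr hmK, hcK⟩
      have hb : ‖c K‖ * Real.exp (-ν * (p : ℝ) ^ K) ≤ A * (a ^ K * e₁ ^ ((p : ℝ) ^ K)) := by
        have h1 : Real.exp (-ν * (p : ℝ) ^ K) ≤ e₁ ^ ((p : ℝ) ^ K) := by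
          rw [he₁, ← Real.exp_mul]
          apply Real.exp_le_exp.mpr
          have := hpow K
          nlinarith
        calc ‖c K‖ * Real.exp (-ν * (p : ℝ) ^ K) ≤ (A * a ^ K) * e₁ ^ ((p : ℝ) ^ K) :=
              mul_le_mul (hc K) h1 (Real.exp_pos _).le (le_trans (norm_nonneg _) (hc K))
          _ = _ := by ring
      exact lt_of_lt_of_le (lt_of_le_of_lt hb (not_le.mp hKnot)) (hlow.trans hK'low)
  -- the sum is nonzero
  have hnull2 : Tendsto (fun K : ℤ => c K * PF.tc (fpow p K w)) cofinite (𝓝 0) := by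
    have hb2 := (summable_zpow_mul_rpow p a ‖w‖ ha (norm_nonneg _) hw1).tendsto_cofinite_zero.const_mul A
    rw [mul_zero] at hb2
    refine squeeze_zero_norm (fun K => ?_) hb2
    rw [norm_mul, PF.norm_tF K hw1.le]
    calc ‖c K‖ * ‖w‖ ^ ((p : ℝ) ^ K) ≤ (A * a ^ K) * ‖w‖ ^ ((p : ℝ) ^ K) :=
          mul_le_mul_of_nonneg_right (hc K) (Real.rpow_nonneg (norm_nonneg _) _)
      _ = _ := by ring
  refine tsum_ne_zero_of_strict_max _ hnull2 K' ?_ (fun K hK => ?_) (h0 w hw1 hw0)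
  · refine mul_ne_zero hK'c ?_
    rw [← norm_ne_zero_iff, PF.norm_tF K' hw1.le]
    exact (Real.rpow_pos_of_pos (norm_pos_iff.mpr hw0) _).ne'
  · rw [hnorm, hnorm]
    exact hstrict K hK

end UniqueTeich

section Recursion

variable {B : Type} [NontriviallyNormedField B] [IsUltrametricDist B] [CompleteSpace B]

/-- **Growth and limits for the recursion** `P l_K = l_{K-n} + ∑_{i<n-1} l_{K-i-1} c_i(K)`, where the `c_i(K)` are
super-exponentially small: (c) `‖l_K‖ ≤ A a^K`; (d) `Ξ_J = lim_N P^N l_{J+nN}` exists; `P Ξ_{J+n} = Ξ_J`. -/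
theorem recursion_limit (p : ℕ) [Fact p.Prime] (P : B) (r : ℝ) (hP : ‖P‖ = r) (hr0 : 0 < r)
    (n : ℕ) (hn : 1 ≤ n) (a : ℝ) (ha : 1 < a) (han : a ^ n = r⁻¹)
    (l : ℤ → B) (c : ℕ → ℤ → B) (s : ℝ) (hs0 : 0 < s) (hs1 : s < 1)
    (hrec : ∀ K : ℤ, P * l K = l (K - n) + ∑ i ∈ Finset.range (n - 1), l (K - (i + 1)) * c i K)
    (hc : ∀ i, i < n - 1 → ∀ K : ℤ, ‖c i K‖ ≤ s ^ ((p : ℝ) ^ (K - (i + 1))))
    (hbase : ∀ K : ℤ, K ≤ 0 → ‖l K‖ ≤ a ^ K) :
    ∃ A : ℝ, 0 ≤ A ∧ (∀ K, ‖l K‖ ≤ A * a ^ K) ∧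
      ∃ Ξ : ℤ → B, (∀ J : ℤ, Tendsto (fun N : ℕ => P ^ N * l (J + n * N)) atTop (𝓝 (Ξ J))) ∧
        (∀ J, ‖Ξ J‖ ≤ A * a ^ J) ∧ (∀ J, P * Ξ (J + n) = Ξ J) := by
  classical
  have ha0 : 0 < a := lt_trans zero_lt_one ha
  have hp1 := one_lt_p_real p
  have hp0 := p_real_pos p
  have hran : r * a ^ n = 1 := by rw [han]; exact mul_inv_cancel₀ hr0.ne'
  have hshift : ∀ K : ℤ, r * a ^ K = a ^ (K - n) := by
    intro K
    rw [zpow_sub₀ ha0.ne', zpow_natCast, han]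
    field_simp
  have hmono : ∀ K K' : ℤ, K ≤ K' → a ^ K ≤ a ^ K' := fun K K' h => zpow_le_zpow_right₀ ha.le h
  have hsmono : ∀ K K' : ℤ, K ≤ K' → s ^ ((p : ℝ) ^ K') ≤ s ^ ((p : ℝ) ^ K) := fun K K' h =>
    Real.rpow_le_rpow_of_exponent_ge hs0 hs1.le (zpow_le_zpow_right₀ hp1.le h)
  obtain ⟨K₂, hK₂⟩ := exists_rpow_pow_le p s r hs0 hs1 hr0
  set K₁ : ℕ := K₂ + n with hK₁
  set A : ℝ := 1 + ∑ K ∈ Finset.range K₁, ‖l (K : ℤ)‖ / a ^ (K : ℤ) with hA
  have hA1 : 1 ≤ A := by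
    rw [hA]
    have : 0 ≤ ∑ K ∈ Finset.range K₁, ‖l (K : ℤ)‖ / a ^ (K : ℤ) :=
      Finset.sum_nonneg fun K _ => div_nonneg (norm_nonneg _) (zpow_pos ha0 _).le
    linarith
  have hA0 : 0 ≤ A := by linarith
  have hAfin : ∀ K : ℕ, K < K₁ → ‖l (K : ℤ)‖ ≤ A * a ^ (K : ℤ) := by
    intro K hK
    have h1 : ‖l (K : ℤ)‖ / a ^ (K : ℤ) ≤ ∑ K ∈ Finset.range K₁, ‖l (K : ℤ)‖ / a ^ (K : ℤ) :=
      Finset.single_le_sum (f := fun K : ℕ => ‖l (K : ℤ)‖ / a ^ (K : ℤ))
        (fun K _ => div_nonneg (norm_nonneg _) (zpow_pos ha0 _).le) (Finset.mem_range.mpr hK)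
    have h2 : ‖l (K : ℤ)‖ / a ^ (K : ℤ) ≤ A := by rw [hA]; linarith
    rwa [div_le_iff₀ (zpow_pos ha0 _)] at h2
  -- (c): growth
  have hgrow : ∀ m : ℕ, ∀ K : ℤ, K ≤ m → ‖l K‖ ≤ A * a ^ K := by
    intro m
    induction m with
    | zero =>
      intro K hK
      have h1 := hbase K (by simpa using hK)
      have h2 : 0 < a ^ K := zpow_pos ha0 K
      nlinarith
    | succ m ih =>
      intro K hK
      by_cases hKm : K ≤ m
      · exact ih K hKm
      have hKeq : K = ((m + 1 : ℕ) : ℤ) := by push_cast at hK ⊢; omega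
      by_cases hsmall : m + 1 < K₁
      · rw [hKeq]; exact hAfin _ hsmall
      -- recursion
      have hlarge : (K₂ : ℤ) + n ≤ K := by
        rw [hKeq]
        have : K₂ + n ≤ m + 1 := by omega
        exact_mod_cast this
      have hY : 0 ≤ A * a ^ (K - n) := mul_nonneg hA0 (zpow_pos ha0 _).le
      have h1 : ‖l (K - n)‖ ≤ A * a ^ (K - n) := ih _ (by omega)
      have h2 : ‖∑ i ∈ Finset.range (n - 1), l (K - (i + 1)) * c i K‖ ≤ A * a ^ (K - n) := by
        refine IsUltrametricDist.norm_sum_le_of_forall_le_of_nonneg hY (fun i hi => ?_)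
        have hi' : i < n - 1 := Finset.mem_range.mp hi
        rw [norm_mul]
        have h3 : ‖l (K - (i + 1))‖ ≤ A * a ^ (K - (i + 1)) := ih _ (by omega)
        have h4 : ‖c i K‖ ≤ r :=
          (hc i hi' K).trans (hK₂ _ (by omega))
        have h5 : a ^ (K - (i + 1)) ≤ a ^ K := hmono _ _ (by omega)
        calc ‖l (K - (i + 1))‖ * ‖c i K‖ ≤ (A * a ^ K) * r := by
              apply mul_le_mul (h3.trans (by gcongr)) h4 (norm_nonneg _)
              positivity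
          _ = A * (r * a ^ K) := by ring
          _ = A * a ^ (K - n) := by rw [hshift]
      have h3 : ‖P * l K‖ ≤ A * a ^ (K - n) := by
        rw [hrec K]
        exact (IsUltrametricDist.norm_add_le_max _ _).trans (max_le h1 h2)
      rw [norm_mul, hP, ← hshift] at h3
      have h4 : r * ‖l K‖ ≤ r * (A * a ^ K) := by linarith [h3, mul_left_comm A r (a ^ K)]
      exact le_of_mul_le_mul_left h4 hr0
  have hgrow' : ∀ K : ℤ, ‖l K‖ ≤ A * a ^ K := fun K => hgrow K.toNat K (Int.self_le_toNat K)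
  -- (d): the difference estimate
  have hnormb : ∀ (J : ℤ) (N : ℕ), ‖P ^ N * l (J + n * N)‖ ≤ A * a ^ J := by
    intro J N
    rw [norm_mul, norm_pow, hP]
    have h1 : a ^ (J + (n : ℤ) * N) = a ^ J * (a ^ n) ^ N := by
      rw [zpow_add₀ ha0.ne', zpow_mul, zpow_natCast, zpow_natCast]
    calc r ^ N * ‖l (J + n * N)‖ ≤ r ^ N * (A * a ^ (J + n * N)) := by
          gcongr; exact hgrow' _
      _ = A * a ^ J * (r * a ^ n) ^ N := by rw [h1, mul_pow]; ring
      _ = A * a ^ J := by rw [hran, one_pow, mul_one]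
  have hdiff : ∀ J : ℤ, Tendsto (fun N : ℕ => P ^ (N + 1) * l (J + n * ((N + 1 : ℕ) : ℤ)) -
      P ^ N * l (J + n * N)) atTop (𝓝 0) := by
    intro J
    have hT := (tendsto_rpow_pow_shift p s hs0 hs1 J n hn).const_mul (A * a ^ (J + n))
    rw [mul_zero] at hT
    refine squeeze_zero_norm (fun N => ?_) hT
    set K : ℤ := J + n * ((N + 1 : ℕ) : ℤ) with hK
    have hKn : K - n = J + n * N := by rw [hK]; push_cast; ring
    have heq : P ^ (N + 1) * l K - P ^ N * l (J + n * N) =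
        P ^ N * ∑ i ∈ Finset.range (n - 1), l (K - (i + 1)) * c i K := by
      rw [pow_succ, mul_assoc, hrec K, hKn]
      ring
    rw [heq, norm_mul, norm_pow, hP]
    have hsnn : 0 ≤ s ^ ((p : ℝ) ^ (J + n * N)) := Real.rpow_nonneg hs0.le _
    have h2 : ‖∑ i ∈ Finset.range (n - 1), l (K - (i + 1)) * c i K‖ ≤
        A * a ^ K * s ^ ((p : ℝ) ^ (J + n * N)) := by
      refine IsUltrametricDist.norm_sum_le_of_forall_le_of_nonneg
        (mul_nonneg (mul_nonneg hA0 (zpow_pos ha0 _).le) hsnn) (fun i hi => ?_)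
      have hi' : i < n - 1 := Finset.mem_range.mp hi
      rw [norm_mul]
      have h3 : ‖l (K - (i + 1))‖ ≤ A * a ^ K := (hgrow' _).trans (by
        gcongr
        · exact ha.le
        · omega)
      have h4 : ‖c i K‖ ≤ s ^ ((p : ℝ) ^ (J + n * N)) :=
        (hc i hi' K).trans (hsmono _ _ (by omega))
      exact mul_le_mul h3 h4 (norm_nonneg _) (mul_nonneg hA0 (zpow_pos ha0 _).le)
    have h5 : a ^ K = a ^ (J + n) * (a ^ n) ^ N := by
      rw [hK, show J + (n : ℤ) * ((N + 1 : ℕ) : ℤ) = (J + n) + (n : ℤ) * N by push_cast; ring,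
        zpow_add₀ ha0.ne', zpow_mul, zpow_natCast, zpow_natCast]
    calc r ^ N * ‖∑ i ∈ Finset.range (n - 1), l (K - (i + 1)) * c i K‖
        ≤ r ^ N * (A * a ^ K * s ^ ((p : ℝ) ^ (J + n * N))) := by gcongr
      _ = A * a ^ (J + n) * s ^ ((p : ℝ) ^ (J + n * N)) * (r * a ^ n) ^ N := by
          rw [h5, mul_pow]; ring
      _ = A * a ^ (J + n) * s ^ ((p : ℝ) ^ (J + n * N)) := by rw [hran, one_pow, mul_one]
  have hconv : ∀ J : ℤ, ∃ x : B, Tendsto (fun N : ℕ => P ^ N * l (J + n * N)) atTop (𝓝 x) := by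
    intro J
    refine cauchySeq_tendsto_of_complete
      (NonarchimedeanAddGroup.cauchySeq_of_tendsto_sub_nhds_zero (hdiff J))
  choose Ξ hΞ using hconv
  refine ⟨A, hA0, hgrow', Ξ, hΞ, fun J => ?_, fun J => ?_⟩
  · exact le_of_tendsto (tendsto_norm.comp (hΞ J)) (Eventually.of_forall fun N => hnormb J N)
  · have h1 : Tendsto (fun N : ℕ => P * (P ^ N * l (J + n + n * N))) atTop (𝓝 (P * Ξ (J + n))) :=
      (hΞ (J + n)).const_mul P
    have h2 : Tendsto (fun N : ℕ => P ^ (N + 1) * l (J + n * ((N + 1 : ℕ) : ℤ))) atTop (𝓝 (Ξ J)) :=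
      (tendsto_add_atTop_iff_nat 1).mpr (hΞ J)
    refine tendsto_nhds_unique (h1.congr fun N => ?_) h2
    rw [pow_succ, mul_comm (P ^ N) P, mul_assoc]
    congr 3
    push_cast; ring

end Recursion

section Expansion

variable {p : ℕ} [Fact p.Prime]
variable {C : Type} [NontriviallyNormedField C] [IsUltrametricDist C] [CompleteSpace C]
  [CharP C p] [IsAlgClosed C]
variable {r : ℝ} {B : Type} [NontriviallyNormedField B] [IsUltrametricDist B] [CompleteSpace B]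
  [CharZero B]

/-- Tokens extended by `0` to negative indices. -/
def tokExt (t : ℕ → OC C) (m : ℤ) : C := if 0 ≤ m then ((t m.toNat : OC C) : C) else 0

theorem norm_tokExt_le (t : ℕ → OC C) (m : ℤ) : ‖tokExt t m‖ ≤ 1 := by
  unfold tokExt
  split_ifs
  · exact (t _).2
  · simp

theorem tokExt_natCast (t : ℕ → OC C) (j : ℕ) : tokExt t (j : ℤ) = ((t j : OC C) : C) := by
  simp [tokExt]

theorem tokExt_neg (t : ℕ → OC C) {m : ℤ} (hm : m < 0) : tokExt t m = 0 := by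
  simp [tokExt, not_le.mpr hm]

/-- The geometric weight. -/
def vBound (b : ℝ) (m : ℤ) : ℝ := if 0 ≤ m then b ^ (-m) else 0

theorem vBound_nonneg (b : ℝ) (hb : 1 < b) (m : ℤ) : 0 ≤ vBound b m := by
  unfold vBound
  split_ifs
  · exact (zpow_pos (lt_trans zero_lt_one hb) _).le
  · exact le_rfl

theorem vBound_le_one (b : ℝ) (hb : 1 < b) (m : ℤ) : vBound b m ≤ 1 := by
  unfold vBound
  split_ifs with hm
  · exact zpow_le_one_of_nonpos₀ hb.le (by omega)
  · exact zero_le_one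

theorem summable_vBound (b : ℝ) (hb : 1 < b) : Summable (vBound b) := by
  have hb0 : 0 < b := lt_trans zero_lt_one hb
  refine Summable.of_nat_of_neg_add_one ?_ ?_
  · have hgeo : Summable (fun K : ℕ => (b⁻¹) ^ K) :=
      summable_geometric_of_lt_one (by positivity) (inv_lt_one_of_one_lt₀ hb)
    refine hgeo.congr fun K => ?_
    simp [vBound, zpow_neg]
  · have : (fun n : ℕ => vBound b (-(n + 1 : ℤ))) = fun _ => 0 := by
      funext n
      simp only [vBound]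
      rw [if_neg (by omega)]
    rw [this]
    exact summable_zero

/-- `𝔩_l = ∑_{j + h k = l} [t_j^(P^k)] p^(-k)`, indexed by `k`. -/
def PeriodField.lC (PF : PeriodField p C r B) (h : ℕ) (t : ℕ → OC C) (l : ℤ) : B :=
  ∑' k : ℤ, PF.tF ((h : ℤ) * k) (tokExt t (l - (h : ℤ) * k)) * (p : B) ^ (-k)

theorem PeriodField.norm_lTerm_le (PF : PeriodField p C r B) (hr0 : 0 < r) (h : ℕ) (b : ℝ)
    (hb : 1 < b) (hbh : b ^ h = r⁻¹) (t : ℕ → OC C) (l k : ℤ) :
    ‖PF.tF ((h : ℤ) * k) (tokExt t (l - (h : ℤ) * k)) * (p : B) ^ (-k)‖ ≤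
      b ^ l * vBound b (l - (h : ℤ) * k) := by
  have hb0 : 0 < b := lt_trans zero_lt_one hb
  by_cases hm : 0 ≤ l - (h : ℤ) * k
  · rw [norm_mul, norm_zpow, PF.natCast_p_norm]
    have h1 : r ^ (-k) = b ^ ((h : ℤ) * k) := by
      rw [zpow_mul, zpow_natCast, hbh, inv_zpow, zpow_neg]
    have h2 : b ^ l * vBound b (l - (h : ℤ) * k) = b ^ ((h : ℤ) * k) := by
      rw [vBound, if_pos hm, ← zpow_add₀ hb0.ne']
      congr 1; ring
    rw [h1, h2]
    have h3 := PF.norm_tF_le_one ((h : ℤ) * k) (norm_tokExt_le t (l - (h : ℤ) * k))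
    calc _ ≤ 1 * b ^ ((h : ℤ) * k) := by gcongr
      _ = _ := one_mul _
  · rw [tokExt_neg t (not_le.mp hm), PF.tF_zero, zero_mul, norm_zero]
    exact mul_nonneg (zpow_pos hb0 _).le (vBound_nonneg b hb _)

/-- A-priori bound. -/
theorem PeriodField.norm_lC_le (PF : PeriodField p C r B) (hr0 : 0 < r) (h : ℕ) (b : ℝ)
    (hb : 1 < b) (hbh : b ^ h = r⁻¹) (t : ℕ → OC C) (l : ℤ) : ‖PF.lC h t l‖ ≤ b ^ l := by
  have hb0 : 0 < b := lt_trans zero_lt_one hb
  refine IsUltrametricDist.norm_tsum_le_of_forall_le_of_nonneg (zpow_pos hb0 _).le (fun k => ?_)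
  refine (PF.norm_lTerm_le hr0 h b hb hbh t l k).trans ?_
  have h1 := vBound_le_one b hb (l - (h : ℤ) * k)
  have h2 : 0 < b ^ l := zpow_pos hb0 _
  nlinarith

/-- The double family. -/
def PeriodField.dG (PF : PeriodField p C r B) (h : ℕ) (t : ℕ → OC C) (w : C) (q : ℤ × ℤ) : B :=
  PF.tF ((h : ℤ) * q.2) (tokExt t (q.1 - (h : ℤ) * q.2)) * (p : B) ^ (-q.2) * PF.tF q.1 w

theorem PeriodField.summable_dG (PF : PeriodField p C r B) (hr0 : 0 < r) (h : ℕ) (hh : 1 ≤ h)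
    (b : ℝ) (hb : 1 < b) (hbh : b ^ h = r⁻¹) (t : ℕ → OC C) (w : C) (hw : ‖w‖ < 1) :
    Summable (PF.dG h t w) := by
  have hu := summable_zpow_mul_rpow p b ‖w‖ hb (norm_nonneg _) hw
  have hv := summable_vBound b hb
  have hb0 : 0 < b := lt_trans zero_lt_one hb
  have huv : Summable (fun q : ℤ × ℤ => (b ^ q.1 * ‖w‖ ^ ((p : ℝ) ^ q.1)) * vBound b q.2) :=
    hu.mul_of_nonneg hv
      (fun l => mul_nonneg (zpow_pos hb0 _).le (Real.rpow_nonneg (norm_nonneg _) _))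
      (vBound_nonneg b hb)
  have hinj : Function.Injective (fun q : ℤ × ℤ => (q.1, q.1 - (h : ℤ) * q.2)) := by
    rintro ⟨l, k⟩ ⟨l', k'⟩ heq
    simp only [Prod.mk.injEq] at heq
    obtain ⟨rfl, h2⟩ := heq
    have hh0 : (h : ℤ) ≠ 0 := by exact_mod_cast (by omega : h ≠ 0)
    have : (h : ℤ) * k = (h : ℤ) * k' := by omega
    simp [mul_left_cancel₀ hh0 this]
  refine Summable.of_norm_bounded (huv.comp_injective hinj) (fun q => ?_)
  simp only [PeriodField.dG, Function.comp]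
  rw [norm_mul, PF.norm_tF q.1 hw.le]
  have h1 := PF.norm_lTerm_le hr0 h b hb hbh t q.1 q.2
  calc _ ≤ (b ^ q.1 * vBound b (q.1 - (h : ℤ) * q.2)) * ‖w‖ ^ ((p : ℝ) ^ q.1) :=
        mul_le_mul_of_nonneg_right h1 (Real.rpow_nonneg (norm_nonneg _) _)
    _ = _ := by ring

/-- `𝓛(c w^(p^j))` as a sum over `k`. -/
theorem PeriodField.LL_tok (PF : PeriodField p C r B) (h : ℕ) (c : OC C) (w : C) (hw : ‖w‖ < 1)
    (j : ℕ) : PF.LL h ((c : C) * w ^ (p ^ j)) =
      ∑' k : ℤ, PF.tF ((h : ℤ) * k) (c : C) * (p : B) ^ (-k) * PF.tF ((j : ℤ) + (h : ℤ) * k) w := by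
  unfold PeriodField.LL PeriodField.ell
  refine tsum_congr fun k => ?_
  rw [zero_add]
  have h1 : w ^ (p ^ j) = fpow p (j : ℤ) w := (fpow_natCast p j w).symm
  have h2 : ‖w ^ (p ^ j)‖ ≤ 1 := by
    rw [norm_pow]; exact pow_le_one₀ (norm_nonneg _) hw.le
  have h3 : PF.tc (fpow p ((h : ℤ) * k) ((c : C) * w ^ (p ^ j))) =
      PF.tF ((h : ℤ) * k) (c : C) * PF.tF ((j : ℤ) + (h : ℤ) * k) w := by
    have := PF.tF_mul ((h : ℤ) * k) (u := (c : C)) (v := w ^ (p ^ j)) c.2 h2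
    rw [PeriodField.tF] at this
    rw [this, h1, PF.tF_fpow, add_comm ((h : ℤ) * k) (j : ℤ)]
  rw [h3]
  ring

theorem PeriodField.LL_zero (PF : PeriodField p C r B) (h : ℕ) : PF.LL h (0 : C) = 0 := by
  unfold PeriodField.LL PeriodField.ell
  simp only [PF.tF_zero, zero_mul, tsum_zero, PF.tc_zero, fpow_zero_base]

/-- The double-sum rearrangement: `∑_j 𝓛(t_j w^(p^j)) = ∑_l 𝔩_l [w^(p^l)]`. -/
theorem PeriodField.tsum_LL_tok (PF : PeriodField p C r B) (hr0 : 0 < r) (h : ℕ) (hh : 1 ≤ h)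
    (b : ℝ) (hb : 1 < b) (hbh : b ^ h = r⁻¹) (t : ℕ → OC C) (w : C) (hw : ‖w‖ < 1) :
    Summable (fun j : ℕ => PF.LL h ((t j : C) * w ^ (p ^ j))) ∧
    ∑' j : ℕ, PF.LL h ((t j : C) * w ^ (p ^ j)) = ∑' l : ℤ, PF.lC h t l * PF.tF l w := by
  have hG := PF.summable_dG hr0 h hh b hb hbh t w hw
  -- the shear
  let shear : ℤ × ℤ ≃ ℤ × ℤ :=
    { toFun := fun q => (q.1 + (h : ℤ) * q.2, q.2)
      invFun := fun q => (q.1 - (h : ℤ) * q.2, q.2)
      left_inv := fun q => by simp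
      right_inv := fun q => by simp }
  have hG' : Summable (fun q => PF.dG h t w (shear q)) := (shear.summable_iff).mpr hG
  -- outer sums
  have h1 : ∑' l : ℤ, PF.lC h t l * PF.tF l w = ∑' q, PF.dG h t w q := by
    rw [hG.tsum_prod]
    refine tsum_congr fun l => ?_
    simp only [PeriodField.dG, PeriodField.lC]
    rw [tsum_mul_right]
  have h2 : ∑' q, PF.dG h t w q = ∑' q, PF.dG h t w (shear q) := (shear.tsum_eq _).symm
  have hFs : Summable (fun m : ℤ => ∑' k : ℤ, PF.dG h t w (shear (m, k))) := hG'.prod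
  have h3 : ∑' q, PF.dG h t w (shear q) = ∑' m : ℤ, ∑' k : ℤ, PF.dG h t w (shear (m, k)) :=
    hG'.tsum_prod
  -- fibres
  have hfib : ∀ j : ℕ, ∑' k : ℤ, PF.dG h t w (shear ((j : ℤ), k)) =
      PF.LL h ((t j : C) * w ^ (p ^ j)) := by
    intro j
    rw [PF.LL_tok h (t j) w hw j]
    refine tsum_congr fun k => ?_
    simp only [PeriodField.dG, shear, Equiv.coe_fn_mk, add_sub_cancel_right, tokExt_natCast]
  have hfibneg : ∀ m : ℤ, m < 0 → ∑' k : ℤ, PF.dG h t w (shear (m, k)) = 0 := by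
    intro m hm
    have : ∀ k : ℤ, PF.dG h t w (shear (m, k)) = 0 := by
      intro k
      simp only [PeriodField.dG, shear, Equiv.coe_fn_mk, add_sub_cancel_right, tokExt_neg t hm,
        PF.tF_zero, zero_mul]
    simp [this]
  constructor
  · have := hFs.comp_injective (Nat.cast_injective (R := ℤ))
    refine this.congr fun j => ?_
    simp only [Function.comp, hfib]
  · rw [h1, h2, h3]
    have hsupp : Function.support (fun m : ℤ => ∑' k : ℤ, PF.dG h t w (shear (m, k))) ⊆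
        Set.range (Nat.cast : ℕ → ℤ) := by
      intro m hm
      by_contra hnot
      have hneg : m < 0 := by
        by_contra hnn
        exact hnot ⟨m.toNat, Int.toNat_of_nonneg (not_lt.mp hnn)⟩
      exact hm (hfibneg m hneg)
    rw [← (Nat.cast_injective (R := ℤ)).tsum_eq hsupp]
    exact tsum_congr fun j => (hfib j).symm

/-- Summability of `𝔩_l [w^(p^l)]`. -/
theorem PeriodField.summable_lC_mul (PF : PeriodField p C r B) (hr0 : 0 < r) (h : ℕ)
    (b : ℝ) (hb : 1 < b) (hbh : b ^ h = r⁻¹) (t : ℕ → OC C) (w : C) (hw : ‖w‖ < 1) :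
    Summable (fun l : ℤ => PF.lC h t l * PF.tF l w) := by
  have hu := summable_zpow_mul_rpow p b ‖w‖ hb (norm_nonneg _) hw
  refine Summable.of_norm_bounded hu (fun l => ?_)
  rw [norm_mul, PF.norm_tF l hw.le]
  exact mul_le_mul_of_nonneg_right (PF.norm_lC_le hr0 h b hb hbh t l)
    (Real.rpow_nonneg (norm_nonneg _) _)

/-- `𝓛` on a finite sum. -/
theorem PeriodField.LL_sum (PF : PeriodField p C r B) (hr0 : 0 < r) (hr1 : r < 1) (h : ℕ)
    (hh : 1 ≤ h) {ι : Type*} (s : Finset ι) (u : ι → LawPt (H0C p h C)) :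
    PF.LL h ((∑ i ∈ s, u i : LawPt (H0C p h C))).val = ∑ i ∈ s, PF.LL h (u i).val := by
  classical
  induction s using Finset.induction_on with
  | empty => simp [PF.LL_zero]
  | insert a s ha ih =>
    rw [Finset.sum_insert ha, Finset.sum_insert ha, PF.LL_add hr0 hr1 h hh, ih]

/-- **(a)** the expansion: `𝓛ϱ(w) = ∑_l 𝔩_l [w^(p^l)]`. -/
theorem PeriodField.LL_hom_expansion (PF : PeriodField p C r B) (hr0 : 0 < r) (hr1 : r < 1)
    (h : ℕ) (hh : 1 ≤ h) (b : ℝ) (hb : 1 < b) (hbh : b ^ h = r⁻¹)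
    {F : FormalGroup (OC C)} [F.IsComm] (ϱ : PowerSeries (OC C))
    (hϱ : IsFGHom F (H0C p h C) ϱ) (t : ℕ → OC C)
    (ht : ∀ N i, i < p ^ N → PowerSeries.coeff i ϱ =
      PowerSeries.coeff i (tokenSum p (H0C p h C) t N))
    (w : LawPt F) :
    PF.LL h (homPt ϱ hϱ w).val = ∑' l : ℤ, PF.lC h t l * PF.tF l w.val := by
  obtain ⟨hS, hE⟩ := PF.tsum_LL_tok hr0 h hh b hb hbh t w.val w.norm_lt
  rw [← hE]
  have hT := tendsto_tokens p F (H0C p h C) ϱ hϱ t ht w
  have hL := PF.continuous_LL hr0 hr1 h hh _ (homPt ϱ hϱ w) hT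
  refine tendsto_nhds_unique hL ?_
  have hS2 := hS.hasSum.tendsto_sum_nat
  refine hS2.congr fun N => ?_
  rw [PF.LL_sum hr0 hr1 h hh]
  rfl

end Expansion

end

end Crest.Agent.LT
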