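/-
S0351 package WITT/EXP: for a hom. `ϱ : H(τ) → H₀`: `𝓛(ϱ(π y)) = ∑_{e<n} Ξ_e ell^(e)(y)`. See BLUEPRINT.md §EXP.
Helper file: `Witt/ExpCore.lean` (real estimates, `coeff_eq_zero_of_forall`, `recursion_limit`, the expansion `LL_hom_expansion`).
-/
import Crest.Agent.LT.Witt.ExpCore
import Crest.Agent.LT.CharP.Setup

set_option autoImplicit false
set_option linter.unusedSectionVars false

open Crest.LubinTate
open Filter Topology

namespace Crest.Agent.LT

noncomputable section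

variable {p : ℕ} [Fact p.Prime]
variable {C : Type} [NontriviallyNormedField C] [IsUltrametricDist C] [CompleteSpace C]
  [CharP C p] [IsAlgClosed C]
variable {r : ℝ} {B : Type} [NontriviallyNormedField B] [IsUltrametricDist B] [CompleteSpace B]
  [CharZero B]

/-- Evaluation of a finite sum of tokens. -/
theorem val_sum_tokens_general {F₀ : FormalGroup (OC C)} (F : FormalGroup (OC C)) [F.IsComm]
    (c : ℕ → OC C) (e : ℕ → ℕ) (he : ∀ i, e i ≠ 0) (w : LawPt F₀) (N : ℕ) :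
    (∑ i ∈ Finset.range N, (tokPt F (c i) w (e i) (he i) : LawPt F)).val =
      ev1 ((∑ i ∈ Finset.range N, tokenPt F (c i) (e i) (he i) : F.Point Unit).val) w.val := by
  induction N with
  | zero =>
    rw [Finset.range_zero, Finset.sum_empty, Finset.sum_empty, LawPt.val_zero]
    simp [ev1]
  | succ N ih =>
    rw [Finset.sum_range_succ, Finset.sum_range_succ, LawPt.val_add, ih, FormalGroup.add_apply]
    have hc0 : PowerSeries.constantCoeff
        ((∑ i ∈ Finset.range N, tokenPt F (c i) (e i) (he i) : F.Point Unit).val :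
          PowerSeries (OC C)) = 0 :=
      (∑ i ∈ Finset.range N, tokenPt F (c i) (e i) (he i) : F.Point Unit).prop.eq_zero
    have hc1 : PowerSeries.constantCoeff
        ((tokenPt F (c N) (e N) (he N)).val : PowerSeries (OC C)) = 0 :=
      (tokenPt F (c N) (e N) (he N)).prop.eq_zero
    have h1 := ev1_lawAdd_subst F _ _ hc0 hc1 w.val w.norm_lt
    rw [h1, tokenPt_val, ev1_token]
    rfl

/-- `[p]` on points: `p • w = ∑^F_{i<N} v_i w^(p^(i+1))`. -/
theorem pSmul_eq_sum_tokens [CharP (OC C) p] (v : ℕ → OC C) (N : ℕ) (hv : ∀ i, N ≤ i → v i = 0)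
    (w : LawPt (hzv p v)) :
    p • w = ∑ i ∈ Finset.range N, (tokPt (hzv p v) (v i) w (p ^ (i + 1))
      (pow_ne_zero _ (Fact.out : p.Prime).ne_zero) : LawPt (hzv p v)) := by
  apply LawPt.ext'
  rw [LawPt.val_nsmul, hzv_pSeries_charP p v N hv, val_sum_tokens_general]

/-- **(b)** The recursion for `𝔩`. -/
theorem PeriodField.lC_recursion (PF : PeriodField p C r B) (hr0 : 0 < r) (hr1 : r < 1)
    (h : ℕ) (hh : 1 ≤ h) (b : ℝ) (hb : 1 < b) (hbh : b ^ h = r⁻¹) [CharP (OC C) p]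
    (v : ℕ → OC C) (N : ℕ) (hv : ∀ i, N ≤ i → v i = 0) (ϱ : PowerSeries (OC C))
    (hϱ : IsFGHom (hzv p v) (H0C p h C) ϱ) (t : ℕ → OC C)
    (ht : ∀ N i, i < p ^ N → PowerSeries.coeff i ϱ =
      PowerSeries.coeff i (tokenSum p (H0C p h C) t N)) (K : ℤ) :
    (p : B) * PF.lC h t K =
      ∑ i ∈ Finset.range N, PF.lC h t (K - ((i : ℤ) + 1)) * PF.tF (K - ((i : ℤ) + 1)) (v i : C) := by
  have hb0 : 0 < b := lt_trans zero_lt_one hb
  -- the additive map `L`
  let L : LawPt (hzv p v) →+ B :=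
    { toFun := fun w => PF.LL h (homPt ϱ hϱ w).val
      map_zero' := by
        simp only [map_zero, LawPt.val_zero]
        exact PF.LL_zero h
      map_add' := fun x y => by
        simp only [map_add]
        exact PF.LL_add hr0 hr1 h hh _ _ }
  have hL : ∀ w, L w = ∑' l : ℤ, PF.lC h t l * PF.tF l w.val := fun w =>
    PF.LL_hom_expansion hr0 hr1 h hh b hb hbh ϱ hϱ t ht w
  -- the vanishing coefficient
  suffices hc : (fun K : ℤ => (p : B) * PF.lC h t K - ∑ i ∈ Finset.range N,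
      PF.lC h t (K - ((i : ℤ) + 1)) * PF.tF (K - ((i : ℤ) + 1)) (v i : C)) = 0 by
    have := congrFun hc K
    simpa [sub_eq_zero] using this
  refine PF.coeff_eq_zero_of_forall _ 1 b hb (fun K => ?_) (fun w hw hw0 => ?_)
  · -- growth
    rw [one_mul]
    have hbK : 0 ≤ b ^ K := (zpow_pos hb0 K).le
    refine (norm_sub_le_max' _ _).trans (max_le ?_ ?_)
    · rw [norm_mul, PF.natCast_p_norm]
      have h1 := PF.norm_lC_le hr0 h b hb hbh t K
      have h2 : 0 ≤ ‖PF.lC h t K‖ := norm_nonneg _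
      nlinarith
    · refine IsUltrametricDist.norm_sum_le_of_forall_le_of_nonneg hbK (fun i _ => ?_)
      rw [norm_mul]
      have h1 := PF.norm_lC_le hr0 h b hb hbh t (K - ((i : ℤ) + 1))
      have h2 := PF.norm_tF_le_one (K - ((i : ℤ) + 1)) (v i).2
      have h3 : b ^ (K - ((i : ℤ) + 1)) ≤ b ^ K := zpow_le_zpow_right₀ hb.le (by omega)
      calc _ ≤ b ^ (K - ((i : ℤ) + 1)) * 1 := mul_le_mul h1 h2 (norm_nonneg _) (zpow_pos hb0 _).le
        _ ≤ b ^ K := by rw [mul_one]; exact h3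
  · -- vanishing on the ball
    set W : LawPt (hzv p v) := LawPt.mk w hw with hW
    have hWval : W.val = w := rfl
    have hS0 : Summable (fun K : ℤ => PF.lC h t K * PF.tF K w) :=
      PF.summable_lC_mul hr0 h b hb hbh t w hw
    -- each token
    have htok : ∀ i : ℕ, L (tokPt (hzv p v) (v i) W (p ^ (i + 1))
        (pow_ne_zero _ (Fact.out : p.Prime).ne_zero)) =
        ∑' K : ℤ, PF.lC h t (K - ((i : ℤ) + 1)) * PF.tF (K - ((i : ℤ) + 1)) (v i : C) * PF.tF K w := by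
      intro i
      rw [hL]
      have hval : (tokPt (hzv p v) (v i) W (p ^ (i + 1))
          (pow_ne_zero _ (Fact.out : p.Prime).ne_zero) : LawPt (hzv p v)).val =
          (v i : C) * w ^ (p ^ (i + 1)) := rfl
      rw [hval]
      have hpowle : ‖w ^ (p ^ (i + 1))‖ ≤ 1 := by
        rw [norm_pow]; exact pow_le_one₀ (norm_nonneg _) hw.le
      have hT : ∀ l : ℤ, PF.tF l ((v i : C) * w ^ (p ^ (i + 1))) =
          PF.tF l (v i : C) * PF.tF (l + ((i : ℤ) + 1)) w := by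
        intro l
        rw [PF.tF_mul l (v i).2 hpowle]
        congr 1
        have h1 : w ^ (p ^ (i + 1)) = fpow p ((i + 1 : ℕ) : ℤ) w := (fpow_natCast p (i + 1) w).symm
        rw [h1, PF.tF_fpow]
        push_cast
        rfl
      rw [← (Equiv.subRight ((i : ℤ) + 1)).tsum_eq
        (fun l : ℤ => PF.lC h t l * PF.tF l ((v i : C) * w ^ (p ^ (i + 1))))]
      refine tsum_congr fun K => ?_
      simp only [Equiv.subRight_apply]
      rw [hT, sub_add_cancel, mul_assoc]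
    have hSi : ∀ i : ℕ, Summable (fun K : ℤ => PF.lC h t (K - ((i : ℤ) + 1)) *
        PF.tF (K - ((i : ℤ) + 1)) (v i : C) * PF.tF K w) := by
      intro i
      have hu := (summable_zpow_mul_rpow p b ‖w‖ hb (norm_nonneg _) hw)
      refine Summable.of_norm_bounded hu (fun K => ?_)
      rw [norm_mul, norm_mul, PF.norm_tF K hw.le]
      have h1 := PF.norm_lC_le hr0 h b hb hbh t (K - ((i : ℤ) + 1))
      have h2 := PF.norm_tF_le_one (K - ((i : ℤ) + 1)) (v i).2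
      have h3 : b ^ (K - ((i : ℤ) + 1)) ≤ b ^ K := zpow_le_zpow_right₀ hb.le (by omega)
      refine mul_le_mul_of_nonneg_right ?_ (Real.rpow_nonneg (norm_nonneg _) _)
      calc _ ≤ b ^ (K - ((i : ℤ) + 1)) * 1 := mul_le_mul h1 h2 (norm_nonneg _) (zpow_pos hb0 _).le
        _ ≤ b ^ K := by rw [mul_one]; exact h3
    -- the identity
    have hkey : (p : B) * ∑' K : ℤ, PF.lC h t K * PF.tF K w = ∑ i ∈ Finset.range N,
        ∑' K : ℤ, PF.lC h t (K - ((i : ℤ) + 1)) * PF.tF (K - ((i : ℤ) + 1)) (v i : C) *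
          PF.tF K w := by
      have h1 : L (p • W) = (p : B) * L W := by rw [map_nsmul, nsmul_eq_mul]
      rw [pSmul_eq_sum_tokens v N hv W, map_sum] at h1
      rw [hL W, hWval] at h1
      rw [← h1]
      exact Finset.sum_congr rfl fun i _ => htok i
    have h2 : ∀ K : ℤ, ((p : B) * PF.lC h t K - ∑ i ∈ Finset.range N,
        PF.lC h t (K - ((i : ℤ) + 1)) * PF.tF (K - ((i : ℤ) + 1)) (v i : C)) * PF.tc (fpow p K w) =
        (p : B) * (PF.lC h t K * PF.tF K w) - ∑ i ∈ Finset.range N,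
          PF.lC h t (K - ((i : ℤ) + 1)) * PF.tF (K - ((i : ℤ) + 1)) (v i : C) * PF.tF K w := by
      intro K
      rw [sub_mul, Finset.sum_mul, mul_assoc]
    simp only [h2]
    rw [(hS0.mul_left _).tsum_sub (summable_sum fun i _ => hSi i), tsum_mul_left,
      Summable.tsum_finsetSum (fun i _ => hSi i), hkey, sub_self]

/-- The relation `Ξ(J + n k) = p^(-k) Ξ(J)`. -/
theorem Xi_shift {B : Type} [Field B] (P : B) (hP : P ≠ 0) (n : ℕ) (Ξ : ℤ → B)
    (hΞ : ∀ J, P * Ξ (J + n) = Ξ J) (J k : ℤ) : Ξ (J + n * k) = P ^ (-k) * Ξ J := by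
  induction k using Int.induction_on with
  | zero => simp
  | succ k ih =>
    have h1 := hΞ (J + n * k)
    rw [ih] at h1
    have h2 : J + (n : ℤ) * (k + 1) = J + n * k + n := by ring
    rw [h2]
    have h3 : P ^ (-((k : ℤ) + 1)) = P⁻¹ * P ^ (-(k : ℤ)) := by
      rw [neg_add, zpow_add₀ hP, zpow_neg_one, mul_comm]
    rw [h3, mul_assoc, ← h1, ← mul_assoc, inv_mul_cancel₀ hP, one_mul]
  | pred k ih =>
    have h1 := hΞ (J + n * (-(k : ℤ) - 1))
    have h2 : J + (n : ℤ) * (-(k : ℤ) - 1) + n = J + n * (-(k : ℤ)) := by ring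
    rw [h2, ih] at h1
    rw [← h1]
    have h3 : P ^ (-(-(k : ℤ) - 1)) = P * P ^ (-(-(k : ℤ))) := by
      rw [show -(-(k : ℤ) - 1) = 1 + (-(-(k : ℤ))) by ring, zpow_add₀ hP, zpow_one]
    rw [h3, mul_assoc]

/-- Splitting a sum over `ℤ` into residue classes. -/
theorem tsum_int_eq_sum_residues {B : Type} [NormedField B] [CompleteSpace B] (n : ℕ) (hn : 1 ≤ n)
    (f : ℤ → B) (hf : Summable f) :
    ∑' J : ℤ, f J = ∑ e ∈ Finset.range n, ∑' k : ℤ, f ((e : ℤ) + n * k) := by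
  haveI : NeZero n := ⟨by omega⟩
  let E : Fin n × ℤ ≃ ℤ := (Equiv.prodComm (Fin n) ℤ).trans (Int.divModEquiv n).symm
  have hE : ∀ (e : Fin n) (k : ℤ), E (e, k) = ((e : ℕ) : ℤ) + n * k := by
    intro e k
    simp [E, Int.divModEquiv]
    ring
  have hfE : Summable (fun q => f (E q)) := (E.summable_iff).mpr hf
  rw [← E.tsum_eq f, hfE.tsum_prod, tsum_fintype]
  rw [← Fin.sum_univ_eq_sum_range (fun e => ∑' k : ℤ, f ((e : ℤ) + n * k)) n]
  refine Finset.sum_congr rfl fun e _ => ?_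
  exact tsum_congr fun k => by rw [hE]

/-- **EXP.** `ϱ = ∑^{H₀} ϱ_j X^(p^j)` (`exists_tokens`). Put `𝔩_l = ∑_{j+hk=l} [ϱ_j^(P^k)] p^(-k)`. (a) `𝓛ϱ(w) = ∑_{l∈ℤ} 𝔩_l [w^(p^l)]` for `w ∈ 𝔪_C`
(`tendsto_tokens`, `LL_add`, `continuous_LL`); (b) `𝓛ϱ([p]_H w) = p 𝓛ϱ(w)` and `[p]_H = ∑^H_{h≤i≤n} v_i X^(p^i)` give, by `coeff_eq_zero_of_forall`, `p 𝔩_K = ∑_{i=h}^n [v_i^(p^(K-i))] 𝔩_{K-i}`;
(c) bound `‖𝔩_K‖ ≤ A r^(-K/n)` for all `K ∈ ℤ` (`K<0`: from the definition, `≤ r^(|K|/h)`; `K → ∞`: the recursion, `[v_i^(p^(K-i))]` super-exponentially small for `i<n`, `v_n = 1`);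
(d) `Ξ_J = lim_N p^N 𝔩_{J+nN}` exists (`p^N(p 𝔩_K - 𝔩_{K-n})` is super-exponentially small), `Ξ_{J+n} = p⁻¹ Ξ_J`;
(e) `𝓛ϱ(π y) = lim_N p^N 𝓛ϱ(y^(1/q^N)) = lim_N ∑_J p^N 𝔩_{J+nN} [y^(p^J)] = ∑_J Ξ_J [y^(p^J)]` by dominated convergence
(`tendsto_tsum_of_dominated_convergence`, bound `A r^(-J/n) ‖y‖^(p^J)`, summable over `J ∈ ℤ`) `= ∑_{e<n} Ξ_e ell n e y`. -/
theorem PeriodField.exists_Xi (PF : PeriodField p C r B) (hr0 : 0 < r) (hr1 : r < 1) (h n : ℕ) (hh : 1 ≤ h)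
    (hn : h < n) (τ : Fin (n - h) → OC C) (hτ : ∀ j, ‖((τ j : OC C) : C)‖ < 1) (r₀ : ℝ)
    (S : PiSetup p n (GamC p n C) (HS p h n τ) r₀)
    (ϱ : PowerSeries (OC C)) (hϱ : IsFGHom (HS p h n τ) (H0C p h C) ϱ) :
    ∃ Ξ : ℕ → B, ∀ y : LawPt (GamC p n C),
      PF.LL h (homPt ϱ hϱ (S.pi y)).val = ∑ e ∈ Finset.range n, Ξ e * PF.ell n (e : ℤ) y.val := by
  classical
  haveI hcharOC : CharP (OC C) p := charP_OC p
  have hn1 : 1 ≤ n := by omega
  have hP0 : (p : B) ≠ 0 := by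
    rw [← norm_ne_zero_iff, PF.natCast_p_norm]; exact hr0.ne'
  -- the constants `b`, `a`
  have hr1' : 1 < r⁻¹ := (one_lt_inv₀ hr0).mpr hr1
  set b : ℝ := (r⁻¹) ^ ((h : ℝ)⁻¹) with hbdef
  set a : ℝ := (r⁻¹) ^ ((n : ℝ)⁻¹) with hadef
  have hhpos : (0 : ℝ) < h := by exact_mod_cast hh
  have hnpos : (0 : ℝ) < n := by exact_mod_cast hn1
  have hb : 1 < b := Real.one_lt_rpow hr1' (inv_pos.mpr hhpos)
  have ha : 1 < a := Real.one_lt_rpow hr1' (inv_pos.mpr hnpos)
  have hb0 : 0 < b := lt_trans zero_lt_one hb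
  have ha0 : 0 < a := lt_trans zero_lt_one ha
  have hbh : b ^ h = r⁻¹ := Real.rpow_inv_natCast_pow (inv_nonneg.mpr hr0.le) (by omega)
  have han : a ^ n = r⁻¹ := Real.rpow_inv_natCast_pow (inv_nonneg.mpr hr0.le) (by omega)
  have hab : a ≤ b := by
    refine Real.rpow_le_rpow_of_exponent_le hr1'.le ?_
    exact inv_anti₀ hhpos (by exact_mod_cast hn.le)
  -- tokens
  obtain ⟨t, -, ht⟩ := exists_tokens p
    (fun ℓ hℓ hℓp => OC_roots (p := p) (C := C) (Or.inl inferInstance) ℓ hℓ hℓp)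
    (vStr h n τ) (eParam h) ϱ hϱ
  -- the bound `s`
  haveI : Nonempty (Fin (n - h)) := ⟨⟨0, by omega⟩⟩
  obtain ⟨j₀, hj₀⟩ := Finite.exists_max (fun j => ‖((τ j : OC C) : C)‖)
  set s : ℝ := max (1 / 2) ‖((τ j₀ : OC C) : C)‖ with hs
  have hs0 : 0 < s := lt_of_lt_of_le (by norm_num) (le_max_left _ _)
  have hs1 : s < 1 := max_lt (by norm_num) (hτ j₀)
  have hvs : ∀ i : ℕ, i + 1 < n → ‖((vStr h n τ i : OC C) : C)‖ ≤ s := by
    intro i hi
    unfold vStr
    split_ifs with h1 h2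
    · exact (hj₀ _).trans (le_max_right _ _)
    · omega
    · simpa using hs0.le
  have hvn : vStr h n τ (n - 1) = (1 : OC C) := by
    unfold vStr
    rw [dif_neg (by omega), if_pos (by omega)]
  -- recursion
  set l : ℤ → B := PF.lC h t with hl
  have hrec0 := fun K => PF.lC_recursion hr0 hr1 h hh b hb hbh (vStr h n τ) n
    (fun i hi => by
      unfold vStr
      rw [dif_neg (by omega), if_neg (by omega)]) ϱ hϱ t ht K
  have hrec : ∀ K : ℤ, (p : B) * l K = l (K - n) + ∑ i ∈ Finset.range (n - 1),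
      l (K - ((i : ℤ) + 1)) * PF.tF (K - ((i : ℤ) + 1)) ((vStr h n τ i : OC C) : C) := by
    intro K
    have h1 := hrec0 K
    have hn2 : Finset.range n = Finset.range ((n - 1) + 1) := by rw [Nat.sub_add_cancel hn1]
    rw [hn2, Finset.sum_range_succ] at h1
    have h2 : K - (((n - 1 : ℕ) : ℤ) + 1) = K - n := by
      have : ((n - 1 : ℕ) : ℤ) + 1 = n := by omega
      rw [this]
    rw [h2, hvn] at h1
    have h3 : PF.tF (K - n) (((1 : OC C)) : C) = 1 := by
      simpa using PF.tF_one (K - n)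
    rw [h3, mul_one] at h1
    rw [h1, add_comm]
  have hc : ∀ i, i < n - 1 → ∀ K : ℤ, ‖PF.tF (K - ((i : ℤ) + 1)) ((vStr h n τ i : OC C) : C)‖ ≤
      s ^ ((p : ℝ) ^ (K - ((i : ℤ) + 1))) := by
    intro i hi K
    rw [PF.norm_tF _ (vStr h n τ i).2]
    exact Real.rpow_le_rpow (norm_nonneg _) (hvs i (by omega)) (zpow_pos (p_real_pos p) _).le
  have hbase : ∀ K : ℤ, K ≤ 0 → ‖l K‖ ≤ a ^ K := by
    intro K hK
    refine (PF.norm_lC_le hr0 h b hb hbh t K).trans ?_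
    obtain ⟨m, rfl⟩ : ∃ m : ℕ, K = -(m : ℤ) := ⟨K.natAbs, by omega⟩
    rw [zpow_neg, zpow_neg, zpow_natCast, zpow_natCast]
    exact inv_anti₀ (pow_pos ha0 _) (pow_le_pow_left₀ ha0.le hab _)
  obtain ⟨A, hA0, hgrow, Ξ, hΞ, hΞb, hΞrel⟩ := recursion_limit p (p : B) r PF.natCast_p_norm hr0 n hn1 a ha han l
    (fun i K => PF.tF (K - ((i : ℤ) + 1)) ((vStr h n τ i : OC C) : C)) s hs0 hs1 hrec hc hbase
  refine ⟨fun e => Ξ (e : ℤ), fun y => ?_⟩
  -- (e)
  have hy := y.norm_lt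
  -- the additive map
  let L : LawPt (HS p h n τ) →+ B :=
    { toFun := fun w => PF.LL h (homPt ϱ hϱ w).val
      map_zero' := by
        simp only [map_zero, LawPt.val_zero]
        exact PF.LL_zero h
      map_add' := fun x y => by
        simp only [map_add]
        exact PF.LL_add hr0 hr1 h hh _ _ }
  have hL : ∀ w, L w = ∑' l' : ℤ, l l' * PF.tF l' w.val := fun w =>
    PF.LL_hom_expansion hr0 hr1 h hh b hb hbh ϱ hϱ t ht w
  -- the terms at level `N`
  have hterm : ∀ N : ℕ, L ((p ^ N) • (LawPt.cast (LawPt.root p (n * N) y) : LawPt (HS p h n τ))) =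
      ∑' J : ℤ, (p : B) ^ N * l (J + n * N) * PF.tF J y.val := by
    intro N
    rw [map_nsmul, nsmul_eq_mul, hL]
    have hv : (LawPt.cast (LawPt.root p (n * N) y) : LawPt (HS p h n τ)).val =
        fpow p (-((n * N : ℕ) : ℤ)) y.val := by
      rw [fpow_neg_natCast]; rfl
    rw [hv, ← tsum_mul_left, ← (Equiv.addRight ((n : ℤ) * N)).tsum_eq]
    refine tsum_congr fun J => ?_
    simp only [Equiv.coe_addRight]
    rw [PF.tF_fpow]
    have h1 : J + (n : ℤ) * N + -((n * N : ℕ) : ℤ) = J := by push_cast; ring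
    rw [h1, Nat.cast_pow, mul_assoc]
  -- dominated convergence
  have hbound : Summable (fun J : ℤ => A * (a ^ J * ‖y.val‖ ^ ((p : ℝ) ^ J))) :=
    (summable_zpow_mul_rpow p a ‖y.val‖ ha (norm_nonneg _) hy).mul_left A
  have hnormb : ∀ (J : ℤ) (N : ℕ), ‖(p : B) ^ N * l (J + n * N)‖ ≤ A * a ^ J := by
    intro J N
    rw [norm_mul, norm_pow, PF.natCast_p_norm]
    have h1 : a ^ (J + (n : ℤ) * N) = a ^ J * (a ^ n) ^ N := by
      rw [zpow_add₀ ha0.ne', zpow_mul, zpow_natCast, zpow_natCast]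
    have hran : r * a ^ n = 1 := by rw [han]; exact mul_inv_cancel₀ hr0.ne'
    calc r ^ N * ‖l (J + n * N)‖ ≤ r ^ N * (A * a ^ (J + n * N)) := by
          gcongr; exact hgrow _
      _ = A * a ^ J * (r * a ^ n) ^ N := by rw [h1, mul_pow]; ring
      _ = A * a ^ J := by rw [hran, one_pow, mul_one]
  have hlim1 : Tendsto (fun N : ℕ => ∑' J : ℤ, (p : B) ^ N * l (J + n * N) * PF.tF J y.val) atTop
      (𝓝 (∑' J : ℤ, Ξ J * PF.tF J y.val)) := by
    refine tendsto_tsum_of_dominated_convergence hbound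
      (fun J => (hΞ J).mul_const _) (Eventually.of_forall fun N J => ?_)
    rw [norm_mul, PF.norm_tF J hy.le]
    calc _ ≤ (A * a ^ J) * ‖y.val‖ ^ ((p : ℝ) ^ J) :=
          mul_le_mul_of_nonneg_right (hnormb J N) (Real.rpow_nonneg (norm_nonneg _) _)
      _ = _ := by ring
  -- continuity
  have hlim2 : Tendsto (fun N : ℕ =>
      L ((p ^ N) • (LawPt.cast (LawPt.root p (n * N) y) : LawPt (HS p h n τ)))) atTop
      (𝓝 (PF.LL h (homPt ϱ hϱ (S.pi y)).val)) := by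
    refine PF.continuous_LL hr0 hr1 h hh _ _ ?_
    have hT := S.tendsto_pi y
    rw [tendsto_iff_norm_sub_tendsto_zero] at hT ⊢
    refine squeeze_zero (fun _ => norm_nonneg _) (fun N => ?_) hT
    rw [homPt_val, homPt_val]
    exact norm_ev1_sub_le ϱ _ _ (LawPt.norm_lt _) (LawPt.norm_lt _)
  have hmain : PF.LL h (homPt ϱ hϱ (S.pi y)).val = ∑' J : ℤ, Ξ J * PF.tF J y.val :=
    tendsto_nhds_unique hlim2 (hlim1.congr fun N => (hterm N).symm)
  rw [hmain]
  -- residues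
  have hsum : Summable (fun J : ℤ => Ξ J * PF.tF J y.val) := by
    refine Summable.of_norm_bounded hbound (fun J => ?_)
    rw [norm_mul, PF.norm_tF J hy.le]
    calc _ ≤ (A * a ^ J) * ‖y.val‖ ^ ((p : ℝ) ^ J) :=
          mul_le_mul_of_nonneg_right (hΞb J) (Real.rpow_nonneg (norm_nonneg _) _)
      _ = _ := by ring
  rw [tsum_int_eq_sum_residues n hn1 _ hsum]
  refine Finset.sum_congr rfl fun e _ => ?_
  unfold PeriodField.ell
  rw [← tsum_mul_left]
  refine tsum_congr fun k => ?_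
  rw [Xi_shift (p : B) hP0 n Ξ hΞrel]
  ring

end

end Crest.Agent.LT
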