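/-
S0351 package WITT/GAUSSNORM, core part: the Gauss norm on `W(R)` for a perfect ring `R` of characteristic `p`
carrying a multiplicative "valuation" `v : R → ℝ` with values in `[0,1]` such that `v a ≤ v b → b ∣ a`.
See BLUEPRINT.md §GN and the docstring of `Witt/GaussNorm.lean`.
-/
import Mathlib

set_option autoImplicit false

namespace Crest.Agent.LT.GaussCore

set_option linter.unusedSectionVars false

open WittVector

noncomputable section

variable {p : ℕ} [hp : Fact p.Prime] {R : Type*} [CommRing R] [CharP R p] [PerfectRing R p]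

local notation "𝕎" => WittVector p

/-- `j`-fold `p`-th root. -/
def root (p : ℕ) [Fact p.Prime] {R : Type*} [CommRing R] [CharP R p] [PerfectRing R p] (j : ℕ) (a : R) : R :=
  (⇑(_root_.frobeniusEquiv R p).symm)^[j] a

theorem root_zero (a : R) : root p 0 a = a := rfl

theorem root_succ (j : ℕ) (a : R) : root p (j + 1) a = root p j ((_root_.frobeniusEquiv R p).symm a) := by
  simp [root, Function.iterate_succ_apply]

theorem root_zero_eq (j : ℕ) : root p j (0 : R) = 0 := by
  induction j with
  | zero => rfl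
  | succ j ih => rw [root_succ, map_zero, ih]

theorem symm_pow (a : R) : (_root_.frobeniusEquiv R p).symm (a ^ p) = a := by
  have : a ^ p = _root_.frobeniusEquiv R p a := by
    simp only [_root_.frobeniusEquiv_apply, frobenius_def]
  rw [this, RingEquiv.symm_apply_apply]

theorem pow_symm (a : R) : ((_root_.frobeniusEquiv R p).symm a) ^ p = a := by
  have : ((_root_.frobeniusEquiv R p).symm a) ^ p
      = _root_.frobeniusEquiv R p ((_root_.frobeniusEquiv R p).symm a) := by
    simp only [_root_.frobeniusEquiv_apply, frobenius_def]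
  rw [this, RingEquiv.apply_symm_apply]

theorem root_injective (j : ℕ) : Function.Injective (root p j : R → R) :=
  (_root_.frobeniusEquiv R p).symm.injective.iterate j

/-- Digit of a Witt vector: `x = ∑_j [a_j] p^j`, `a_j = (x_j)^(1/p^j)`. -/
def digit (x : 𝕎 R) (j : ℕ) : R := root p j (x.coeff j)

/-- `x = [a₀] + (tail x) p`. -/
def tail (x : 𝕎 R) : 𝕎 R := WittVector.mk p (fun j => (_root_.frobeniusEquiv R p).symm (x.coeff (j + 1)))

theorem digit_zero_eq (x : 𝕎 R) : digit x 0 = x.coeff 0 := rfl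

theorem digit_tail (x : 𝕎 R) (j : ℕ) : digit (tail x) j = digit x (j + 1) := by
  simp only [digit, tail, WittVector.coeff_mk, root_succ]

theorem teich_add_coeff_zero (a : R) (z : 𝕎 R) : (teichmuller p a + z * (p : 𝕎 R)).coeff 0 = a := by
  rw [coeff_add_of_disjoint 0]
  · rw [mul_charP_coeff_zero, add_zero, teichmuller_coeff_zero]
  · intro n
    cases n with
    | zero => right; exact mul_charP_coeff_zero z
    | succ n => left; exact teichmuller_coeff_pos p a _ (Nat.succ_pos n)

theorem teich_add_coeff_succ (a : R) (z : 𝕎 R) (n : ℕ) :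
    (teichmuller p a + z * (p : 𝕎 R)).coeff (n + 1) = z.coeff n ^ p := by
  rw [coeff_add_of_disjoint (n + 1)]
  · rw [mul_charP_coeff_succ, teichmuller_coeff_pos p a _ (Nat.succ_pos n), zero_add]
  · intro n
    cases n with
    | zero => right; exact mul_charP_coeff_zero z
    | succ n => left; exact teichmuller_coeff_pos p a _ (Nat.succ_pos n)

theorem eq_teich_add_tail (x : 𝕎 R) : x = teichmuller p (x.coeff 0) + tail x * (p : 𝕎 R) := by
  ext n
  cases n with
  | zero => rw [teich_add_coeff_zero]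
  | succ n =>
    rw [teich_add_coeff_succ]
    simp only [tail, WittVector.coeff_mk]
    rw [pow_symm]

theorem digit_teich_add_zero (a : R) (z : 𝕎 R) : digit (teichmuller p a + z * (p : 𝕎 R)) 0 = a := by
  rw [digit_zero_eq, teich_add_coeff_zero]

theorem digit_teich_add_succ (a : R) (z : 𝕎 R) (j : ℕ) :
    digit (teichmuller p a + z * (p : 𝕎 R)) (j + 1) = digit z j := by
  simp only [digit]
  rw [teich_add_coeff_succ, root_succ, symm_pow]

theorem digit_zero_vec (j : ℕ) : digit (0 : 𝕎 R) j = 0 := by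
  simp only [digit, WittVector.zero_coeff, root_zero_eq]

theorem eq_zero_of_digit (x : 𝕎 R) (h : ∀ j, digit x j = 0) : x = 0 := by
  ext j
  have := h j
  simp only [digit] at this
  rw [WittVector.zero_coeff]
  apply root_injective (p := p) j
  rw [this, root_zero_eq]

theorem digit_mul_p_zero (z : 𝕎 R) : digit (z * (p : 𝕎 R)) 0 = 0 := by
  simpa using digit_teich_add_zero (p := p) (0 : R) z

theorem digit_mul_p_succ (z : 𝕎 R) (j : ℕ) : digit (z * (p : 𝕎 R)) (j + 1) = digit z j := by
  simpa using digit_teich_add_succ (p := p) (0 : R) z j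

theorem digit_mul_p_pow (z : 𝕎 R) (i k : ℕ) : digit (z * (p : 𝕎 R) ^ i) (k + i) = digit z k := by
  induction i generalizing z with
  | zero => simp
  | succ i ih =>
    rw [pow_succ, ← mul_assoc, show k + (i + 1) = (k + i) + 1 by ring, digit_mul_p_succ, ih]

theorem digit_teich_zero (a : R) : digit (teichmuller p a) 0 = a := by
  simpa using digit_teich_add_zero (p := p) a (0 : 𝕎 R)

theorem digit_teich_succ (a : R) (j : ℕ) : digit (teichmuller p a) (j + 1) = 0 := by
  simpa [digit_zero_vec] using digit_teich_add_succ (p := p) a (0 : 𝕎 R) j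

theorem digit_mul_zero (x y : 𝕎 R) : digit (x * y) 0 = digit x 0 * digit y 0 :=
  (constantCoeff : 𝕎 R →+* R).map_mul x y

/-- Digits of a finite digit expansion. -/
theorem digit_sum (N : ℕ) (a : ℕ → R) (k : ℕ) (hk : k < N) :
    digit (∑ j ∈ Finset.range N, teichmuller p (a j) * (p : 𝕎 R) ^ j) k = a k := by
  induction N generalizing a k with
  | zero => exact absurd hk (Nat.not_lt_zero k)
  | succ N ih =>
    have : (∑ j ∈ Finset.range (N + 1), teichmuller p (a j) * (p : 𝕎 R) ^ j)
        = teichmuller p (a 0)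
          + (∑ j ∈ Finset.range N, teichmuller p (a (j + 1)) * (p : 𝕎 R) ^ j) * (p : 𝕎 R) := by
      rw [Finset.sum_range_succ', Finset.sum_mul, add_comm]
      simp [pow_succ, mul_assoc]
    rw [this]
    cases k with
    | zero => exact digit_teich_add_zero _ _
    | succ k =>
      rw [digit_teich_add_succ]
      exact ih (fun j => a (j + 1)) k (Nat.lt_of_succ_lt_succ hk)

/-- digit of `[c] x`. -/
theorem digit_teich_mul (c : R) (x : 𝕎 R) (j : ℕ) :
    digit (teichmuller p c * x) j = c * digit x j := by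
  induction j generalizing x with
  | zero =>
    rw [digit_mul_zero, digit_teich_zero]
  | succ j ih =>
    have hx := eq_teich_add_tail x
    have : teichmuller p c * x
        = teichmuller p (c * x.coeff 0) + (teichmuller p c * tail x) * (p : 𝕎 R) := by
      conv_lhs => rw [hx]
      rw [map_mul]; ring
    rw [this, digit_teich_add_succ, ih, digit_tail]


/-- The valuation axioms on `R` needed for the Gauss norm. -/
structure IsGV (v : R → ℝ) : Prop where
  nonneg : ∀ a, 0 ≤ v a
  le_one : ∀ a, v a ≤ 1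
  map_one : v 1 = 1
  map_mul : ∀ a b, v (a * b) = v a * v b
  map_zero : v 0 = 0
  eq_zero : ∀ a, v a = 0 → a = 0
  dvd : ∀ a b, v a ≤ v b → b ∣ a

variable {v : R → ℝ} {r : ℝ}

/-- First `N` digits in the ball of radius `t`. -/
def InB (v : R → ℝ) (r : ℝ) (N : ℕ) (t : ℝ) (x : 𝕎 R) : Prop := ∀ j < N, v (digit x j) * r ^ j ≤ t

theorem InB.mono {N : ℕ} {s t : ℝ} {x : 𝕎 R} (h : InB v r N s x) (hst : s ≤ t) : InB v r N t x :=
  fun j hj => (h j hj).trans hst

theorem InB.tail {N : ℕ} {t : ℝ} {x : 𝕎 R} (hr0 : 0 < r) (h : InB v r (N + 1) t x) :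
    InB v r N (t / r) (tail x) := by
  intro j hj
  rw [digit_tail, le_div_iff₀ hr0, mul_assoc, ← pow_succ]
  exact h (j + 1) (Nat.succ_lt_succ hj)

theorem InB.zero {N : ℕ} {t : ℝ} {x : 𝕎 R} (h : InB v r (N + 1) t x) : v (x.coeff 0) ≤ t := by
  simpa [digit_zero_eq] using h 0 (Nat.succ_pos N)

theorem InB.teich_mul {N : ℕ} {s t : ℝ} {c : R} {x : 𝕎 R} (hv : IsGV v) (hr0 : 0 < r) (hs : 0 ≤ s)
    (hc : v c ≤ s) (h : InB v r N t x) : InB v r N (s * t) (teichmuller p c * x) := by
  intro j hj
  rw [digit_teich_mul, hv.map_mul, mul_assoc]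
  exact mul_le_mul hc (h j hj) (mul_nonneg (hv.nonneg _) (pow_nonneg hr0.le j)) hs

theorem InB.of_le {N M : ℕ} {t : ℝ} {x : 𝕎 R} (h : InB v r N t x) (hMN : M ≤ N) : InB v r M t x :=
  fun j hj => h j (lt_of_lt_of_le hj hMN)

theorem val_digit_le (hv : IsGV v) (hr0 : 0 < r) (hr1 : r ≤ 1) (x : 𝕎 R) (j : ℕ) :
    v (digit x j) * r ^ j ≤ 1 :=
  mul_le_one₀ (hv.le_one _) (pow_nonneg hr0.le j) (pow_le_one₀ hr0.le hr1)

theorem InB.mul_p {N : ℕ} {t : ℝ} {w : 𝕎 R} (hv : IsGV v) (hr0 : 0 < r) (ht : 0 ≤ t)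
    (h : InB v r N t w) : InB v r (N + 1) (t * r) (w * (p : 𝕎 R)) := by
  intro j hj
  cases j with
  | zero =>
    rw [digit_mul_p_zero, hv.map_zero, zero_mul]
    exact mul_nonneg ht hr0.le
  | succ j =>
    rw [digit_mul_p_succ, pow_succ, ← mul_assoc]
    exact mul_le_mul_of_nonneg_right (h j (Nat.lt_of_succ_lt_succ hj)) hr0.le

/-- **Ultrametric inequality**, digit by digit. -/
theorem InB.add (hv : IsGV v) (hr0 : 0 < r) (hr1 : r ≤ 1) (N : ℕ) :
    ∀ (t : ℝ) (x y : 𝕎 R), InB v r N t x → InB v r N t y → InB v r N t (x + y) := by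
  induction N with
  | zero => intro t x y _ _ j hj; exact absurd hj (Nat.not_lt_zero j)
  | succ N ih =>
    -- the main step, under the assumption `v x₀ ≤ v y₀`
    have main : ∀ (t : ℝ) (x y : 𝕎 R), InB v r (N + 1) t x → InB v r (N + 1) t y →
        v (x.coeff 0) ≤ v (y.coeff 0) → InB v r (N + 1) t (x + y) := by
      intro t x y hx hy hle
      obtain ⟨d, hd⟩ := hv.dvd _ _ hle
      set w : 𝕎 R := teichmuller p d + 1 with hw
      have ht0 : 0 ≤ t := (hv.nonneg _).trans hy.zero
      have hdec : x + y = teichmuller p (y.coeff 0 * w.coeff 0)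
          + (teichmuller p (y.coeff 0) * GaussCore.tail w + GaussCore.tail x + GaussCore.tail y)
            * (p : 𝕎 R) := by
        have h1 := eq_teich_add_tail x
        have h2 := eq_teich_add_tail y
        have h3 := eq_teich_add_tail w
        have h4 : teichmuller p (x.coeff 0) + teichmuller p (y.coeff 0)
            = teichmuller p (y.coeff 0) * w := by
          rw [hd, map_mul, hw, mul_add, mul_one]
        calc x + y = (teichmuller p (x.coeff 0) + GaussCore.tail x * (p : 𝕎 R))
              + (teichmuller p (y.coeff 0) + GaussCore.tail y * (p : 𝕎 R)) := by rw [← h1, ← h2]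
          _ = (teichmuller p (x.coeff 0) + teichmuller p (y.coeff 0))
              + (GaussCore.tail x + GaussCore.tail y) * (p : 𝕎 R) := by ring
          _ = teichmuller p (y.coeff 0) * (teichmuller p (w.coeff 0) + GaussCore.tail w * (p : 𝕎 R))
              + (GaussCore.tail x + GaussCore.tail y) * (p : 𝕎 R) := by rw [h4, ← h3]
          _ = _ := by rw [map_mul]; ring
      intro j hj
      rw [hdec]
      cases j with
      | zero =>
        rw [digit_teich_add_zero, pow_zero, mul_one, hv.map_mul]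
        calc v (y.coeff 0) * v (w.coeff 0) ≤ v (y.coeff 0) * 1 :=
              mul_le_mul_of_nonneg_left (hv.le_one _) (hv.nonneg _)
          _ ≤ t := by rw [mul_one]; exact hy.zero
      | succ j =>
        rw [digit_teich_add_succ]
        have hj' : j < N := Nat.lt_of_succ_lt_succ hj
        have hz : InB v r N (t / r)
            (teichmuller p (y.coeff 0) * GaussCore.tail w + GaussCore.tail x + GaussCore.tail y) := by
          refine ih _ _ _ (ih _ _ _ ?_ (hx.tail hr0)) (hy.tail hr0)
          intro i _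
          rw [digit_teich_mul, hv.map_mul, le_div_iff₀ hr0]
          calc v (y.coeff 0) * v (digit (GaussCore.tail w) i) * r ^ i * r
              = v (y.coeff 0) * (v (digit (GaussCore.tail w) i) * r ^ i * r) := by ring
            _ ≤ t * 1 := by
                refine mul_le_mul hy.zero ?_ ?_ ht0
                · exact mul_le_one₀ (val_digit_le hv hr0 hr1 _ _) hr0.le hr1
                · exact mul_nonneg (mul_nonneg (hv.nonneg _) (pow_nonneg hr0.le _)) hr0.le
            _ = t := mul_one t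
        have := hz j hj'
        rw [le_div_iff₀ hr0] at this
        calc v (digit _ j) * r ^ (j + 1) = v (digit _ j) * r ^ j * r := by ring
          _ ≤ t := this
    intro t x y hx hy
    rcases le_total (v (x.coeff 0)) (v (y.coeff 0)) with h | h
    · exact main t x y hx hy h
    · rw [add_comm x y]; exact main t y x hy hx h

/-- **Submultiplicativity**, digit by digit. -/
theorem InB.mul (hv : IsGV v) (hr0 : 0 < r) (hr1 : r ≤ 1) (N : ℕ) :
    ∀ (s t : ℝ) (x y : 𝕎 R), InB v r N s x → InB v r N t y → InB v r N (s * t) (x * y) := by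
  induction N with
  | zero => intro s t x y _ _ j hj; exact absurd hj (Nat.not_lt_zero j)
  | succ N ih =>
    intro s t x y hx hy
    have hs0 : 0 ≤ s := (hv.nonneg _).trans hx.zero
    have ht0 : 0 ≤ t := (hv.nonneg _).trans hy.zero
    have hdec : x * y = teichmuller p (x.coeff 0 * y.coeff 0)
        + (teichmuller p (x.coeff 0) * GaussCore.tail y + teichmuller p (y.coeff 0) * GaussCore.tail x
            + (GaussCore.tail x * GaussCore.tail y) * (p : 𝕎 R)) * (p : 𝕎 R) := by
      have h1 := eq_teich_add_tail x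
      have h2 := eq_teich_add_tail y
      calc x * y = (teichmuller p (x.coeff 0) + GaussCore.tail x * (p : 𝕎 R))
            * (teichmuller p (y.coeff 0) + GaussCore.tail y * (p : 𝕎 R)) := by rw [← h1, ← h2]
        _ = _ := by rw [map_mul]; ring
    intro j hj
    rw [hdec]
    cases j with
    | zero =>
      rw [digit_teich_add_zero, pow_zero, mul_one, hv.map_mul]
      exact mul_le_mul hx.zero hy.zero (hv.nonneg _) hs0
    | succ j =>
      rw [digit_teich_add_succ]
      have hj' : j < N := Nat.lt_of_succ_lt_succ hj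
      have hxt := hx.tail hr0
      have hyt := hy.tail hr0
      have hsr : 0 ≤ s / r := div_nonneg hs0 hr0.le
      have htr : 0 ≤ t / r := div_nonneg ht0 hr0.le
      have hz : InB v r N (s * t / r)
          (teichmuller p (x.coeff 0) * GaussCore.tail y + teichmuller p (y.coeff 0) * GaussCore.tail x
            + (GaussCore.tail x * GaussCore.tail y) * (p : 𝕎 R)) := by
        refine InB.add hv hr0 hr1 _ _ _ _ (InB.add hv hr0 hr1 _ _ _ _ ?_ ?_) ?_
        · have := InB.teich_mul (p := p) hv hr0 hs0 hx.zero hyt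
          rwa [← mul_div_assoc] at this
        · have := InB.teich_mul (p := p) hv hr0 ht0 hy.zero hxt
          rwa [← mul_div_assoc, mul_comm t s] at this
        · have h3 := ih _ _ _ _ hxt hyt
          have h4 := (InB.mul_p (p := p) hv hr0 (mul_nonneg hsr htr) h3).of_le (Nat.le_succ N)
          have : s / r * (t / r) * r = s * t / r := by field_simp
          rwa [this] at h4
      have := hz j hj'
      rw [le_div_iff₀ hr0] at this
      calc v (digit _ j) * r ^ (j + 1) = v (digit _ j) * r ^ j * r := by ring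
        _ ≤ s * t := this

/-- The Gauss norm of radius `r`. -/
def gn (v : R → ℝ) (r : ℝ) (x : 𝕎 R) : ℝ := ⨆ j, v (digit x j) * r ^ j

section gn

variable (hv : IsGV v) (hr0 : 0 < r) (hr1 : r < 1)
include hv hr0 hr1

theorem bdd (x : 𝕎 R) : BddAbove (Set.range fun j => v (digit x j) * r ^ j) :=
  ⟨1, by rintro _ ⟨j, rfl⟩; exact val_digit_le hv hr0 hr1.le x j⟩

theorem le_gn (x : 𝕎 R) (j : ℕ) : v (digit x j) * r ^ j ≤ gn v r x :=
  le_ciSup (bdd hv hr0 hr1 x) j

omit hv hr0 hr1 in
theorem gn_le {x : 𝕎 R} {t : ℝ} (h : ∀ j, v (digit x j) * r ^ j ≤ t) : gn v r x ≤ t :=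
  ciSup_le h

theorem gn_nonneg (x : 𝕎 R) : 0 ≤ gn v r x :=
  (mul_nonneg (hv.nonneg _) (pow_nonneg hr0.le 0)).trans (le_gn hv hr0 hr1 x 0)

theorem gn_le_one (x : 𝕎 R) : gn v r x ≤ 1 := gn_le fun j => val_digit_le hv hr0 hr1.le x j

theorem inB_gn (N : ℕ) (x : 𝕎 R) : InB v r N (gn v r x) x := fun j _ => le_gn hv hr0 hr1 x j

theorem gn_add_le (x y : 𝕎 R) : gn v r (x + y) ≤ max (gn v r x) (gn v r y) :=
  gn_le fun j => InB.add hv hr0 hr1.le (j + 1) _ x y
    ((inB_gn hv hr0 hr1 _ x).mono (le_max_left _ _))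
    ((inB_gn hv hr0 hr1 _ y).mono (le_max_right _ _)) j (Nat.lt_succ_self j)

theorem gn_mul_le (x y : 𝕎 R) : gn v r (x * y) ≤ gn v r x * gn v r y :=
  gn_le fun j => InB.mul hv hr0 hr1.le (j + 1) _ _ x y
    (inB_gn hv hr0 hr1 _ x) (inB_gn hv hr0 hr1 _ y) j (Nat.lt_succ_self j)

theorem gn_zero : gn v r (0 : 𝕎 R) = 0 := by
  apply le_antisymm
  · exact gn_le fun j => by rw [digit_zero_vec, hv.map_zero, zero_mul]
  · exact gn_nonneg hv hr0 hr1 0

theorem gn_eq_zero {x : 𝕎 R} (h : gn v r x = 0) : x = 0 := by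
  apply eq_zero_of_digit
  intro j
  have h1 := le_gn hv hr0 hr1 x j
  rw [h] at h1
  have h2 : v (digit x j) * r ^ j = 0 :=
    le_antisymm h1 (mul_nonneg (hv.nonneg _) (pow_nonneg hr0.le j))
  rcases mul_eq_zero.mp h2 with h3 | h3
  · exact hv.eq_zero _ h3
  · exact absurd h3 (pow_ne_zero j hr0.ne')

theorem gn_teich (a : R) : gn v r (teichmuller p a) = v a := by
  apply le_antisymm
  · apply gn_le
    intro j
    cases j with
    | zero => rw [digit_teich_zero, pow_zero, mul_one]
    | succ j =>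
      rw [digit_teich_succ, hv.map_zero, zero_mul]
      exact hv.nonneg a
  · have := le_gn hv hr0 hr1 (teichmuller p a) 0
    rwa [digit_teich_zero, pow_zero, mul_one] at this

theorem gn_one : gn v r (1 : 𝕎 R) = 1 := by
  have := gn_teich (p := p) hv hr0 hr1 (1 : R)
  rwa [map_one, hv.map_one] at this

theorem gn_p : gn v r (p : 𝕎 R) = r := by
  have hpd : (p : 𝕎 R) = teichmuller p (0 : R) + (1 : 𝕎 R) * (p : 𝕎 R) := by simp
  apply le_antisymm
  · apply gn_le
    intro j
    rw [hpd]
    cases j with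
    | zero =>
      rw [digit_teich_add_zero, hv.map_zero, zero_mul]
      exact hr0.le
    | succ j =>
      rw [digit_teich_add_succ]
      cases j with
      | zero =>
        have : digit (1 : 𝕎 R) 0 = 1 := by
          have := digit_teich_zero (p := p) (1 : R)
          rwa [map_one] at this
        rw [this, hv.map_one]; simp
      | succ j =>
        have : digit (1 : 𝕎 R) (j + 1) = 0 := by
          have := digit_teich_succ (p := p) (1 : R) j
          rwa [map_one] at this
        rw [this, hv.map_zero, zero_mul]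
        exact hr0.le
  · have := le_gn hv hr0 hr1 (p : 𝕎 R) 1
    have h1 : digit (p : 𝕎 R) 1 = 1 := by
      rw [hpd, digit_teich_add_succ]
      have := digit_teich_zero (p := p) (1 : R)
      rwa [map_one] at this
    rwa [h1, hv.map_one, one_mul, pow_one] at this

theorem gn_neg_le (x : 𝕎 R) : gn v r (-x) ≤ gn v r x := by
  have h1 : gn v r (-1 : 𝕎 R) ≤ 1 := gn_le_one hv hr0 hr1 _
  calc gn v r (-x) = gn v r ((-1 : 𝕎 R) * x) := by rw [neg_mul, one_mul]
    _ ≤ gn v r (-1 : 𝕎 R) * gn v r x := gn_mul_le hv hr0 hr1 _ _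
    _ ≤ 1 * gn v r x := mul_le_mul_of_nonneg_right h1 (gn_nonneg hv hr0 hr1 x)
    _ = gn v r x := one_mul _

theorem gn_neg (x : 𝕎 R) : gn v r (-x) = gn v r x := by
  apply le_antisymm (gn_neg_le hv hr0 hr1 x)
  have := gn_neg_le hv hr0 hr1 (-x)
  rwa [neg_neg] at this

theorem exists_max_digit (x : 𝕎 R) :
    ∃ i, ∀ j, v (digit x j) * r ^ j ≤ v (digit x i) * r ^ i := by
  by_cases h : ∀ j, v (digit x j) * r ^ j = 0
  · exact ⟨0, fun j => by rw [h j, h 0]⟩
  · push Not at h
    obtain ⟨k, hk⟩ := h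
    have hk0 : 0 < v (digit x k) * r ^ k :=
      lt_of_le_of_ne (mul_nonneg (hv.nonneg _) (pow_nonneg hr0.le k)) hk.symm
    obtain ⟨N, hN⟩ := exists_pow_lt_of_lt_one hk0 hr1
    have hbig : ∀ j, N ≤ j → v (digit x j) * r ^ j < v (digit x k) * r ^ k := by
      intro j hj
      calc v (digit x j) * r ^ j ≤ 1 * r ^ j :=
            mul_le_mul_of_nonneg_right (hv.le_one _) (pow_nonneg hr0.le j)
        _ = r ^ j := one_mul _
        _ ≤ r ^ N := pow_le_pow_of_le_one hr0.le hr1.le hj
        _ < _ := hN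
    obtain ⟨i, _, hi⟩ := Finset.exists_max_image (Finset.range (N + 1))
      (fun j => v (digit x j) * r ^ j) ⟨0, Finset.mem_range.mpr (Nat.succ_pos N)⟩
    have hk' : k < N + 1 := by
      by_contra hcon
      exact lt_irrefl _ (hbig k (by omega))
    refine ⟨i, fun j => ?_⟩
    by_cases hj : j < N + 1
    · exact hi j (Finset.mem_range.mpr hj)
    · exact (hbig j (by omega)).le.trans (hi k (Finset.mem_range.mpr hk'))

theorem gn_attained (x : 𝕎 R) : ∃ i, v (digit x i) * r ^ i = gn v r x := by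
  obtain ⟨i, hi⟩ := exists_max_digit hv hr0 hr1 x
  exact ⟨i, le_antisymm (le_gn hv hr0 hr1 x i) (gn_le hi)⟩

theorem exists_least (x : 𝕎 R) :
    ∃ i, v (digit x i) * r ^ i = gn v r x ∧ ∀ k < i, v (digit x k) * r ^ k < gn v r x := by
  classical
  have hex := gn_attained hv hr0 hr1 x
  refine ⟨Nat.find hex, Nat.find_spec hex, fun k hk => ?_⟩
  exact lt_of_le_of_ne (le_gn hv hr0 hr1 x k) (Nat.find_min hex hk)

omit hv hr0 hr1 in
/-- Truncation of a Witt vector. -/
theorem split (i : ℕ) (x : 𝕎 R) : ∃ L U : 𝕎 R, x = L + U * (p : 𝕎 R) ^ i ∧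
    (∀ k, digit L k = if k < i then digit x k else 0) ∧ ∀ k, digit U k = digit x (k + i) := by
  induction i generalizing x with
  | zero => exact ⟨0, x, by simp, fun k => by simp [digit_zero_vec], fun k => by simp⟩
  | succ i ih =>
    obtain ⟨L, U, h1, h2, h3⟩ := ih (GaussCore.tail x)
    refine ⟨teichmuller p (x.coeff 0) + L * (p : 𝕎 R), U, ?_, ?_, ?_⟩
    · conv_lhs => rw [eq_teich_add_tail x, h1]
      ring
    · intro k
      cases k with
      | zero => rw [digit_teich_add_zero]; simp [digit_zero_eq]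
      | succ k =>
        rw [digit_teich_add_succ, h2, digit_tail]
        simp only [add_lt_add_iff_right]
    · intro k
      rw [h3, digit_tail]
      congr 1

/-- **Multiplicativity** of the Gauss norm. -/
theorem le_gn_mul (x y : 𝕎 R) : gn v r x * gn v r y ≤ gn v r (x * y) := by
  have hA0 := gn_nonneg hv hr0 hr1 x
  have hB0 := gn_nonneg hv hr0 hr1 y
  have hC0 := gn_nonneg hv hr0 hr1 (x * y)
  rcases hA0.eq_or_lt with hA | hA
  · rw [← hA, zero_mul]; exact hC0
  rcases hB0.eq_or_lt with hB | hB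
  · rw [← hB, mul_zero]; exact hC0
  have hL : ∀ (z : 𝕎 R) (i : ℕ) (L : 𝕎 R), 0 < gn v r z →
      (∀ k < i, v (digit z k) * r ^ k < gn v r z) →
      (∀ k, digit L k = if k < i then digit z k else 0) → gn v r L < gn v r z := by
    intro z i L hz hlt hdig
    obtain ⟨m, hm⟩ := gn_attained hv hr0 hr1 L
    rw [← hm, hdig m]
    split_ifs with hmi
    · exact hlt m hmi
    · rw [hv.map_zero, zero_mul]; exact hz
  obtain ⟨i, hi, hi'⟩ := exists_least hv hr0 hr1 x
  obtain ⟨j, hj, hj'⟩ := exists_least hv hr0 hr1 y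
  obtain ⟨L₁, U₁, hx, hL₁, hU₁⟩ := split (p := p) i x
  obtain ⟨L₂, U₂, hy, hL₂, hU₂⟩ := split (p := p) j y
  have hgL₁ := hL x i L₁ hA hi' hL₁
  have hgL₂ := hL y j L₂ hB hj' hL₂
  set T₁ := U₁ * (p : 𝕎 R) ^ i with hT₁
  have hgT₁ : gn v r T₁ ≤ gn v r x := by
    have : T₁ = x + -L₁ := by rw [hx]; ring
    rw [this]
    refine (gn_add_le hv hr0 hr1 _ _).trans (max_le le_rfl ?_)
    rw [gn_neg hv hr0 hr1]
    exact hgL₁.le
  set w := L₁ * y + T₁ * L₂ with hw
  set u := (U₁ * U₂) * (p : 𝕎 R) ^ (i + j) with hu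
  have hdec : x * y = w + u := by
    calc x * y = L₁ * y + T₁ * y := by
          conv_lhs => rw [hx]
          rw [add_mul]
      _ = L₁ * y + T₁ * (L₂ + U₂ * (p : 𝕎 R) ^ j) := by rw [← hy]
      _ = w + u := by rw [hw, hu, hT₁, pow_add]; ring
  have hgw : gn v r w < gn v r x * gn v r y := by
    refine lt_of_le_of_lt (gn_add_le hv hr0 hr1 _ _) (max_lt ?_ ?_)
    · calc gn v r (L₁ * y) ≤ gn v r L₁ * gn v r y := gn_mul_le hv hr0 hr1 _ _
        _ < gn v r x * gn v r y := mul_lt_mul_of_pos_right hgL₁ hB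
    · calc gn v r (T₁ * L₂) ≤ gn v r T₁ * gn v r L₂ := gn_mul_le hv hr0 hr1 _ _
        _ ≤ gn v r x * gn v r L₂ :=
          mul_le_mul_of_nonneg_right hgT₁ (gn_nonneg hv hr0 hr1 _)
        _ < gn v r x * gn v r y := mul_lt_mul_of_pos_left hgL₂ hA
  have hgu : gn v r x * gn v r y ≤ gn v r u := by
    have h1 := le_gn hv hr0 hr1 u (0 + (i + j))
    have h2 : digit u (0 + (i + j)) = digit x i * digit y j := by
      rw [hu, digit_mul_p_pow, digit_mul_zero, hU₁, hU₂, zero_add, zero_add]
    rw [h2, hv.map_mul, zero_add] at h1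
    calc gn v r x * gn v r y = (v (digit x i) * r ^ i) * (v (digit y j) * r ^ j) := by rw [hi, hj]
      _ = v (digit x i) * v (digit y j) * r ^ (i + j) := by rw [pow_add]; ring
      _ ≤ _ := h1
  by_contra hcon
  push Not at hcon
  have huu : u = x * y + -w := by rw [hdec]; ring
  have : gn v r u < gn v r x * gn v r y := by
    rw [huu]
    refine lt_of_le_of_lt (gn_add_le hv hr0 hr1 _ _) (max_lt hcon ?_)
    rw [gn_neg hv hr0 hr1]
    exact hgw
  exact absurd hgu (not_le.mpr this)

theorem gn_mul (x y : 𝕎 R) : gn v r (x * y) = gn v r x * gn v r y :=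
  le_antisymm (gn_mul_le hv hr0 hr1 x y) (le_gn_mul hv hr0 hr1 x y)

end gn

end

end Crest.Agent.LT.GaussCore
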