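/-
S0351 package WITT/GAUSSNORM, abstract part: a multiplicative ultrametric norm on a domain extends to the
completed fraction field; continuous extension of a ring map to the closure. No Witt vectors here.
-/
import Mathlib

set_option autoImplicit false

namespace Crest.Agent.LT.GaussExt

open nonZeroDivisors

noncomputable section

/-- Multiplicative ultrametric norm on a ring. -/
structure IsNm {W : Type*} [CommRing W] (nm : W → ℝ) : Prop where
  nonneg : ∀ x, 0 ≤ nm x
  eq_zero : ∀ x, nm x = 0 → x = 0
  map_zero : nm 0 = 0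
  map_one : nm 1 = 1
  map_mul : ∀ x y, nm (x * y) = nm x * nm y
  map_add : ∀ x y, nm (x + y) ≤ max (nm x) (nm y)
  map_neg : ∀ x, nm (-x) = nm x

section K

variable {W : Type*} [CommRing W] [IsDomain W] {nm : W → ℝ}
variable (K : Type*) [Field K] [Algebra W K] [IsFractionRing W K]

/-- Extension of the norm to the fraction field. -/
def nK (nm : W → ℝ) (z : K) : ℝ :=
  nm (Classical.choose (IsFractionRing.div_surjective (A := W) z))
    / nm (Classical.choose (Classical.choose_spec (IsFractionRing.div_surjective (A := W) z)))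

variable {K}

theorem nK_div (h : IsNm nm) (x y : W) (hy : y ≠ 0) :
    nK K nm (algebraMap W K x / algebraMap W K y) = nm x / nm y := by
  set z : K := algebraMap W K x / algebraMap W K y with hz
  have hs := Classical.choose_spec (IsFractionRing.div_surjective (A := W) z)
  set a := Classical.choose (IsFractionRing.div_surjective (A := W) z) with ha
  have hs2 := Classical.choose_spec hs
  set b := Classical.choose hs with hb
  obtain ⟨hb0, hab⟩ := hs2
  have hb0' : b ≠ 0 := nonZeroDivisors.ne_zero hb0
  have hinj := IsFractionRing.injective W K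
  have hyK : algebraMap W K y ≠ 0 := by
    intro h0; exact hy (hinj (by rw [h0, map_zero]))
  have hbK : algebraMap W K b ≠ 0 := by
    intro h0; exact hb0' (hinj (by rw [h0, map_zero]))
  have hcross : a * y = x * b := by
    apply hinj
    rw [map_mul, map_mul]
    rw [hz, div_eq_div_iff hbK hyK] at hab
    exact hab
  have hnb : nm b ≠ 0 := fun h0 => hb0' (h.eq_zero _ h0)
  have hny : nm y ≠ 0 := fun h0 => hy (h.eq_zero _ h0)
  show nm a / nm b = nm x / nm y
  rw [div_eq_div_iff hnb hny, ← h.map_mul, ← h.map_mul, hcross]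

theorem nK_algebraMap (h : IsNm nm) (x : W) : nK K nm (algebraMap W K x) = nm x := by
  have := nK_div (K := K) h x 1 one_ne_zero
  rwa [map_one, div_one, h.map_one, div_one] at this

theorem nK_add_le_max (h : IsNm nm) (z₁ z₂ : K) :
    nK K nm (z₁ + z₂) ≤ max (nK K nm z₁) (nK K nm z₂) := by
  obtain ⟨a, b, hb, rfl⟩ := IsFractionRing.div_surjective (A := W) z₁
  obtain ⟨c, d, hd, rfl⟩ := IsFractionRing.div_surjective (A := W) z₂
  have hb0 : b ≠ 0 := nonZeroDivisors.ne_zero hb
  have hd0 : d ≠ 0 := nonZeroDivisors.ne_zero hd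
  have hinj := IsFractionRing.injective W K
  have hbK : algebraMap W K b ≠ 0 := by
    intro h0; exact hb0 (hinj (by rw [h0, map_zero]))
  have hdK : algebraMap W K d ≠ 0 := by
    intro h0; exact hd0 (hinj (by rw [h0, map_zero]))
  have hsum : algebraMap W K a / algebraMap W K b + algebraMap W K c / algebraMap W K d
      = algebraMap W K (a * d + b * c) / algebraMap W K (b * d) := by
    rw [div_add_div _ _ hbK hdK, map_add, map_mul, map_mul, map_mul]
  have hnb : 0 < nm b := lt_of_le_of_ne (h.nonneg _) (fun h0 => hb0 (h.eq_zero _ h0.symm))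
  have hnd : 0 < nm d := lt_of_le_of_ne (h.nonneg _) (fun h0 => hd0 (h.eq_zero _ h0.symm))
  rw [hsum, nK_div h _ _ (mul_ne_zero hb0 hd0), nK_div h _ _ hb0, nK_div h _ _ hd0, h.map_mul,
    div_le_iff₀ (mul_pos hnb hnd)]
  refine (h.map_add _ _).trans (max_le ?_ ?_)
  · rw [h.map_mul]
    calc nm a * nm d = nm a / nm b * (nm b * nm d) := by field_simp
      _ ≤ _ := mul_le_mul_of_nonneg_right (le_max_left _ _) (mul_pos hnb hnd).le
  · rw [h.map_mul]
    calc nm b * nm c = nm c / nm d * (nm b * nm d) := by field_simp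
      _ ≤ _ := mul_le_mul_of_nonneg_right (le_max_right _ _) (mul_pos hnb hnd).le

/-- The absolute value on the fraction field. -/
def absK (h : IsNm nm) : AbsoluteValue K ℝ where
  toFun := nK K nm
  map_mul' := by
    intro z₁ z₂
    obtain ⟨a, b, hb, rfl⟩ := IsFractionRing.div_surjective (A := W) z₁
    obtain ⟨c, d, hd, rfl⟩ := IsFractionRing.div_surjective (A := W) z₂
    have hb0 : b ≠ 0 := nonZeroDivisors.ne_zero hb
    have hd0 : d ≠ 0 := nonZeroDivisors.ne_zero hd
    have : algebraMap W K a / algebraMap W K b * (algebraMap W K c / algebraMap W K d)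
        = algebraMap W K (a * c) / algebraMap W K (b * d) := by
      rw [map_mul, map_mul, div_mul_div_comm]
    rw [this, nK_div h _ _ (mul_ne_zero hb0 hd0), nK_div h _ _ hb0, nK_div h _ _ hd0, h.map_mul,
      h.map_mul, div_mul_div_comm]
  nonneg' := by
    intro z
    obtain ⟨a, b, hb, rfl⟩ := IsFractionRing.div_surjective (A := W) z
    rw [nK_div h _ _ (nonZeroDivisors.ne_zero hb)]
    exact div_nonneg (h.nonneg _) (h.nonneg _)
  eq_zero' := by
    intro z
    constructor
    · obtain ⟨a, b, hb, rfl⟩ := IsFractionRing.div_surjective (A := W) z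
      have hb0 : b ≠ 0 := nonZeroDivisors.ne_zero hb
      rw [nK_div h _ _ hb0]
      intro h0
      rcases div_eq_zero_iff.mp h0 with h1 | h1
      · rw [h.eq_zero _ h1, map_zero, zero_div]
      · exact absurd (h.eq_zero _ h1) hb0
    · rintro rfl
      have := nK_algebraMap (K := K) h (0 : W)
      rwa [map_zero, h.map_zero] at this
  add_le' := by
    intro z₁ z₂
    have hnn : ∀ z : K, 0 ≤ nK K nm z := by
      intro z
      obtain ⟨a, b, hb, rfl⟩ := IsFractionRing.div_surjective (A := W) z
      rw [nK_div h _ _ (nonZeroDivisors.ne_zero hb)]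
      exact div_nonneg (h.nonneg _) (h.nonneg _)
    exact (nK_add_le_max h z₁ z₂).trans (max_le_iff.mpr
      ⟨le_add_of_nonneg_right (hnn _), le_add_of_nonneg_left (hnn _)⟩)


end K

section Completion

open UniformSpace UniformSpace.Completion

theorem ultrametric_completion {K : Type*} [NormedField K] [IsUltrametricDist K] :
    IsUltrametricDist (UniformSpace.Completion K) := by
  apply IsUltrametricDist.isUltrametricDist_of_forall_norm_add_le_max_norm
  intro x y
  induction x, y using UniformSpace.Completion.induction_on₂ with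
  | hp => exact isClosed_le (by fun_prop) (by fun_prop)
  | ih a b =>
    rw [← UniformSpace.Completion.coe_add, UniformSpace.Completion.norm_coe,
      UniformSpace.Completion.norm_coe, UniformSpace.Completion.norm_coe]
    exact IsUltrametricDist.norm_add_le_max a b

/-- **The completed fraction field.** -/
theorem exists_field {W : Type} [CommRing W] [IsDomain W] {nm : W → ℝ} (h : IsNm nm) (g : W)
    (hg0 : nm g ≠ 0) (hg1 : nm g ≠ 1) :
    ∃ (B : Type) (_ : NontriviallyNormedField B) (_ : IsUltrametricDist B) (_ : CompleteSpace B)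
      (ι : W →+* B), ∀ x, ‖ι x‖ = nm x := by
  let nfK : NormedField (FractionRing W) := (absK (K := FractionRing W) h).toNormedField
  have hnorm : ∀ x : W, ‖algebraMap W (FractionRing W) x‖ = nm x := fun x => nK_algebraMap h x
  have : IsUltrametricDist (FractionRing W) := by
    apply IsUltrametricDist.isUltrametricDist_of_forall_norm_add_le_max_norm
    intro x y
    exact nK_add_le_max h x y
  let ι : W →+* UniformSpace.Completion (FractionRing W) :=
    (UniformSpace.Completion.coeRingHom (α := FractionRing W)).comp (algebraMap W (FractionRing W))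
  have hι : ∀ x, ‖ι x‖ = nm x := by
    intro x
    show ‖((algebraMap W (FractionRing W) x : FractionRing W) : UniformSpace.Completion (FractionRing W))‖ = nm x
    rw [UniformSpace.Completion.norm_coe, hnorm]
  refine ⟨UniformSpace.Completion (FractionRing W),
    NontriviallyNormedField.ofNormNeOne ⟨ι g, ?_, ?_⟩, ultrametric_completion, inferInstance, ι, hι⟩
  · intro h0
    rw [← norm_eq_zero, hι] at h0
    exact hg0 h0
  · rw [hι]; exact hg1

end Completion

section Ext

open Filter Uniformity

variable {B : Type*} [NontriviallyNormedField B] [IsUltrametricDist B]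
variable {W : Type*} [CommRing W]
variable {O : Type*} [NormedCommRing O] [CompleteSpace O]

/-- Continuous extension of a contractive ring map to the closure of the image. -/
theorem exists_theta (ι : W →+* B) (θ₀ : W →+* O) (hθ : ∀ x, ‖θ₀ x‖ ≤ ‖ι x‖) :
    ∃ θ : ι.range.topologicalClosure →+* O,
      (∀ w (hw : ι w ∈ ι.range.topologicalClosure), θ ⟨ι w, hw⟩ = θ₀ w) ∧
        ∀ x, ‖θ x‖ ≤ ‖(x : B)‖ := by
  set Ap := ι.range.topologicalClosure with hAp
  let e : W → Ap := fun w => ⟨ι w, Subring.le_topologicalClosure _ ⟨w, rfl⟩⟩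
  let _ : UniformSpace W := UniformSpace.comap e inferInstance
  have hui : IsUniformInducing e := ⟨rfl⟩
  have hdense : DenseRange e := by
    intro x
    rw [closure_subtype]
    have hx : (x : B) ∈ closure ((ι.range : Subring B) : Set B) := x.2
    convert hx using 2
    ext y
    constructor
    · rintro ⟨_, ⟨w, rfl⟩, rfl⟩
      exact ⟨w, rfl⟩
    · rintro ⟨w, rfl⟩
      exact ⟨_, ⟨w, rfl⟩, rfl⟩
  have huc : UniformContinuous θ₀ := by
    rw [UniformContinuous, Metric.uniformity_basis_dist.tendsto_right_iff]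
    intro ε hε
    have hmem : {q : Ap × Ap | dist q.1 q.2 < ε} ∈ 𝓤 Ap := Metric.dist_mem_uniformity hε
    have : (Prod.map e e) ⁻¹' {q : Ap × Ap | dist q.1 q.2 < ε} ∈ 𝓤 W := by
      rw [← hui.comap_uniformity]
      exact Filter.preimage_mem_comap hmem
    filter_upwards [this] with q hq
    simp only [Set.mem_preimage, Set.mem_ofPred_eq, Prod.map_fst, Prod.map_snd] at hq ⊢
    rw [dist_eq_norm, ← map_sub]
    refine lt_of_le_of_lt (hθ _) ?_
    rw [map_sub, ← dist_eq_norm]
    exact hq
  let ψ : Ap → O := (hui.isDenseInducing hdense).extend θ₀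
  have hψc : Continuous ψ := (uniformContinuous_uniformly_extend hui hdense huc).continuous
  have hψe : ∀ w, ψ (e w) = θ₀ w := uniformly_extend_of_ind hui hdense huc
  let θ : Ap →+* O :=
    { toFun := ψ
      map_one' := by
        have : (1 : Ap) = e 1 := Subtype.ext (map_one ι).symm
        rw [this, hψe, map_one]
      map_zero' := by
        have : (0 : Ap) = e 0 := Subtype.ext (map_zero ι).symm
        rw [this, hψe, map_zero]
      map_mul' := by
        intro x y
        refine hdense.induction_on₂ (p := fun x y => ψ (x * y) = ψ x * ψ y)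
          (isClosed_eq (by fun_prop) (by fun_prop)) (fun a b => ?_) x y
        have : e a * e b = e (a * b) := Subtype.ext (map_mul ι a b).symm
        rw [this, hψe, hψe, hψe, map_mul]
      map_add' := by
        intro x y
        refine hdense.induction_on₂ (p := fun x y => ψ (x + y) = ψ x + ψ y)
          (isClosed_eq (by fun_prop) (by fun_prop)) (fun a b => ?_) x y
        have : e a + e b = e (a + b) := Subtype.ext (map_add ι a b).symm
        rw [this, hψe, hψe, hψe, map_add] }
  refine ⟨θ, fun w hw => hψe w, fun x => ?_⟩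
  show ‖ψ x‖ ≤ ‖(x : B)‖
  refine hdense.induction_on (p := fun x : Ap => ‖ψ x‖ ≤ ‖(x : B)‖) x
    (isClosed_le (by fun_prop) (by fun_prop)) (fun w => ?_)
  rw [hψe]
  exact hθ w

/-- The kernel of the extension is generated by `π`, when `w = τ w + t π` with `τ w` of norm at most
`‖θ₀ w‖`. -/
theorem ker_step (ι : W →+* B) (θ₀ : W →+* O) (θ : ι.range.topologicalClosure →+* O)
    (hθ1 : ∀ w (hw : ι w ∈ ι.range.topologicalClosure), θ ⟨ι w, hw⟩ = θ₀ w)
    (hθ2 : ∀ x, ‖θ x‖ ≤ ‖(x : B)‖)
    (π : W) (hπ : ι π ≠ 0) (τ : W → W) (hτ : ∀ w, ‖ι (τ w)‖ ≤ ‖θ₀ w‖)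
    (hdec : ∀ w, ∃ t, w = τ w + t * π) (x : ι.range.topologicalClosure) (hx : θ x = 0) :
    ∃ y : ι.range.topologicalClosure, (x : B) = ι π * y := by
  have hρ : 0 < ‖ι π‖ := norm_pos_iff.mpr hπ
  have hy : (x : B) / ι π ∈ ι.range.topologicalClosure := by
    refine Metric.mem_closure_iff.mpr ?_
    intro ε hε
    have hxc : (x : B) ∈ closure ((ι.range : Subring B) : Set B) := x.2
    obtain ⟨_, ⟨w, rfl⟩, hw⟩ := Metric.mem_closure_iff.mp hxc (ε * ‖ι π‖) (mul_pos hε hρ)
    obtain ⟨t, ht⟩ := hdec w
    refine ⟨ι t, ⟨t, rfl⟩, ?_⟩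
    have hw' : ‖(x : B) - ι w‖ < ε * ‖ι π‖ := by rwa [← dist_eq_norm]
    have hmem : ι w ∈ ι.range.topologicalClosure := Subring.le_topologicalClosure _ ⟨w, rfl⟩
    have h1 : ‖θ₀ w‖ < ε * ‖ι π‖ := by
      have : θ₀ w = θ (⟨ι w, hmem⟩ - x) := by rw [map_sub, hx, sub_zero, hθ1]
      rw [this]
      refine lt_of_le_of_lt (hθ2 _) ?_
      rw [AddSubgroupClass.coe_sub, norm_sub_rev]
      exact hw'
    have h2 : ‖ι (τ w)‖ < ε * ‖ι π‖ := lt_of_le_of_lt (hτ w) h1
    have h3 : (x : B) / ι π - ι t = ((x : B) - ι w + ι (τ w)) / ι π := by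
      have : ι w = ι (τ w) + ι t * ι π := by
        conv_lhs => rw [ht]
        rw [map_add, map_mul]
      rw [this]
      field_simp
      ring
    rw [dist_eq_norm, h3, norm_div, div_lt_iff₀ hρ]
    exact lt_of_le_of_lt (IsUltrametricDist.norm_add_le_max _ _) (max_lt hw' h2)
  refine ⟨⟨_, hy⟩, ?_⟩
  show (x : B) = ι π * ((x : B) / ι π)
  field_simp

end Ext

end

end Crest.Agent.LT.GaussExt
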