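/-
S0351 package WITT/GAUSSNORM: construction of the period field. See BLUEPRINT.md §GN.
-/
import Crest.Agent.LT.Witt.API
import Crest.Agent.LT.Witt.GaussCore
import Crest.Agent.LT.Witt.GaussExt

set_option autoImplicit false

namespace Crest.Agent.LT

noncomputable section

variable (p : ℕ) [Fact p.Prime]
variable (C : Type) [NontriviallyNormedField C] [IsUltrametricDist C] [CompleteSpace C]
  [CharP C p] [IsAlgClosed C]

/-- `𝒪_C` is a perfect ring. -/
instance perfectRing_OC [CharP (OC C) p] : PerfectRing (OC C) p := by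
  refine PerfectRing.ofSurjective (OC C) p ?_
  intro a
  obtain ⟨z, hz⟩ := IsAlgClosed.exists_pow_nat_eq (a : C) (Fact.out : p.Prime).pos
  have hz1 : ‖z‖ ≤ 1 := by
    have h1 : ‖z‖ ^ p ≤ 1 := by
      rw [← norm_pow, hz]
      exact a.2
    exact (pow_le_one_iff_of_nonneg (norm_nonneg z) (Fact.out : p.Prime).ne_zero).mp h1
  refine ⟨⟨z, hz1⟩, Subtype.ext ?_⟩
  rw [frobenius_def]
  simpa using hz

/-- Digit of a Witt vector: `x = ∑_j p^j [a_j]`, `a_j = (x_j)^(1/p^j)` (perfect ring). -/
def digit [CharP (OC C) p] (x : WittVector p (OC C)) (j : ℕ) : OC C := GaussCore.digit x j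

/-- The norm on `𝒪_C`. -/
def vOC (a : OC C) : ℝ := ‖(a : C)‖

omit [CompleteSpace C] [CharP C p] [IsAlgClosed C] in
theorem isGV_OC : GaussCore.IsGV (vOC C) where
  nonneg a := norm_nonneg _
  le_one a := a.2
  map_one := by simp [vOC]
  map_mul a b := by simp [vOC]
  map_zero := by simp [vOC]
  eq_zero a h := Subtype.ext (by simpa [vOC] using h)
  dvd a b h := by
    by_cases hb : (b : C) = 0
    · have hb' : b = 0 := Subtype.ext hb
      have : vOC C a ≤ 0 := by simpa [vOC, hb] using h
      have ha : a = 0 := Subtype.ext (by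
        have h0 : ‖(a : C)‖ ≤ 0 := this
        simpa using h0)
      rw [ha, hb']
    · have hn : ‖(a : C) / b‖ ≤ 1 := by
        rw [norm_div]
        exact div_le_one_of_le₀ h (norm_nonneg _)
      refine ⟨⟨(a : C) / b, hn⟩, Subtype.ext ?_⟩
      show (a : C) = b * ((a : C) / b)
      field_simp

omit [CompleteSpace C] [CharP C p] [IsAlgClosed C] in
/-- A normed ultrametric field in which `0 < ‖p‖ < 1` has characteristic zero. -/
theorem charZero_of_norm_p (B : Type) [NontriviallyNormedField B] [IsUltrametricDist B]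
    (h0 : 0 < ‖(p : B)‖) (h1 : ‖(p : B)‖ < 1) : CharZero B := by
  obtain ⟨q, hq⟩ := CharP.exists B
  rcases CharP.char_is_prime_or_zero B q with hq' | hq'
  · exfalso
    by_cases hpq : p = q
    · subst hpq
      rw [CharP.cast_eq_zero B p, norm_zero] at h0
      exact lt_irrefl _ h0
    · have hcop : IsCoprime (p : ℤ) (q : ℤ) :=
        Nat.isCoprime_iff_coprime.mpr ((Nat.coprime_primes Fact.out hq').mpr hpq)
      obtain ⟨a, b, hab⟩ := hcop
      have hB : (a : B) * (p : B) = 1 := by
        have := congrArg (Int.cast : ℤ → B) hab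
        push_cast at this
        rwa [CharP.cast_eq_zero B q, mul_zero, add_zero] at this
      have hn : ‖(a : B)‖ * ‖(p : B)‖ = 1 := by
        rw [← norm_mul, hB, norm_one]
      have ha1 : ‖(a : B)‖ ≤ 1 := IsUltrametricDist.norm_intCast_le_one B a
      have : ‖(a : B)‖ * ‖(p : B)‖ < 1 := by
        calc ‖(a : B)‖ * ‖(p : B)‖ ≤ 1 * ‖(p : B)‖ :=
              mul_le_mul_of_nonneg_right ha1 (norm_nonneg _)
          _ = ‖(p : B)‖ := one_mul _
          _ < 1 := h1
      rw [hn] at this
      exact lt_irrefl _ this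
  · subst hq'
    exact CharP.charP_to_charZero B

/-- **Gauss norm**: `‖x‖_r = sup_j ‖a_j‖ r^j` (`0 < r < 1`), finite since `‖a_j‖ ≤ 1`, `r^j → 0`.
(1) Digits of `[c] x` are `c a_j`. (2) The ball `{‖x‖_r ≤ t}` is closed under addition: by induction on `N`, modulo `p^N`; write
`x = [a₀] + p x'`, `y = [b₀] + p y'`, `c₀ ∈ {a₀, b₀}` of larger norm, `[a₀] + [b₀] = [c₀] w`; `x', y'` lie in the ball of radius `t/r`,
`[c₀] w = [c₀ w₀] + p [c₀] w'`, `[c₀] w'` is in the ball of radius `t ≤ t/r`; apply the claim for `N-1` at radius `t/r` twice.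
(3) Submultiplicative from `xy = ∑ p^(i+j) [a_i b_j]` and (2). (4) Multiplicative: `i₀`, `j₀` the smallest indices attaining the sups,
`s = i₀ + j₀`: `xy = p^s [a_{i₀} b_{j₀}] + w₁ + w₂`, `‖w₁‖_r < ‖x‖_r ‖y‖_r`, `w₂ ∈ p^(s+1) W`, `‖w₂‖_r ≤ ‖x‖_r ‖y‖_r`; so the digit `s` of
`p^s [a b] + w₂` is `a b`, and the strict term `w₁` does not change the norm. (5) `‖x‖_r = 0` iff `x = 0`.
So `W(𝒪_C)` is a domain; the norm extends multiplicatively to its fraction field, ultrametric; `B` = completion
(`UniformSpace.Completion` has a `NormedField` instance when the base is a `NormedField`). `Ap` = closure of `W`, `θ` = continuous extension of `x ↦ a_0`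
(`‖a_0‖ ≤ ‖x‖_r`); `ker θ = p Ap`: `x = lim x_i`, `x_i = [θ x_i] + p y_i`, `[θ x_i] → 0`, so `y_i` is Cauchy. -/
theorem exists_periodField [CharP (OC C) p] (r : ℝ) (hr0 : 0 < r) (hr1 : r < 1) :
    ∃ (B : Type) (_ : NontriviallyNormedField B) (_ : IsUltrametricDist B) (_ : CompleteSpace B)
      (_ : CharZero B), Nonempty (PeriodField p C r B) := by
  have hv : GaussCore.IsGV (vOC C) := isGV_OC C
  set nm : WittVector p (OC C) → ℝ := GaussCore.gn (vOC C) r with hnm_def
  have hnm : GaussExt.IsNm nm :=
    { nonneg := GaussCore.gn_nonneg hv hr0 hr1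
      eq_zero := fun x h => GaussCore.gn_eq_zero hv hr0 hr1 h
      map_zero := GaussCore.gn_zero hv hr0 hr1
      map_one := GaussCore.gn_one hv hr0 hr1
      map_mul := GaussCore.gn_mul hv hr0 hr1
      map_add := GaussCore.gn_add_le hv hr0 hr1
      map_neg := GaussCore.gn_neg hv hr0 hr1 }
  have hnmp : nm (p : WittVector p (OC C)) = r := GaussCore.gn_p hv hr0 hr1
  obtain ⟨B, i1, i2, i3, ι, hι⟩ := GaussExt.exists_field hnm (p : WittVector p (OC C))
    (by rw [hnmp]; exact hr0.ne') (by rw [hnmp]; exact hr1.ne)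
  have hpB : ‖(p : B)‖ = r := by
    have := hι (p : WittVector p (OC C))
    rwa [map_natCast, hnmp] at this
  refine ⟨B, i1, i2, i3, charZero_of_norm_p p B (by rw [hpB]; exact hr0) (by rw [hpB]; exact hr1), ?_⟩
  have hOcl : IsClosed ((OC C : Subring C) : Set C) := by
    have : ((OC C : Subring C) : Set C) = Metric.closedBall 0 1 := by
      ext x
      simp [OC]
    rw [this]
    exact Metric.isClosed_closedBall
  haveI : CompleteSpace (OC C) := hOcl.completeSpace_coe
  let θ₀ : WittVector p (OC C) →+* OC C := WittVector.constantCoeff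
  have hθ₀ : ∀ x, ‖θ₀ x‖ ≤ ‖ι x‖ := by
    intro x
    rw [hι]
    have := GaussCore.le_gn hv hr0 hr1 x 0
    rwa [pow_zero, mul_one] at this
  obtain ⟨θ, hθ1, hθ2⟩ := GaussExt.exists_theta ι θ₀ hθ₀
  have hle : ∀ x ∈ ι.range.topologicalClosure, ‖x‖ ≤ 1 := by
    have h1 : ((ι.range : Subring B) : Set B) ⊆ Metric.closedBall 0 1 := by
      rintro _ ⟨w, rfl⟩
      simp only [mem_closedBall_zero_iff]
      rw [hι]
      exact GaussCore.gn_le_one hv hr0 hr1 w
    intro x hx
    have := closure_minimal h1 Metric.isClosed_closedBall hx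
    simpa using this
  have hmem : ∀ w, ι w ∈ ι.range.topologicalClosure :=
    fun w => Subring.le_topologicalClosure _ ⟨w, rfl⟩
  refine ⟨{ teich := (ι : WittVector p (OC C) →* B).comp (WittVector.teichmuller p)
            norm_teich := ?_
            Ap := ι.range.topologicalClosure
            closed := Subring.isClosed_topologicalClosure _
            le_one := hle
            teich_mem := fun a => hmem _
            natCast_p_norm := hpB
            theta := θ
            theta_teich := ?_
            norm_theta := hθ2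
            ker_theta := ?_
            norm_digits := ?_ }⟩
  · intro a
    show ‖ι (WittVector.teichmuller p a)‖ = _
    rw [hι]
    exact GaussCore.gn_teich hv hr0 hr1 a
  · intro a
    exact (hθ1 _ _).trans (WittVector.teichmuller_coeff_zero p a)
  · intro x hx
    have hπ : ι (p : WittVector p (OC C)) ≠ 0 := by
      rw [← norm_pos_iff, hι, hnmp]
      exact hr0
    obtain ⟨y, hy⟩ := GaussExt.ker_step ι θ₀ θ hθ1 hθ2 (p : WittVector p (OC C)) hπ
      (fun w => WittVector.teichmuller p (θ₀ w)) (fun w => by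
        rw [hι]
        exact (GaussCore.gn_teich hv hr0 hr1 _).le)
      (fun w => ⟨GaussCore.tail w, GaussCore.eq_teich_add_tail w⟩) x hx
    refine ⟨y, ?_⟩
    rw [hy, map_natCast]
  · intro N a k hk
    have h1 : (∑ j ∈ Finset.range N, ((ι : WittVector p (OC C) →* B).comp (WittVector.teichmuller p)) (a j)
        * (p : B) ^ j)
        = ι (∑ j ∈ Finset.range N, WittVector.teichmuller p (a j) * (p : WittVector p (OC C)) ^ j) := by
      rw [map_sum]
      refine Finset.sum_congr rfl fun j _ => ?_
      rw [map_mul, map_pow, map_natCast]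
      rfl
    rw [h1, hι]
    have := GaussCore.le_gn hv hr0 hr1
      (∑ j ∈ Finset.range N, WittVector.teichmuller p (a j) * (p : WittVector p (OC C)) ^ j) k
    rwa [GaussCore.digit_sum N a k hk] at this

end

end Crest.Agent.LT
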