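/-
S0351 package WITT/MOORE: Moore determinants. See BLUEPRINT.md §RK.
-/
import Crest.Agent.LT.Defs

set_option autoImplicit false

namespace Crest.Agent.LT

noncomputable section

variable (p : ℕ) [Fact p.Prime]

/-- Over a field `K` of characteristic `p`: if `y_1..y_s` are `𝔽_p`-linearly independent then the Moore determinant
`det(y_i^(p^a))_{i, a<s}` is nonzero. Proof: otherwise a nonzero linearised polynomial of degree `≤ p^(s-1)`
vanishes at the `p^s` distinct `𝔽_p`-combinations of the `y_i`. -/
theorem moore_det_ne_zero {K : Type*} [Field K] [CharP K p] {s : ℕ} (y : Fin s → K)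
    (hy : ∀ a : Fin s → ℕ, (∀ i, a i < p) → (∑ i, (a i : K) * y i = 0) → ∀ i, a i = 0) :
    (Matrix.of fun (i a : Fin s) => y i ^ (p ^ (a : ℕ))).det ≠ 0 := by
  classical
  intro hdet
  have hp : p.Prime := Fact.out
  obtain ⟨c, hc0, hc⟩ := Matrix.exists_mulVec_eq_zero_iff.mpr hdet
  -- the linearised polynomial
  let L : Polynomial K := ∑ a : Fin s, Polynomial.C (c a) * Polynomial.X ^ (p ^ (a : ℕ))
  have hcoeff : ∀ a : Fin s, L.coeff (p ^ (a : ℕ)) = c a := by
    intro a
    simp only [L, Polynomial.finsetSum_coeff, Polynomial.coeff_C_mul, Polynomial.coeff_X_pow]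
    rw [Finset.sum_eq_single a]
    · simp
    · intro b _ hb
      have : p ^ (a : ℕ) ≠ p ^ (b : ℕ) := by
        intro h
        exact hb (Fin.ext (Nat.pow_right_injective hp.two_le h).symm)
      simp [this]
    · simp
  have hL0 : L ≠ 0 := by
    intro h
    apply hc0
    funext a
    have := hcoeff a
    rw [h] at this
    simpa using this.symm
  have hs : 1 ≤ s := by
    by_contra hs
    have hs0 : s = 0 := by omega
    subst hs0
    exact hc0 (Subsingleton.elim _ _)
  have hdeg : L.natDegree ≤ p ^ (s - 1) := by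
    apply Polynomial.natDegree_sum_le_of_forall_le
    intro a _
    refine (Polynomial.natDegree_C_mul_le _ _).trans ?_
    rw [Polynomial.natDegree_X_pow]
    exact Nat.pow_le_pow_right hp.pos (by have := a.2; omega)
  -- natural numbers in `K` are fixed by Frobenius powers
  have hfrob : ∀ (n e : ℕ), ((n : K)) ^ (p ^ e) = n := by
    intro n e
    have : (iterateFrobenius K p e) (n : K) = n := map_natCast _ _
    rwa [iterateFrobenius_def] at this
  -- evaluation on combinations
  let comb : (Fin s → Fin p) → K := fun a => ∑ i, ((a i : ℕ) : K) * y i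
  have heval : ∀ a, L.eval (comb a) = 0 := by
    intro a
    simp only [L, comb, Polynomial.eval_finsetSum, Polynomial.eval_mul, Polynomial.eval_C,
      Polynomial.eval_pow, Polynomial.eval_X]
    have h1 : ∀ b : Fin s, (∑ i, (((a i : ℕ) : K)) * y i) ^ (p ^ (b : ℕ)) =
        ∑ i, ((a i : ℕ) : K) * y i ^ (p ^ (b : ℕ)) := by
      intro b
      rw [sum_pow_char_pow]
      apply Finset.sum_congr rfl
      intro i _
      rw [mul_pow, hfrob]
    simp only [h1, Finset.mul_sum]
    rw [Finset.sum_comm]
    apply Finset.sum_eq_zero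
    intro i _
    have h2 := congrFun hc i
    simp only [Matrix.mulVec, dotProduct, Matrix.of_apply, Pi.zero_apply] at h2
    calc ∑ b : Fin s, c b * (((a i : ℕ) : K) * y i ^ (p ^ (b : ℕ)))
        = ((a i : ℕ) : K) * ∑ b : Fin s, y i ^ (p ^ (b : ℕ)) * c b := by
          rw [Finset.mul_sum]
          apply Finset.sum_congr rfl
          intro b _
          ring
      _ = 0 := by rw [h2, mul_zero]
  have hinj : Function.Injective comb := by
    intro a b hab
    -- `a - b` modulo `p`
    by_contra hne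
    -- coefficient vector `a_i - b_i mod p`
    let d : Fin s → ℕ := fun i => ((a i : ℕ) + (p - (b i : ℕ))) % p
    have hd1 : ∀ i, d i < p := fun i => Nat.mod_lt _ hp.pos
    have hdK : ∀ i, ((d i : ℕ) : K) = ((a i : ℕ) : K) - ((b i : ℕ) : K) := by
      intro i
      have hpK : ((p : ℕ) : K) = 0 := CharP.cast_eq_zero K p
      have h1 : ((d i : ℕ) : K) = (((a i : ℕ) + (p - (b i : ℕ)) : ℕ) : K) := by
        simp only [d]
        have h2 := Nat.mod_add_div ((a i : ℕ) + (p - (b i : ℕ))) p
        conv_rhs => rw [← h2]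
        push_cast
        rw [hpK]
        ring
      rw [h1]
      have hb : (b i : ℕ) ≤ p := (b i).2.le
      push_cast [Nat.cast_sub hb]
      rw [hpK]
      ring
    have hsum : ∑ i, ((d i : ℕ) : K) * y i = 0 := by
      simp only [hdK, sub_mul, Finset.sum_sub_distrib]
      exact sub_eq_zero.mpr hab
    have hd0 := hy d hd1 hsum
    apply hne
    funext i
    apply Fin.ext
    have h3 := hd0 i
    have hb := (b i).2
    have ha := (a i).2
    simp only [d] at h3
    -- `(a + (p - b)) % p = 0`
    have h4 : p ∣ (a i : ℕ) + (p - (b i : ℕ)) := Nat.dvd_of_mod_eq_zero h3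
    obtain ⟨t, ht⟩ := h4
    have ht1 : t ≤ 1 := by
      by_contra h
      have : 2 ≤ t := by omega
      have : p * 2 ≤ p * t := Nat.mul_le_mul_left _ this
      omega
    interval_cases t
    · omega
    · omega
  -- count
  have hcard : (Finset.univ.image comb).card = p ^ s := by
    rw [Finset.card_image_of_injective _ hinj, Finset.card_univ, Fintype.card_fun, Fintype.card_fin,
      Fintype.card_fin]
  have hsub : (Finset.univ.image comb).val ⊆ L.roots := by
    intro x hx
    have hx' : x ∈ Finset.univ.image comb := hx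
    obtain ⟨a, -, rfl⟩ := Finset.mem_image.mp hx'
    exact (Polynomial.mem_roots hL0).mpr (heval a)
  have hle := Polynomial.card_le_degree_of_subset_roots hsub
  rw [hcard] at hle
  have : p ^ s ≤ p ^ (s - 1) := hle.trans hdeg
  have h5 : p ^ (s - 1) < p ^ s := Nat.pow_lt_pow_right hp.one_lt (by omega)
  omega

section Residue

variable {C : Type} [NontriviallyNormedField C] [IsUltrametricDist C]

/-- The maximal ideal of `𝒪_C`. -/
def mIdeal (C : Type) [NontriviallyNormedField C] [IsUltrametricDist C] : Ideal (OC C) where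
  carrier := {x | ‖(x : C)‖ < 1}
  add_mem' {a b} ha hb := by
    simp only [Set.mem_ofPred_eq] at *
    push_cast
    exact (IsUltrametricDist.norm_add_le_max _ _).trans_lt (max_lt ha hb)
  zero_mem' := by simp
  smul_mem' c x hx := by
    simp only [Set.mem_ofPred_eq, smul_eq_mul] at *
    push_cast
    rw [norm_mul]
    calc ‖(c : C)‖ * ‖(x : C)‖ ≤ 1 * ‖(x : C)‖ := by
          gcongr
          exact c.2
      _ < 1 := by simpa using hx

theorem mem_mIdeal {x : OC C} : x ∈ mIdeal C ↔ ‖(x : C)‖ < 1 := Iff.rfl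

instance mIdeal_isMaximal : (mIdeal C).IsMaximal := by
  rw [Ideal.isMaximal_iff]
  refine ⟨?_, ?_⟩
  · simp [mem_mIdeal]
  · intro J x hJ hx hxJ
    have h1 : ‖(x : C)‖ = 1 := le_antisymm x.2 (not_lt.mp hx)
    have hx0 : (x : C) ≠ 0 := by
      intro h
      rw [h] at h1
      simp at h1
    let y : OC C := ⟨(x : C)⁻¹, by
      show ‖(x : C)⁻¹‖ ≤ 1
      rw [norm_inv, h1, inv_one]⟩
    have hxy : y * x = 1 := by
      apply Subtype.ext
      show (x : C)⁻¹ * (x : C) = 1
      exact inv_mul_cancel₀ hx0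
    rw [← hxy]
    exact J.mul_mem_left y hxJ

end Residue

/-- **Moore norm.** `C` ultrametric, characteristic `p`. If `‖y_i‖ = R > 0` for all `i` and `‖∑ a_i y_i‖ = R` for all
`a ∈ {0..p-1}^s` not all zero, then `‖det(y_i^(p^a))‖ = ∏_{a<s} R^(p^a)`. Proof: normalise `y_i = c y_i'`, `‖c‖ = R`
(needs `R` in the value group: `‖y_0‖ = R`), the residues of `y_i'` are `𝔽_p`-independent, apply `moore_det_ne_zero` in the residue
field of `𝒪_C`. -/
theorem moore_norm {C : Type} [NontriviallyNormedField C] [IsUltrametricDist C] [CharP C p] {s : ℕ}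
    (y : Fin s → C) (R : ℝ) (hR : 0 < R) (hy : ∀ i, ‖y i‖ = R)
    (hind : ∀ a : Fin s → ℕ, (∀ i, a i < p) → (∃ i, a i ≠ 0) → ‖∑ i, (a i : C) * y i‖ = R) :
    ‖(Matrix.of fun (i a : Fin s) => y i ^ (p ^ (a : ℕ))).det‖ = ∏ a : Fin s, R ^ (p ^ (a : ℕ)) := by
  classical
  have hp : p.Prime := Fact.out
  rcases Nat.eq_zero_or_pos s with rfl | hs
  · simp
  -- normalise
  let c : C := y ⟨0, hs⟩
  have hc : ‖c‖ = R := hy _
  have hc0 : c ≠ 0 := by
    intro h
    rw [h, norm_zero] at hc
    linarith
  let zC : Fin s → C := fun i => y i / c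
  have hzC : ∀ i, ‖zC i‖ = 1 := by
    intro i
    simp only [zC, norm_div, hy i, hc]
    exact div_self hR.ne'
  let z : Fin s → OC C := fun i => ⟨zC i, (hzC i).le⟩
  have hyz : ∀ i, y i = c * (z i : C) := by
    intro i
    show y i = c * (y i / c)
    field_simp
  -- the determinant factorises
  have hdet : (Matrix.of fun (i a : Fin s) => y i ^ (p ^ (a : ℕ))).det =
      (∏ a : Fin s, c ^ (p ^ (a : ℕ))) *
        (Matrix.of fun (i a : Fin s) => (z i : C) ^ (p ^ (a : ℕ))).det := by
    have : (Matrix.of fun (i a : Fin s) => y i ^ (p ^ (a : ℕ))) =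
        (Matrix.of fun (i a : Fin s) => (z i : C) ^ (p ^ (a : ℕ))) *
          Matrix.diagonal (fun a : Fin s => c ^ (p ^ (a : ℕ))) := by
      ext i a
      simp only [Matrix.of_apply, Matrix.mul_diagonal, hyz i, mul_pow]
      ring
    rw [this, Matrix.det_mul, Matrix.det_diagonal, mul_comm]
  rw [hdet, norm_mul, norm_prod]
  have h1 : ∀ a : Fin s, ‖c ^ (p ^ (a : ℕ))‖ = R ^ (p ^ (a : ℕ)) := by
    intro a; rw [norm_pow, hc]
  simp only [h1]
  suffices hz : ‖(Matrix.of fun (i a : Fin s) => (z i : C) ^ (p ^ (a : ℕ))).det‖ = 1 by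
    rw [hz, mul_one]
  -- the integral determinant
  let Mz : Matrix (Fin s) (Fin s) (OC C) := Matrix.of fun (i a : Fin s) => z i ^ (p ^ (a : ℕ))
  have hMz : (Matrix.of fun (i a : Fin s) => (z i : C) ^ (p ^ (a : ℕ))).det = ((Mz.det : OC C) : C) := by
    have : (Matrix.of fun (i a : Fin s) => (z i : C) ^ (p ^ (a : ℕ))) =
        (OC C).subtype.mapMatrix Mz := by
      ext i a
      simp [Mz]
    rw [this, ← RingHom.map_det]
    rfl
  rw [hMz]
  -- residue field
  letI : Field (OC C ⧸ mIdeal C) := Ideal.Quotient.field _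
  let red : OC C →+* (OC C ⧸ mIdeal C) := Ideal.Quotient.mk _
  have hpC : ((p : ℕ) : C) = 0 := CharP.cast_eq_zero C p
  haveI hchar : CharP (OC C ⧸ mIdeal C) p := by
    rw [CharP.charP_iff_prime_eq_zero hp]
    have : ((p : ℕ) : OC C) = 0 := by
      apply Subtype.ext
      simpa using hpC
    rw [← map_natCast red, this, map_zero]
  have hne : (Matrix.of fun (i a : Fin s) => red (z i) ^ (p ^ (a : ℕ))).det ≠ 0 := by
    apply moore_det_ne_zero p
    intro a ha hsum i
    by_contra hai
    have h2 := hind a ha ⟨i, hai⟩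
    have h3 : ∑ j, ((a j : ℕ) : OC C ⧸ mIdeal C) * red (z j) = red (∑ j, ((a j : ℕ) : OC C) * z j) := by
      rw [map_sum]
      apply Finset.sum_congr rfl
      intro j _
      rw [map_mul, map_natCast]
    rw [h3] at hsum
    have h4 : (∑ j, ((a j : ℕ) : OC C) * z j) ∈ mIdeal C := Ideal.Quotient.eq_zero_iff_mem.mp hsum
    rw [mem_mIdeal] at h4
    have h5 : ((∑ j, ((a j : ℕ) : OC C) * z j : OC C) : C) * c = ∑ j, ((a j : ℕ) : C) * y j := by
      push_cast
      rw [Finset.sum_mul]
      apply Finset.sum_congr rfl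
      intro j _
      rw [hyz j]
      ring
    have h6 : ‖∑ j, ((a j : ℕ) : C) * y j‖ < R := by
      rw [← h5, norm_mul, hc]
      calc _ < 1 * R := by gcongr
        _ = R := one_mul R
    linarith
  have hnot : Mz.det ∉ mIdeal C := by
    intro hmem
    apply hne
    have h7 : (Matrix.of fun (i a : Fin s) => red (z i) ^ (p ^ (a : ℕ))) = red.mapMatrix Mz := by
      ext i a
      simp [Mz]
    rw [h7, ← RingHom.map_det]
    exact Ideal.Quotient.eq_zero_iff_mem.mpr hmem
  exact le_antisymm (Mz.det).2 (not_lt.mp hnot)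

end

end Crest.Agent.LT
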