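/-
S0351 WITT/RANK, first part: ultrametric determinant estimates and block Moore determinants.
-/
import Crest.Agent.LT.Witt.Moore

set_option autoImplicit false
set_option linter.deprecated false
set_option linter.unusedSimpArgs false
set_option linter.style.haveILetI false

namespace Crest.Agent.LT

noncomputable section

namespace RankAux

section Ultra

variable {B : Type*} [NormedField B] [IsUltrametricDist B]

/-- Products of close families are close (ultrametric). -/
theorem norm_prod_sub_prod_le {ι : Type*} (s : Finset ι) (A A' : ι → B) (E : ι → ℝ) (ε : ℝ)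
    (hε0 : 0 ≤ ε) (hE : ∀ i ∈ s, 0 ≤ E i)
    (hA : ∀ i ∈ s, ‖A i‖ ≤ E i) (hA' : ∀ i ∈ s, ‖A' i‖ ≤ E i)
    (hAA : ∀ i ∈ s, ‖A i - A' i‖ ≤ ε * E i) (hε1 : ε ≤ 1 ∨ s.Nonempty) :
    ‖∏ i ∈ s, A i - ∏ i ∈ s, A' i‖ ≤ ε * ∏ i ∈ s, E i := by
  classical
  induction s using Finset.induction_on with
  | empty => simp [hε0]
  | insert a s ha ih =>
      rw [Finset.prod_insert ha, Finset.prod_insert ha, Finset.prod_insert ha]
      have hEa := hE a (Finset.mem_insert_self _ _)
      have hEs : 0 ≤ ∏ i ∈ s, E i :=
        Finset.prod_nonneg (fun i hi => hE i (Finset.mem_insert_of_mem hi))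
      have e : A a * ∏ i ∈ s, A i - A' a * ∏ i ∈ s, A' i =
          (A a - A' a) * ∏ i ∈ s, A i + A' a * (∏ i ∈ s, A i - ∏ i ∈ s, A' i) := by ring
      rw [e]
      refine (IsUltrametricDist.norm_add_le_max _ _).trans (max_le ?_ ?_)
      · rw [norm_mul]
        have h1 : ‖∏ i ∈ s, A i‖ ≤ ∏ i ∈ s, E i := by
          rw [norm_prod]
          exact Finset.prod_le_prod (fun i _ => norm_nonneg _)
            (fun i hi => hA i (Finset.mem_insert_of_mem hi))
        have h2 := hAA a (Finset.mem_insert_self _ _)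
        calc ‖A a - A' a‖ * ‖∏ i ∈ s, A i‖ ≤ (ε * E a) * ∏ i ∈ s, E i :=
              mul_le_mul h2 h1 (norm_nonneg _) (mul_nonneg hε0 hEa)
          _ = ε * (E a * ∏ i ∈ s, E i) := by ring
      · rw [norm_mul]
        have h3 : ‖∏ i ∈ s, A i - ∏ i ∈ s, A' i‖ ≤ ε * ∏ i ∈ s, E i := by
          rcases s.eq_empty_or_nonempty with rfl | hs
          · simp [hε0]
          · exact ih (fun i hi => hE i (Finset.mem_insert_of_mem hi))
              (fun i hi => hA i (Finset.mem_insert_of_mem hi))
              (fun i hi => hA' i (Finset.mem_insert_of_mem hi))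
              (fun i hi => hAA i (Finset.mem_insert_of_mem hi)) (Or.inr hs)
        have h4 := hA' a (Finset.mem_insert_self _ _)
        calc ‖A' a‖ * ‖∏ i ∈ s, A i - ∏ i ∈ s, A' i‖ ≤ E a * (ε * ∏ i ∈ s, E i) :=
              mul_le_mul h4 h3 (norm_nonneg _) hEa
          _ = ε * (E a * ∏ i ∈ s, E i) := by ring

/-- Determinants of close matrices are close. Bounds of the form `a j * b u`. -/
theorem norm_det_sub_det_le {m : ℕ} (M L : Matrix (Fin m) (Fin m) B) (a b : Fin m → ℝ) (ε : ℝ)
    (hε0 : 0 ≤ ε) (ha : ∀ j, 0 ≤ a j) (hb : ∀ u, 0 ≤ b u)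
    (hM : ∀ j u, ‖M j u‖ ≤ a j * b u) (hL : ∀ j u, ‖L j u‖ ≤ a j * b u)
    (hML : ∀ j u, ‖M j u - L j u‖ ≤ ε * (a j * b u)) :
    ‖M.det - L.det‖ ≤ ε * ((∏ j, a j) * ∏ u, b u) := by
  classical
  rw [Matrix.det_apply, Matrix.det_apply, ← Finset.sum_sub_distrib]
  have hP : 0 ≤ ε * ((∏ j, a j) * ∏ u, b u) :=
    mul_nonneg hε0 (mul_nonneg (Finset.prod_nonneg fun j _ => ha j)
      (Finset.prod_nonneg fun j _ => hb j))
  refine IsUltrametricDist.norm_sum_le_of_forall_le_of_nonneg hP ?_
  intro σ _
  rw [← smul_sub]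
  have hsign : ∀ x : B, ‖(Equiv.Perm.sign σ) • x‖ ≤ ‖x‖ := by
    intro x
    rcases Int.units_eq_one_or (Equiv.Perm.sign σ) with h | h <;> simp [h]
  refine (hsign _).trans ?_
  have h1 := norm_prod_sub_prod_le (Finset.univ : Finset (Fin m)) (fun i => M (σ i) i)
    (fun i => L (σ i) i) (fun i => a (σ i) * b i) ε hε0
    (fun i _ => mul_nonneg (ha _) (hb _)) (fun i _ => hM _ _) (fun i _ => hL _ _)
    (fun i _ => hML _ _)
  have h2 : ∏ i, (a (σ i) * b i) = (∏ j, a j) * ∏ u, b u := by
    rw [Finset.prod_mul_distrib]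
    congr 1
    exact Equiv.prod_comp σ a
  rw [h2] at h1
  by_cases hne : (Finset.univ : Finset (Fin m)).Nonempty
  · exact h1 (Or.inr hne)
  · have : IsEmpty (Fin m) := by
      rw [Finset.not_nonempty_iff_eq_empty, Finset.univ_eq_empty_iff] at hne
      exact hne
    simp [hε0]

end Ultra

section BlockMoore

variable (p : ℕ) [Fact p.Prime]
variable {C : Type} [NontriviallyNormedField C] [IsUltrametricDist C] [CharP C p]

/-- The block Moore matrix. -/
def blockMat {m : ℕ} (z : Fin m → C) : Matrix (Fin m) (Fin m) C :=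
  open Classical in
  Matrix.of fun j u : Fin m => if ‖z u‖ = ‖z j‖ then z j ^ (p ^ (u : ℕ)) else 0

/-- Norm of the determinant of the block Moore matrix. -/
theorem norm_det_blockMat {m : ℕ} (z : Fin m → C) (hz0 : ∀ j, z j ≠ 0)
    (hmono : Monotone (fun j => ‖z j‖))
    (hind : ∀ (a : Fin m → ℕ) (R : ℝ), (∀ j, a j < p) → (∀ j, a j ≠ 0 → ‖z j‖ = R) →
      (∃ j, a j ≠ 0) → ‖∑ j, (a j : C) * z j‖ = R) :
    ‖(blockMat p z).det‖ = ∏ j, ‖z j‖ ^ (p ^ (j : ℕ)) := by
  classical
  have hp : p.Prime := Fact.out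
  let b : Fin m → ℝ := fun j => ‖z j‖
  have hblock : (blockMat p z).BlockTriangular b := by
    intro j u h
    simp only [blockMat, Matrix.of_apply]
    rw [if_neg]
    exact ne_of_lt h
  rw [hblock.det, norm_prod]
  have hfib : ∀ a ∈ Finset.univ.image b, ‖((blockMat p z).toSquareBlock b a).det‖ =
      ∏ j ∈ Finset.univ.filter (fun j => b j = a), ‖z j‖ ^ (p ^ (j : ℕ)) := by
    intro a ha
    obtain ⟨j₀, -, rfl⟩ := Finset.mem_image.1 ha
    -- the block as an interval
    let T : Finset (Fin m) := Finset.univ.filter (fun j => b j = b j₀)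
    have hTne : T.Nonempty := ⟨j₀, by simp [T]⟩
    let c₀ : Fin m := T.min' hTne
    let c₁ : Fin m := T.max' hTne
    have hc₀T : c₀ ∈ T := Finset.min'_mem _ _
    have hc₁T : c₁ ∈ T := Finset.max'_mem _ _
    have hc₀ : b c₀ = b j₀ := (Finset.mem_filter.1 hc₀T).2
    have hc₁ : b c₁ = b j₀ := (Finset.mem_filter.1 hc₁T).2
    have hc₀₁ : c₀ ≤ c₁ := Finset.min'_le _ _ hc₁T
    have hmemT : ∀ j, j ∈ T ↔ c₀ ≤ j ∧ j ≤ c₁ := by
      intro j
      constructor
      · intro hj
        exact ⟨Finset.min'_le _ _ hj, Finset.le_max' _ _ hj⟩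
      · rintro ⟨h1, h2⟩
        have h3 : b c₀ ≤ b j := hmono h1
        have h4 : b j ≤ b c₁ := hmono h2
        simp only [T, Finset.mem_filter, Finset.mem_univ, true_and]
        linarith
    let s : ℕ := (c₁ : ℕ) - c₀ + 1
    have hsm : (c₀ : ℕ) + s ≤ m := by
      have : (c₀ : ℕ) ≤ c₁ := hc₀₁
      have := c₁.2
      simp only [s]
      omega
    let e : Fin s → Fin m := fun t => ⟨(c₀ : ℕ) + t, by have := t.2; omega⟩
    have hemem : ∀ t, b (e t) = b j₀ := by
      intro t
      have : e t ∈ T := by
        rw [hmemT]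
        constructor
        · rw [Fin.le_def]
          exact Nat.le_add_right _ _
        · rw [Fin.le_def]
          have := t.2
          simp only [e, s] at *
          have h5 : (c₀ : ℕ) ≤ c₁ := hc₀₁
          omega
      exact (Finset.mem_filter.1 this).2
    have heinj : Function.Injective e := by
      intro t t' h
      have := congrArg Fin.val h
      simp only [e] at this
      exact Fin.ext (by omega)
    have hesurj : ∀ j, b j = b j₀ → ∃ t, e t = j := by
      intro j hj
      have hjT : j ∈ T := by simp [T, hj]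
      obtain ⟨h1, h2⟩ := (hmemT j).1 hjT
      have h1' : (c₀ : ℕ) ≤ j := h1
      have h2' : (j : ℕ) ≤ c₁ := h2
      refine ⟨⟨(j : ℕ) - c₀, ?_⟩, ?_⟩
      · simp only [s]; omega
      · apply Fin.ext
        simp only [e]
        omega
    let E : Fin s ≃ { j // b j = b j₀ } := Equiv.ofBijective (fun t => ⟨e t, hemem t⟩) (by
      constructor
      · intro t t' h
        exact heinj (congrArg Subtype.val h)
      · rintro ⟨j, hj⟩
        obtain ⟨t, ht⟩ := hesurj j hj
        exact ⟨t, Subtype.ext ht⟩)
    have hEval : ∀ t, (E t : Fin m) = e t := fun t => rfl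
    let R : ℝ := b j₀
    have hRpos : 0 < R := norm_pos_iff.2 (hz0 j₀)
    let y : Fin s → C := fun t => z (e t)
    have hy : ∀ t, ‖y t‖ = R := fun t => hemem t
    -- independence in the block
    have hind' : ∀ a : Fin s → ℕ, (∀ i, a i < p) → (∃ i, a i ≠ 0) →
        ‖∑ i, (a i : C) * y i‖ = R := by
      intro a ha hne
      let a' : Fin m → ℕ := fun j =>
        if h : (c₀ : ℕ) ≤ j ∧ (j : ℕ) < (c₀ : ℕ) + s then a ⟨(j : ℕ) - c₀, by omega⟩ else 0
      have ha'e : ∀ t, a' (e t) = a t := by
        intro t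
        have h1 : (c₀ : ℕ) ≤ (e t : Fin m) ∧ ((e t : Fin m) : ℕ) < (c₀ : ℕ) + s := by
          simp only [e]
          have := t.2
          omega
        simp only [a', dif_pos h1]
        congr 1
        apply Fin.ext
        simp [e]
      have hsum : ∑ j, (a' j : C) * z j = ∑ i, (a i : C) * y i := by
        symm
        apply Finset.sum_of_injOn e heinj.injOn (fun _ _ => Finset.mem_univ _)
        · intro j _ hj
          have : a' j = 0 := by
            simp only [a']
            rw [dif_neg]
            rintro ⟨h1, h2⟩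
            apply hj
            refine ⟨⟨(j : ℕ) - c₀, by omega⟩, by simp, ?_⟩
            apply Fin.ext
            simp only [e]
            omega
          simp [this]
        · intro i _
          simp only [y, ha'e]
      rw [← hsum]
      apply hind a' R
      · intro j
        simp only [a']
        split_ifs with h
        · exact ha _
        · exact hp.pos
      · intro j hj
        have hh : (c₀ : ℕ) ≤ j ∧ (j : ℕ) < (c₀ : ℕ) + s := by
          by_contra hcon
          apply hj
          simp only [a', dif_neg hcon]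
        have : e ⟨(j : ℕ) - c₀, by omega⟩ = j := by
          apply Fin.ext
          simp only [e]
          omega
        rw [← this]
        exact hemem _
      · obtain ⟨i, hi⟩ := hne
        exact ⟨e i, by rw [ha'e]; exact hi⟩
    have hmoore := moore_norm p y R hRpos hy hind'
    -- the block determinant
    have hdet : ((blockMat p z).toSquareBlock b (b j₀)).det =
        ((Matrix.of fun (i a : Fin s) => y i ^ (p ^ (a : ℕ))).det) ^ (p ^ (c₀ : ℕ)) := by
      rw [← Matrix.det_submatrix_equiv_self E]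
      have : (iterateFrobenius C p (c₀ : ℕ))
          (Matrix.of fun (i a : Fin s) => y i ^ (p ^ (a : ℕ))).det =
          ((Matrix.of fun (i a : Fin s) => y i ^ (p ^ (a : ℕ))).det) ^ (p ^ (c₀ : ℕ)) :=
        iterateFrobenius_def p (c₀ : ℕ) _
      rw [← this, RingHom.map_det]
      congr 1
      ext t t'
      simp only [Matrix.submatrix_apply, Matrix.toSquareBlock_def, RingHom.mapMatrix_apply,
        Matrix.map_apply, Matrix.of_apply, blockMat, hEval]
      rw [if_pos]
      · rw [iterateFrobenius_def, ← pow_mul, ← pow_add]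
        simp only [y, e]
        congr 2
        ring
      · exact (hemem t').trans (hemem t).symm
    rw [hdet, norm_pow, hmoore]
    -- the product over the fibre
    have hprod : ∏ j ∈ Finset.univ.filter (fun j => b j = b j₀), ‖z j‖ ^ (p ^ (j : ℕ)) =
        ∏ t : Fin s, R ^ (p ^ ((c₀ : ℕ) + t)) := by
      rw [Finset.prod_subtype (Finset.univ.filter (fun j => b j = b j₀))
        (p := fun j => b j = b j₀) (by simp)]
      rw [← Equiv.prod_comp E]
      apply Finset.prod_congr rfl
      intro t _
      rw [hEval]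
      have : ‖z (e t)‖ = R := hemem t
      rw [this]
    rw [hprod, ← Finset.prod_pow]
    apply Finset.prod_congr rfl
    intro t _
    rw [← pow_mul, ← pow_add]
    congr 2
    ring
  rw [Finset.prod_congr rfl hfib]
  exact Finset.prod_fiberwise_of_maps_to (fun j _ => Finset.mem_image_of_mem b (Finset.mem_univ j)) _

end BlockMoore

end RankAux

end

end Crest.Agent.LT
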