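/-
S0351 WITT/TROPICALDUAL: dual potentials for the tropical optimisation (used by Witt/Rank, helper31).
-/
import Mathlib

set_option autoImplicit false
set_option linter.unusedSectionVars false
set_option linter.deprecated false

namespace Crest.Agent.LT

noncomputable section

namespace TropicalAux

variable (p n m : ℕ) (N : ℕ → ℝ)

/-- the step lengths -/
def D₀ (c : ℕ) : ℝ := if c + 1 < m then ((p : ℝ) - 1) * (p : ℝ) ^ c else (p : ℝ) ^ n - (p : ℝ) ^ (m - 1)

/-- the slopes -/
def θ (c : ℕ) : ℝ := if c + 1 < m then (N c + N (c + 1)) / 2 else (N 0 / (p : ℝ) ^ n + N (m - 1)) / 2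

/-- the potential on classes -/
def W (c : ℕ) : ℝ := ∑ t ∈ Finset.range c, D₀ p n m t * θ p n m N t

/-- the slope parameter -/
def ss : ℝ := W p n m N m

/-- the value function -/
def G (x : ℝ) (l : ℤ) : ℝ :=
  x * (p : ℝ) ^ (l % (m : ℤ) + (n : ℤ) * (l / (m : ℤ))) -
    (W p n m N (l % (m : ℤ)).toNat + ss p n m N * ((l / (m : ℤ) : ℤ) : ℝ))

variable {p n m N}

theorem G_of_rep (hm : 1 ≤ m) (x : ℝ) (c : ℕ) (hc : c < m) (k : ℤ) :
    G p n m N x ((c : ℤ) + m * k) =
      x * (p : ℝ) ^ ((c : ℤ) + (n : ℤ) * k) - (W p n m N c + ss p n m N * (k : ℝ)) := by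
  have hm' : (0 : ℤ) < m := by exact_mod_cast hm
  have h := (Int.ediv_emod_unique (a := (c : ℤ) + m * k) (b := (m : ℤ)) (r := (c : ℤ)) (q := k) hm').2
    ⟨rfl, by positivity, by exact_mod_cast hc⟩
  unfold G
  rw [h.1, h.2]
  simp

theorem G_of_lt (hm : 1 ≤ m) (x : ℝ) (c : ℕ) (hc : c < m) :
    G p n m N x (c : ℤ) = x * (p : ℝ) ^ c - W p n m N c := by
  have := G_of_rep (p := p) (n := n) (N := N) hm x c hc 0
  simpa using this

/-- Every integer has the form `c + m k`. -/
theorem exists_rep (hm : 1 ≤ m) (l : ℤ) : ∃ (c : ℕ) (k : ℤ), c < m ∧ l = (c : ℤ) + m * k := by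
  have hm' : (0 : ℤ) < m := by exact_mod_cast hm
  refine ⟨(l % m).toNat, l / m, ?_, ?_⟩
  · have h1 := Int.emod_lt_of_pos l hm'
    have h2 := Int.emod_nonneg l hm'.ne'
    omega
  · have h2 := Int.emod_nonneg l hm'.ne'
    rw [Int.toNat_of_nonneg h2]
    exact (Int.emod_add_mul_ediv l m).symm

/-- The increment formula. -/
theorem G_succ (hp : 2 ≤ p) (hm : 1 ≤ m) (x : ℝ) (c : ℕ) (hc : c < m) (k : ℤ) :
    G p n m N x ((c : ℤ) + m * k + 1) - G p n m N x ((c : ℤ) + m * k) =
      D₀ p n m c * (x * (p : ℝ) ^ ((n : ℤ) * k) - θ p n m N c) := by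
  have hp0 : (p : ℝ) ≠ 0 := by
    have : (2 : ℝ) ≤ p := by exact_mod_cast hp
    linarith
  by_cases h : c + 1 < m
  · have e : (c : ℤ) + m * k + 1 = ((c + 1 : ℕ) : ℤ) + m * k := by push_cast; ring
    rw [e, G_of_rep hm x (c + 1) h k, G_of_rep hm x c hc k]
    have hW : W p n m N (c + 1) = W p n m N c + D₀ p n m c * θ p n m N c := by
      unfold W; rw [Finset.sum_range_succ]
    rw [hW]
    have hD : D₀ p n m c = ((p : ℝ) - 1) * (p : ℝ) ^ c := by unfold D₀; rw [if_pos h]
    rw [hD]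
    have e1 : (p : ℝ) ^ (((c + 1 : ℕ) : ℤ) + (n : ℤ) * k) =
        (p : ℝ) ^ c * p * (p : ℝ) ^ ((n : ℤ) * k) := by
      rw [zpow_add₀ hp0]; push_cast; rw [zpow_add₀ hp0]; simp [pow_succ]
    have e2 : (p : ℝ) ^ ((c : ℤ) + (n : ℤ) * k) = (p : ℝ) ^ c * (p : ℝ) ^ ((n : ℤ) * k) := by
      rw [zpow_add₀ hp0]; simp
    rw [e1, e2]; ring
  · have hc' : c + 1 = m := by omega
    have e : (c : ℤ) + m * k + 1 = ((0 : ℕ) : ℤ) + m * (k + 1) := by
      have : (m : ℤ) = c + 1 := by exact_mod_cast hc'.symm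
      rw [this]; push_cast; ring
    rw [e, G_of_rep hm x 0 (by omega) (k + 1), G_of_rep hm x c hc k]
    have hW : ss p n m N = W p n m N c + D₀ p n m c * θ p n m N c := by
      unfold ss W; rw [← hc', Finset.sum_range_succ]
    have hW0 : W p n m N 0 = 0 := by simp [W]
    rw [hW0]
    have hD : D₀ p n m c = (p : ℝ) ^ n - (p : ℝ) ^ (m - 1) := by unfold D₀; rw [if_neg h]
    have hcm : m - 1 = c := by omega
    rw [hcm] at hD
    have e1 : (p : ℝ) ^ (((0 : ℕ) : ℤ) + (n : ℤ) * (k + 1)) =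
        (p : ℝ) ^ n * (p : ℝ) ^ ((n : ℤ) * k) := by
      have : ((0 : ℕ) : ℤ) + (n : ℤ) * (k + 1) = (n : ℤ) + (n : ℤ) * k := by push_cast; ring
      rw [this, zpow_add₀ hp0]; simp
    have e2 : (p : ℝ) ^ ((c : ℤ) + (n : ℤ) * k) = (p : ℝ) ^ c * (p : ℝ) ^ ((n : ℤ) * k) := by
      rw [zpow_add₀ hp0]; simp
    rw [e1, e2]
    have e3 : ss p n m N * (((k + 1 : ℤ)) : ℝ) = ss p n m N * (k : ℝ) + ss p n m N := by
      push_cast; ring
    rw [e3, hW, hD]
    ring

section Signs

variable (hp : 2 ≤ p) (hm : 1 ≤ m) (hmn : m < n)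
  (hN : ∀ c c', c ≤ c' → c' < m → N c' ≤ N c) (hpos : ∀ c, c < m → 0 < N c)
  (hwin : N 0 < (p : ℝ) ^ n * N (m - 1))

include hp in
theorem p_gt_one : (1 : ℝ) < p := by
  have : (2 : ℝ) ≤ p := by exact_mod_cast hp
  linarith

include hp hmn in
theorem D₀_pos (c : ℕ) : 0 < D₀ p n m c := by
  have h1 := p_gt_one hp
  unfold D₀
  split_ifs with h
  · have : 0 < (p : ℝ) ^ c := by positivity
    have h2 : 0 < (p : ℝ) - 1 := by linarith
    positivity
  · have : (p : ℝ) ^ (m - 1) < (p : ℝ) ^ n := pow_lt_pow_right₀ h1 (by omega)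
    linarith

include hp hm hmn hN hpos hwin

theorem q_pos : 0 < (p : ℝ) ^ n := by
  have h1 := p_gt_one hp
  positivity

/-- `N 0 / q < N (m-1)`. -/
theorem N0_div_lt : N 0 / (p : ℝ) ^ n < N (m - 1) := by
  have hq := q_pos hp hm hmn hN hpos hwin
  rw [div_lt_iff₀ hq]; linarith

/-- Lower bound for `θ`. -/
theorem θ_gt (c : ℕ) (hc : c < m) : N 0 / (p : ℝ) ^ n < θ p n m N c := by
  have h0 := N0_div_lt hp hm hmn hN hpos hwin
  unfold θ
  split_ifs with h
  · have h1 := hN c (m - 1) (by omega) (by omega)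
    have h2 := hN (c + 1) (m - 1) (by omega) (by omega)
    linarith
  · linarith

/-- Upper bound for `θ`. -/
theorem θ_le (c : ℕ) (hc : c < m) : θ p n m N c ≤ N 0 := by
  have h0 := N0_div_lt hp hm hmn hN hpos hwin
  unfold θ
  split_ifs with h
  · have h1 := hN 0 c (by omega) hc
    have h2 := hN 0 (c + 1) (by omega) (by omega)
    linarith
  · have h1 := hN 0 (m - 1) (by omega) (by omega)
    linarith

theorem θ_pos (c : ℕ) (hc : c < m) : 0 < θ p n m N c := by
  have hq := q_pos hp hm hmn hN hpos hwin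
  have h0 : 0 < N 0 / (p : ℝ) ^ n := div_pos (hpos 0 (by omega)) hq
  linarith [θ_gt hp hm hmn hN hpos hwin c hc]

theorem ss_pos : 0 < ss p n m N := by
  unfold ss W
  apply Finset.sum_pos
  · intro t ht
    exact mul_pos (D₀_pos hp hmn t) (θ_pos hp hm hmn hN hpos hwin t (Finset.mem_range.1 ht))
  · exact ⟨0, Finset.mem_range.2 (by omega)⟩

/-- `q^k` is at least `q` for `k ≥ 1`. -/
theorem q_zpow_ge (k : ℤ) (hk : 1 ≤ k) : (p : ℝ) ^ n ≤ (p : ℝ) ^ ((n : ℤ) * k) := by
  have h1 := p_gt_one hp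
  have : (p : ℝ) ^ ((n : ℤ) * 1) ≤ (p : ℝ) ^ ((n : ℤ) * k) :=
    zpow_le_zpow_right₀ h1.le (by
      have : (0 : ℤ) ≤ n := by positivity
      nlinarith)
  simpa using this

/-- `q^k` is at most `1/q` for `k ≤ -1`. -/
theorem q_zpow_le (k : ℤ) (hk : k ≤ -1) : (p : ℝ) ^ ((n : ℤ) * k) ≤ 1 / (p : ℝ) ^ n := by
  have h1 := p_gt_one hp
  have : (p : ℝ) ^ ((n : ℤ) * k) ≤ (p : ℝ) ^ ((n : ℤ) * (-1)) :=
    zpow_le_zpow_right₀ h1.le (by
      have : (0 : ℤ) ≤ n := by positivity
      nlinarith)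
  simpa [zpow_neg] using this

/-- Increment positive for `k ≥ 1`. -/
theorem inc_pos_of_k (c e : ℕ) (hc : c < m) (he : e < m) (k : ℤ) (hk : 1 ≤ k) :
    0 < N e * (p : ℝ) ^ ((n : ℤ) * k) - θ p n m N c := by
  have h1 := q_zpow_ge hp hm hmn hN hpos hwin k hk
  have h2 := θ_le hp hm hmn hN hpos hwin c hc
  have h3 := hN e (m - 1) (by omega) (by omega)
  have h4 := hpos (m - 1) (by omega)
  have h5 : N (m - 1) * (p : ℝ) ^ n ≤ N e * (p : ℝ) ^ ((n : ℤ) * k) := by
    have hq := q_pos hp hm hmn hN hpos hwin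
    exact mul_le_mul h3 h1 hq.le (hpos e he).le
  nlinarith

/-- Increment negative for `k ≤ -1`. -/
theorem inc_neg_of_k (c e : ℕ) (hc : c < m) (he : e < m) (k : ℤ) (hk : k ≤ -1) :
    N e * (p : ℝ) ^ ((n : ℤ) * k) - θ p n m N c < 0 := by
  have h1 := q_zpow_le hp hm hmn hN hpos hwin k hk
  have h2 := θ_gt hp hm hmn hN hpos hwin c hc
  have h3 := hN 0 e (by omega) he
  have hq := q_pos hp hm hmn hN hpos hwin
  have hz : 0 < (p : ℝ) ^ ((n : ℤ) * k) := zpow_pos (by linarith [p_gt_one hp]) _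
  have h5 : N e * (p : ℝ) ^ ((n : ℤ) * k) ≤ N 0 * (1 / (p : ℝ) ^ n) :=
    mul_le_mul h3 h1 hz.le (hpos 0 (by omega)).le
  have h6 : N 0 * (1 / (p : ℝ) ^ n) = N 0 / (p : ℝ) ^ n := by ring
  linarith

/-- Step up from `l ≥ e`. -/
theorem G_up (e : ℕ) (he : e < m) (l : ℤ) (hl : (e : ℤ) ≤ l) :
    G p n m N (N e) l ≤ G p n m N (N e) (l + 1) := by
  obtain ⟨c, k, hc, rfl⟩ := exists_rep hm l
  have key := G_succ (N := N) (n := n) hp hm (N e) c hc k
  have hm' : (0 : ℤ) < m := by exact_mod_cast hm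
  have hD := D₀_pos (n := n) (m := m) hp hmn c
  have hk : 0 ≤ k := by
    by_contra hneg
    have : k ≤ -1 := by omega
    have : (m : ℤ) * k ≤ m * (-1) := by nlinarith
    have hc' : (c : ℤ) < m := by exact_mod_cast hc
    have he' : (0 : ℤ) ≤ e := by positivity
    nlinarith
  have hnn : 0 ≤ N e * (p : ℝ) ^ ((n : ℤ) * k) - θ p n m N c := by
    by_cases hk1 : 1 ≤ k
    · exact (inc_pos_of_k hp hm hmn hN hpos hwin c e hc he k hk1).le
    · have hk0 : k = 0 := by omega
      subst hk0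
      have hce : e ≤ c := by
        have : (e : ℤ) ≤ c := by simpa using hl
        exact_mod_cast this
      simp only [mul_zero, zpow_zero, mul_one]
      unfold θ
      split_ifs with h
      · have h1 := hN e c hce hc
        have h2 := hN e (c + 1) (by omega) h
        linarith
      · have h0 := N0_div_lt hp hm hmn hN hpos hwin
        have h1 := hN e (m - 1) (by omega) (by omega)
        linarith
  have : 0 ≤ G p n m N (N e) ((c : ℤ) + m * k + 1) - G p n m N (N e) ((c : ℤ) + m * k) := by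
    rw [key]; exact mul_nonneg hD.le hnn
  linarith

/-- Step down from `l < e`. -/
theorem G_down (e : ℕ) (he : e < m) (l : ℤ) (hl : l < (e : ℤ)) :
    G p n m N (N e) (l + 1) ≤ G p n m N (N e) l := by
  obtain ⟨c, k, hc, rfl⟩ := exists_rep hm l
  have key := G_succ (N := N) (n := n) hp hm (N e) c hc k
  have hm' : (0 : ℤ) < m := by exact_mod_cast hm
  have hD := D₀_pos (n := n) (m := m) hp hmn c
  have hk : k ≤ 0 := by
    by_contra hneg
    have : 1 ≤ k := by omega
    have : (m : ℤ) * 1 ≤ m * k := by nlinarith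
    have he' : (e : ℤ) < m := by exact_mod_cast he
    have hc' : (0 : ℤ) ≤ c := by positivity
    nlinarith
  have hnn : N e * (p : ℝ) ^ ((n : ℤ) * k) - θ p n m N c ≤ 0 := by
    by_cases hk1 : k ≤ -1
    · exact (inc_neg_of_k hp hm hmn hN hpos hwin c e hc he k hk1).le
    · have hk0 : k = 0 := by omega
      subst hk0
      have hce : c < e := by
        have : (c : ℤ) < e := by simpa using hl
        exact_mod_cast this
      simp only [mul_zero, zpow_zero, mul_one]
      unfold θ
      rw [if_pos (by omega)]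
      have h1 := hN c e (by omega) he
      have h2 := hN (c + 1) e (by omega) he
      linarith
  have : G p n m N (N e) ((c : ℤ) + m * k + 1) - G p n m N (N e) ((c : ℤ) + m * k) ≤ 0 := by
    rw [key]; exact mul_nonpos_of_nonneg_of_nonpos hD.le hnn
  linarith

/-- Monotone above `e`. -/
theorem G_mono_up (e : ℕ) (he : e < m) (a b : ℤ) (ha : (e : ℤ) ≤ a) (hab : a ≤ b) :
    G p n m N (N e) a ≤ G p n m N (N e) b := by
  induction b, hab using Int.le_induction with
  | base => exact le_rfl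
  | succ b hb ih => exact ih.trans (G_up hp hm hmn hN hpos hwin e he b (ha.trans hb))

/-- Antitone below `e`. -/
theorem G_mono_down (e : ℕ) (he : e < m) (a b : ℤ) (hb : b ≤ (e : ℤ)) (hab : a ≤ b) :
    G p n m N (N e) b ≤ G p n m N (N e) a := by
  induction a, hab using Int.le_induction_down with
  | base => exact le_rfl
  | pred a ha ih =>
      have h1 := G_down hp hm hmn hN hpos hwin e he (a - 1) (by omega)
      rw [sub_add_cancel] at h1
      exact ih.trans h1

/-- Minimum at `e`. -/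
theorem G_min (e : ℕ) (he : e < m) (l : ℤ) : G p n m N (N e) (e : ℤ) ≤ G p n m N (N e) l := by
  rcases le_total (e : ℤ) l with h | h
  · exact G_mono_up hp hm hmn hN hpos hwin e he _ _ le_rfl h
  · exact G_mono_down hp hm hmn hN hpos hwin e he _ _ le_rfl h

/-- Strict step at the top of the first window. -/
theorem G_strict_top (e : ℕ) (he : e < m) :
    G p n m N (N e) ((m : ℤ) - 1) < G p n m N (N e) (m : ℤ) := by
  have hm1 : ((m - 1 : ℕ) : ℤ) = (m : ℤ) - 1 := by
    have : (1 : ℤ) ≤ m := by exact_mod_cast hm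
    push_cast [Nat.cast_sub hm]; ring
  have key := G_succ (N := N) (n := n) hp hm (N e) (m - 1) (by omega) 0
  simp only [mul_zero, add_zero, zpow_zero, mul_one] at key
  rw [hm1, sub_add_cancel] at key
  have hD := D₀_pos (n := n) (m := m) hp hmn (m - 1)
  have hθ : θ p n m N (m - 1) < N e := by
    unfold θ
    rw [if_neg (by omega)]
    have h0 := N0_div_lt hp hm hmn hN hpos hwin
    have h1 := hN e (m - 1) (by omega) (by omega)
    linarith
  have : 0 < D₀ p n m (m - 1) * (N e - θ p n m N (m - 1)) := mul_pos hD (by linarith)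
  linarith

/-- Strict step at the bottom of the first window. -/
theorem G_strict_bot (e : ℕ) (he : e < m) :
    G p n m N (N e) 0 < G p n m N (N e) (-1) := by
  have key := G_succ (N := N) (n := n) hp hm (N e) (m - 1) (by omega) (-1)
  have hm1 : (((m - 1 : ℕ) : ℤ)) + (m : ℤ) * (-1) = -1 := by
    have : (1 : ℤ) ≤ m := by exact_mod_cast hm
    push_cast [Nat.cast_sub hm]; ring
  rw [hm1] at key
  simp only [neg_add_cancel] at key
  have hD := D₀_pos (n := n) (m := m) hp hmn (m - 1)
  have hneg := inc_neg_of_k hp hm hmn hN hpos hwin (m - 1) e (by omega) he (-1) le_rfl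
  have : D₀ p n m (m - 1) * (N e * (p : ℝ) ^ ((n : ℤ) * (-1)) - θ p n m N (m - 1)) < 0 :=
    mul_neg_of_pos_of_neg hD hneg
  linarith

/-- Strictness above the minimum. -/
theorem G_strict_of_le (e : ℕ) (he : e < m) (l : ℕ) (hl : l < m) (hel : e < l) (hne : N l < N e) :
    G p n m N (N e) (e : ℤ) < G p n m N (N e) (l : ℤ) := by
  have key := G_succ (N := N) (n := n) hp hm (N e) (l - 1) (by omega) 0
  simp only [mul_zero, add_zero, zpow_zero, mul_one] at key
  have hl1 : ((l - 1 : ℕ) : ℤ) + 1 = (l : ℤ) := by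
    have : (1 : ℤ) ≤ l := by exact_mod_cast (by omega : 1 ≤ l)
    push_cast [Nat.cast_sub (by omega : 1 ≤ l)]; ring
  rw [hl1] at key
  have h0 := G_mono_up hp hm hmn hN hpos hwin e he (e : ℤ) ((l - 1 : ℕ) : ℤ) le_rfl
    (by exact_mod_cast (by omega : e ≤ l - 1))
  have hD := D₀_pos (n := n) (m := m) hp hmn (l - 1)
  have hθ : θ p n m N (l - 1) < N e := by
    unfold θ
    rw [if_pos (by omega)]
    have e1 : l - 1 + 1 = l := by omega
    rw [e1]
    have h1 := hN e (l - 1) (by omega) (by omega)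
    linarith
  have : 0 < D₀ p n m (l - 1) * (N e - θ p n m N (l - 1)) := mul_pos hD (by linarith)
  linarith

/-- Strictness below the minimum. -/
theorem G_strict_of_ge (e : ℕ) (he : e < m) (l : ℕ) (hle : l < e) (hne : N e < N l) :
    G p n m N (N e) (e : ℤ) < G p n m N (N e) (l : ℤ) := by
  have key := G_succ (N := N) (n := n) hp hm (N e) l (by omega) 0
  simp only [mul_zero, add_zero, zpow_zero, mul_one] at key
  have h0 := G_mono_down hp hm hmn hN hpos hwin e he ((l + 1 : ℕ) : ℤ) (e : ℤ) le_rfl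
    (by exact_mod_cast hle)
  push_cast at h0
  have hD := D₀_pos (n := n) (m := m) hp hmn l
  have hθ : N e < θ p n m N l := by
    unfold θ
    rw [if_pos (by omega)]
    have h1 := hN (l + 1) e (by omega) he
    linarith
  have : D₀ p n m l * (N e - θ p n m N l) < 0 := mul_neg_of_pos_of_neg hD (by linarith)
  linarith

/-- If the value at `l` equals the minimal value, `l` lies in the window and in the block of `e`. -/
theorem G_eq_min (e : ℕ) (he : e < m) (l : ℤ)
    (hl : G p n m N (N e) l ≤ G p n m N (N e) (e : ℤ)) :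
    ∃ c : ℕ, c < m ∧ l = (c : ℤ) ∧ N c = N e := by
  have hm' : (1 : ℤ) ≤ m := by exact_mod_cast hm
  have he' : (e : ℤ) < m := by exact_mod_cast he
  have hlow : 0 ≤ l := by
    by_contra hneg
    have h1 : l ≤ -1 := by omega
    have h2 := G_mono_down hp hm hmn hN hpos hwin e he l (-1) (by omega) h1
    have h3 := G_strict_bot hp hm hmn hN hpos hwin e he
    have h4 := G_min hp hm hmn hN hpos hwin e he 0
    linarith
  have hup : l < m := by
    by_contra hneg
    have h1 : (m : ℤ) ≤ l := by omega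
    have h2 := G_mono_up hp hm hmn hN hpos hwin e he (m : ℤ) l (by omega) h1
    have h3 := G_strict_top hp hm hmn hN hpos hwin e he
    have h4 := G_min hp hm hmn hN hpos hwin e he ((m : ℤ) - 1)
    linarith
  obtain ⟨c, rfl⟩ := Int.eq_ofNat_of_zero_le hlow
  have hc : c < m := by exact_mod_cast hup
  refine ⟨c, hc, rfl, ?_⟩
  rcases lt_trichotomy c e with h | h | h
  · have h1 := hN c e h.le he
    by_contra hne
    have h2 : N e < N c := lt_of_le_of_ne h1 (Ne.symm hne)
    have := G_strict_of_ge hp hm hmn hN hpos hwin e he c h h2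
    linarith
  · rw [h]
  · have h1 := hN e c h.le hc
    by_contra hne
    have h2 : N c < N e := lt_of_le_of_ne h1 hne
    have := G_strict_of_le hp hm hmn hN hpos hwin e he c hc h h2
    linarith

/-- Uniform gap. -/
theorem exists_gap : ∃ g : ℝ, 0 < g ∧ ∀ (e : ℕ), e < m → ∀ l : ℤ,
    G p n m N (N e) (e : ℤ) < G p n m N (N e) l →
      G p n m N (N e) (e : ℤ) + g ≤ G p n m N (N e) l := by
  classical
  -- the finite set of pairs
  let T : Finset (ℕ × ℤ) := (Finset.range m) ×ˢ (Finset.Icc (-1 : ℤ) (m : ℤ))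
  let f : ℕ × ℤ → ℝ := fun q => G p n m N (N q.1) q.2 - G p n m N (N q.1) (q.1 : ℤ)
  obtain ⟨g, hg0, hg⟩ : ∃ g : ℝ, 0 < g ∧ ∀ q ∈ T, 0 < f q → g ≤ f q := by
    induction T using Finset.induction_on with
    | empty => exact ⟨1, one_pos, by simp⟩
    | insert a S _ ih =>
        obtain ⟨g, hg0, hg⟩ := ih
        by_cases ha : 0 < f a
        · refine ⟨min g (f a), lt_min hg0 ha, ?_⟩
          intro q hq hfq
          rcases Finset.mem_insert.1 hq with rfl | hq
          · exact min_le_right _ _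
          · exact (min_le_left _ _).trans (hg q hq hfq)
        · refine ⟨g, hg0, ?_⟩
          intro q hq hfq
          rcases Finset.mem_insert.1 hq with rfl | hq
          · exact absurd hfq ha
          · exact hg q hq hfq
  refine ⟨g, hg0, ?_⟩
  intro e he l hl
  have he' : (e : ℤ) < m := by exact_mod_cast he
  have hm' : (1 : ℤ) ≤ m := by exact_mod_cast hm
  rcases lt_or_ge l (-1) with h1 | h1
  · -- below
    have h2 := G_mono_down hp hm hmn hN hpos hwin e he l (-1) (by omega) h1.le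
    have h3 := G_strict_bot hp hm hmn hN hpos hwin e he
    have h4 := G_min hp hm hmn hN hpos hwin e he 0
    have h5 := hg (e, (-1 : ℤ)) (by
      simp only [T, Finset.mem_product, Finset.mem_range, Finset.mem_Icc]
      exact ⟨he, le_rfl, by omega⟩) (by simp only [f]; linarith)
    simp only [f] at h5
    linarith
  · rcases lt_or_ge (m : ℤ) l with h6 | h6
    · have h2 := G_mono_up hp hm hmn hN hpos hwin e he (m : ℤ) l (by omega) h6.le
      have h3 := G_strict_top hp hm hmn hN hpos hwin e he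
      have h4 := G_min hp hm hmn hN hpos hwin e he ((m : ℤ) - 1)
      have h5 := hg (e, (m : ℤ)) (by
        simp only [T, Finset.mem_product, Finset.mem_range, Finset.mem_Icc]
        exact ⟨he, by omega, le_rfl⟩) (by simp only [f]; linarith)
      simp only [f] at h5
      linarith
    · have h5 := hg (e, l) (by
        simp only [T, Finset.mem_product, Finset.mem_range, Finset.mem_Icc]
        exact ⟨he, h1, h6⟩) (by simp only [f]; linarith)
      simp only [f] at h5
      linarith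

end Signs

end TropicalAux

end

end Crest.Agent.LT
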