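/-
S0351 WITT/RANK, second part: the core for sorted points in a window.
-/
import Crest.Agent.LT.Witt.API
import Crest.Agent.LT.Witt.RankA
import Crest.Agent.LT.Witt.TropicalDual

set_option autoImplicit false
set_option linter.deprecated false
set_option linter.unusedSimpArgs false
set_option linter.style.haveILetI false
set_option linter.unusedSectionVars false

open Crest.LubinTate

namespace Crest.Agent.LT

noncomputable section

namespace RankAux

variable (p : ℕ) [Fact p.Prime]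
variable {C : Type} [NontriviallyNormedField C] [IsUltrametricDist C] [CompleteSpace C]
  [CharP C p] [IsAlgClosed C]

variable {p}
variable {r : ℝ} {B : Type} [NontriviallyNormedField B] [IsUltrametricDist B] [CompleteSpace B]

theorem tc_of_le (PF : PeriodField p C r B) (y : C) (hy : ‖y‖ ≤ 1) : PF.tc y = PF.teich ⟨y, hy⟩ := by
  unfold PeriodField.tc
  rw [dif_pos hy]

theorem norm_tc_of_le (PF : PeriodField p C r B) (y : C) (hy : ‖y‖ ≤ 1) : ‖PF.tc y‖ = ‖y‖ := by
  rw [tc_of_le PF y hy, PF.norm_teich]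

variable (p) in
/-- Norm of a term of the `ell` series. -/
theorem norm_term (PF : PeriodField p C r B) (s : ℝ) (hr : r = Real.exp (-s)) (e : ℤ) (k : ℤ)
    (z : C) (hz0 : z ≠ 0) (hz1 : ‖z‖ < 1) :
    ‖PF.tc (fpow p e z) * ((p : B) ^ (-k))‖ =
      Real.exp (-((-Real.log ‖z‖) * (p : ℝ) ^ e - s * (k : ℝ))) := by
  have hp : p.Prime := Fact.out
  have hp0 : (0 : ℝ) < p := by exact_mod_cast hp.pos
  have hzpos : 0 < ‖z‖ := norm_pos_iff.2 hz0
  have hpe : 0 < (p : ℝ) ^ e := zpow_pos hp0 _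
  have hf : ‖fpow p e z‖ = Real.exp (Real.log ‖z‖ * (p : ℝ) ^ e) := by
    rw [norm_fpow, Real.rpow_def_of_pos hzpos]
  have hf1 : ‖fpow p e z‖ ≤ 1 := by
    rw [hf, Real.exp_le_one_iff]
    have : Real.log ‖z‖ < 0 := Real.log_neg hzpos hz1
    nlinarith
  have hzp : Real.exp (-s) ^ (-k) = Real.exp (s * (k : ℝ)) := by
    rw [← Real.rpow_intCast, ← Real.exp_mul]
    congr 1
    push_cast
    ring
  rw [norm_mul, norm_tc_of_le PF _ hf1, hf, norm_zpow, PF.natCast_p_norm, hr, hzp, ← Real.exp_add]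
  congr 1
  ring

/-- The core of the rank lemma, for sorted points in a window. -/
theorem rank_core (n m : ℕ) (hm : 1 ≤ m) (hmn : m < n) (z : Fin m → C) (hz0 : ∀ j, z j ≠ 0)
    (hz1 : ∀ j, ‖z j‖ < 1) (hmono : Monotone (fun j => ‖z j‖))
    (hwin : -Real.log ‖z ⟨0, by omega⟩‖ < (p : ℝ) ^ n * (-Real.log ‖z ⟨m - 1, by omega⟩‖))
    (hind : ∀ (a : Fin m → ℕ) (R : ℝ), (∀ j, a j < p) → (∀ j, a j ≠ 0 → ‖z j‖ = R) →
      (∃ j, a j ≠ 0) → ‖∑ j, (a j : C) * z j‖ = R) :
    ∃ r : ℝ, 0 < r ∧ r < 1 ∧ ∀ (B : Type) (_ : NontriviallyNormedField B) (_ : IsUltrametricDist B)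
      (_ : CompleteSpace B) (_ : CharZero B) (PF : PeriodField p C r B),
      (Matrix.of fun (j u : Fin m) => PF.ell n ((u : ℕ) : ℤ) (z j)).det ≠ 0 := by
  classical
  have hp : p.Prime := Fact.out
  have hp2 : 2 ≤ p := hp.two_le
  -- the sequence `N`
  let N : ℕ → ℝ := fun c => if h : c < m then -Real.log ‖z ⟨c, h⟩‖ else 0
  have hNv : ∀ c (h : c < m), N c = -Real.log ‖z ⟨c, h⟩‖ := fun c h => by simp [N, h]
  have hNj : ∀ j : Fin m, N j = -Real.log ‖z j‖ := fun j => hNv j j.2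
  have hN : ∀ c c', c ≤ c' → c' < m → N c' ≤ N c := by
    intro c c' hcc hc'
    rw [hNv c (by omega), hNv c' hc']
    have h1 : ‖z ⟨c, by omega⟩‖ ≤ ‖z ⟨c', hc'⟩‖ := hmono (by simpa using hcc)
    have h2 : 0 < ‖z ⟨c, by omega⟩‖ := norm_pos_iff.2 (hz0 _)
    have := Real.log_le_log h2 h1
    linarith
  have hpos : ∀ c, c < m → 0 < N c := by
    intro c hc
    rw [hNv c hc]
    have := Real.log_neg (norm_pos_iff.2 (hz0 ⟨c, hc⟩)) (hz1 ⟨c, hc⟩)
    linarith
  have hwin' : N 0 < (p : ℝ) ^ n * N (m - 1) := by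
    rw [hNv 0 (by omega), hNv (m - 1) (by omega)]
    exact hwin
  have hNinj : ∀ j u : Fin m, N u = N j → ‖z u‖ = ‖z j‖ := by
    intro j u h
    rw [hNj, hNj] at h
    have h1 : Real.log ‖z u‖ = Real.log ‖z j‖ := by linarith
    exact Real.log_injOn_pos (Set.mem_Ioi.2 (norm_pos_iff.2 (hz0 u)))
      (Set.mem_Ioi.2 (norm_pos_iff.2 (hz0 j))) h1
  set s : ℝ := TropicalAux.ss p n m N with hs
  have hspos : 0 < s := TropicalAux.ss_pos hp2 hm hmn hN hpos hwin'
  obtain ⟨g, hg0, hg⟩ := TropicalAux.exists_gap hp2 hm hmn hN hpos hwin'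
  refine ⟨Real.exp (-s), Real.exp_pos _, by simpa using hspos, ?_⟩
  intro B _ _ _ _ PF
  have hr0 : 0 < Real.exp (-s) := Real.exp_pos _
  have hr1 : Real.exp (-s) < 1 := by simpa using hspos
  have hn1 : 1 ≤ n := by omega
  -- the bounds
  let a : Fin m → ℝ := fun j => Real.exp (-TropicalAux.G p n m N (N j) (j : ℕ))
  let b : Fin m → ℝ := fun u => Real.exp (-TropicalAux.W p n m N u)
  let ε : ℝ := Real.exp (-g)
  have hε0 : 0 ≤ ε := (Real.exp_pos _).le
  have hε1 : ε < 1 := by simpa [ε] using hg0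
  have ha0 : ∀ j, 0 ≤ a j := fun j => (Real.exp_pos _).le
  have hb0 : ∀ j, 0 ≤ b j := fun j => (Real.exp_pos _).le
  -- the terms
  let τ : Fin m → Fin m → ℤ → B := fun j u k =>
    PF.tc (fpow p (((u : ℕ) : ℤ) + (n : ℤ) * k) (z j)) * ((p : B) ^ (-k))
  have hτnorm : ∀ j u k, ‖τ j u k‖ = Real.exp
      (-(TropicalAux.G p n m N (N j) (((u : ℕ) : ℤ) + m * k) + TropicalAux.W p n m N u)) := by
    intro j u k
    simp only [τ]
    rw [norm_term p PF s rfl _ k _ (hz0 j) (hz1 j), TropicalAux.G_of_rep hm _ _ u.2 k, hNj j]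
    congr 1
    ring
  have hab : ∀ j u, a j * b u = Real.exp
      (-(TropicalAux.G p n m N (N j) (j : ℕ) + TropicalAux.W p n m N u)) := by
    intro j u
    simp only [a, b]
    rw [← Real.exp_add]
    congr 1
    ring
  have hεab : ∀ j u, ε * (a j * b u) = Real.exp
      (-(TropicalAux.G p n m N (N j) (j : ℕ) + g + TropicalAux.W p n m N u)) := by
    intro j u
    rw [hab]
    simp only [ε]
    rw [← Real.exp_add]
    congr 1
    ring
  have hτle : ∀ j u k, ‖τ j u k‖ ≤ a j * b u := by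
    intro j u k
    rw [hτnorm, hab]
    apply Real.exp_le_exp.2
    have := TropicalAux.G_min hp2 hm hmn hN hpos hwin' j j.2 (((u : ℕ) : ℤ) + m * k)
    linarith
  -- non-tight terms are smaller
  have hτsmall : ∀ j u k, (k ≠ 0 ∨ ‖z u‖ ≠ ‖z j‖) → ‖τ j u k‖ ≤ ε * (a j * b u) := by
    intro j u k hk
    rw [hτnorm, hεab]
    apply Real.exp_le_exp.2
    have hmin := TropicalAux.G_min hp2 hm hmn hN hpos hwin' j j.2 (((u : ℕ) : ℤ) + m * k)
    have hstrict : TropicalAux.G p n m N (N j) (j : ℕ) <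
        TropicalAux.G p n m N (N j) (((u : ℕ) : ℤ) + m * k) := by
      refine lt_of_le_of_ne hmin ?_
      intro heq
      obtain ⟨c, hc, hcl, hcN⟩ := TropicalAux.G_eq_min hp2 hm hmn hN hpos hwin' j j.2
        (((u : ℕ) : ℤ) + m * k) heq.symm.le
      have hk0 : k = 0 := by
        have hm' : (0 : ℤ) < m := by exact_mod_cast hm
        have h1 := (Int.ediv_emod_unique (a := ((u : ℕ) : ℤ) + m * k) (b := (m : ℤ))
          (r := ((u : ℕ) : ℤ)) (q := k) hm').2 ⟨rfl, by positivity, by exact_mod_cast u.2⟩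
        have h2 := (Int.ediv_emod_unique (a := ((u : ℕ) : ℤ) + m * k) (b := (m : ℤ))
          (r := (c : ℤ)) (q := 0) hm').2 ⟨by rw [hcl]; ring, by positivity, by exact_mod_cast hc⟩
        rw [h1.1] at h2
        exact h2.1
      rcases hk with hk | hk
      · exact hk hk0
      · apply hk
        apply hNinj
        subst hk0
        have hcu : c = (u : ℕ) := by
          simp only [mul_zero, add_zero] at hcl
          exact_mod_cast hcl.symm
        rw [← hcu]
        exact hcN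
    have := hg j j.2 _ hstrict
    linarith
  -- the leading matrix
  let L : Matrix (Fin m) (Fin m) B := Matrix.of fun j u =>
    if ‖z u‖ = ‖z j‖ then PF.tc (z j ^ (p ^ (u : ℕ))) else 0
  have hτ0 : ∀ j u, τ j u 0 = PF.tc (z j ^ (p ^ (u : ℕ))) := by
    intro j u
    simp only [τ, mul_zero, add_zero, neg_zero, zpow_zero, mul_one]
    rw [fpow_natCast]
  have hsummable : ∀ j u, Summable (τ j u) := by
    intro j u
    exact PF.summable_ell hr0 hr1 n hn1 _ _ (hz1 j)
  -- the entries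
  have hE : ∀ j u : Fin m, PF.ell n ((u : ℕ) : ℤ) (z j) = ∑' k, τ j u k := fun j u => rfl
  have hEbound : ∀ j u : Fin m, ‖PF.ell n ((u : ℕ) : ℤ) (z j)‖ ≤ a j * b u := by
    intro j u
    rw [hE]
    exact IsUltrametricDist.norm_tsum_le_of_forall_le_of_nonneg
      (mul_nonneg (ha0 j) (hb0 u)) (hτle j u)
  have hLbound : ∀ j u, ‖L j u‖ ≤ a j * b u := by
    intro j u
    simp only [L, Matrix.of_apply]
    split_ifs with h
    · rw [← hτ0]; exact hτle j u 0
    · rw [norm_zero]; exact mul_nonneg (ha0 j) (hb0 u)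
  have hEL : ∀ j u : Fin m, ‖PF.ell n ((u : ℕ) : ℤ) (z j) - L j u‖ ≤ ε * (a j * b u) := by
    intro j u
    have hnn : 0 ≤ ε * (a j * b u) := mul_nonneg hε0 (mul_nonneg (ha0 j) (hb0 u))
    have e1 : L j u = ∑' k : ℤ, (if k = 0 then L j u else 0) := (tsum_ite_eq (0 : ℤ) (fun _ => L j u)).symm
    have hs2 : Summable (fun k : ℤ => if k = 0 then L j u else 0) :=
      summable_of_finite_support ((Set.finite_singleton (0 : ℤ)).subset (by
        intro k hk
        simp only [Function.mem_support, ne_eq, ite_eq_right_iff, not_forall] at hk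
        obtain ⟨h, -⟩ := hk
        exact h))
    rw [hE, e1, ← (hsummable j u).tsum_sub hs2]
    refine IsUltrametricDist.norm_tsum_le_of_forall_le_of_nonneg hnn ?_
    intro k
    by_cases hk : k = 0
    · subst hk
      by_cases hb : ‖z u‖ = ‖z j‖
      · simp only [if_true, L, Matrix.of_apply, if_pos hb, hτ0, sub_self, norm_zero]
        exact hnn
      · simp only [if_true, L, Matrix.of_apply, if_neg hb, sub_zero]
        exact hτsmall j u 0 (Or.inr hb)
    · simp only [if_neg hk, sub_zero]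
      exact hτsmall j u k (Or.inl hk)
  have hclose := norm_det_sub_det_le (Matrix.of fun (j u : Fin m) => PF.ell n ((u : ℕ) : ℤ) (z j)) L
    a b ε hε0 ha0 hb0 hEbound hLbound hEL
  -- the product of the bounds
  have hP : (∏ j, a j) * ∏ u, b u = ∏ j, ‖z j‖ ^ (p ^ (j : ℕ)) := by
    rw [← Finset.prod_mul_distrib]
    apply Finset.prod_congr rfl
    intro j _
    rw [hab, TropicalAux.G_of_lt hm _ _ j.2, hNj j]
    have hzpos : 0 < ‖z j‖ := norm_pos_iff.2 (hz0 j)
    have : ‖z j‖ ^ (p ^ (j : ℕ)) = Real.exp (Real.log ‖z j‖ * ((p : ℝ) ^ (j : ℕ))) := by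
      rw [← Real.rpow_def_of_pos hzpos, ← Nat.cast_pow, Real.rpow_natCast]
    rw [this]
    congr 1
    ring
  -- the lower bound for the leading determinant
  have hPpos : 0 < ∏ j, ‖z j‖ ^ (p ^ (j : ℕ)) :=
    Finset.prod_pos (fun j _ => pow_pos (norm_pos_iff.2 (hz0 j)) _)
  have hle1 : ∀ j (u : Fin m), ‖z j ^ (p ^ (u : ℕ))‖ ≤ 1 := by
    intro j u
    rw [norm_pow]
    exact pow_le_one₀ (norm_nonneg _) (hz1 j).le
  let L' : Matrix (Fin m) (Fin m) PF.Ap := Matrix.of fun j u =>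
    if ‖z u‖ = ‖z j‖ then ⟨PF.teich ⟨z j ^ (p ^ (u : ℕ)), hle1 j u⟩, PF.teich_mem _⟩ else 0
  have hL'L : L = (PF.Ap.subtype).mapMatrix L' := by
    ext j u
    simp only [L, L', Matrix.of_apply, RingHom.mapMatrix_apply, Matrix.map_apply]
    split_ifs with h
    · rw [tc_of_le PF _ (hle1 j u)]
      rfl
    · rfl
  have hdetL : L.det = ((L'.det : PF.Ap) : B) := by
    rw [hL'L, ← RingHom.map_det]
    rfl
  let A' : Matrix (Fin m) (Fin m) (OC C) := Matrix.of fun j u =>
    if ‖z u‖ = ‖z j‖ then ⟨z j ^ (p ^ (u : ℕ)), hle1 j u⟩ else 0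
  have hA'L' : A' = (PF.theta).mapMatrix L' := by
    ext j u
    simp only [A', L', Matrix.of_apply, RingHom.mapMatrix_apply, Matrix.map_apply]
    split_ifs with h
    · rw [PF.theta_teich]
    · rw [map_zero]
  have hdetA' : PF.theta L'.det = A'.det := by
    rw [hA'L', RingHom.map_det]
  have hblock : blockMat p z = ((OC C).subtype).mapMatrix A' := by
    ext j u
    simp only [blockMat, A', Matrix.of_apply, RingHom.mapMatrix_apply, Matrix.map_apply]
    split_ifs with h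
    · rfl
    · rfl
  have hdetblock : (blockMat p z).det = ((A'.det : OC C) : C) := by
    rw [hblock, ← RingHom.map_det]
    rfl
  have hlow : ∏ j, ‖z j‖ ^ (p ^ (j : ℕ)) ≤ ‖L.det‖ := by
    rw [← norm_det_blockMat p z hz0 hmono hind, hdetblock, hdetL, ← hdetA']
    exact PF.norm_theta _
  -- conclusion
  intro hdet0
  rw [hdet0, zero_sub, norm_neg, hP] at hclose
  have : ε * ∏ j, ‖z j‖ ^ (p ^ (j : ℕ)) < ∏ j, ‖z j‖ ^ (p ^ (j : ℕ)) := by
    nlinarith
  linarith

end RankAux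

end

end Crest.Agent.LT
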