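/-
S0351 package WITT/RANK: the determinant `det(ell^(u)(x_i))_{u<m}` is nonzero in `B_r` for a suitable `r`.
See BLUEPRINT.md §RK.
-/
import Crest.Agent.LT.Witt.RankB

set_option autoImplicit false
set_option linter.deprecated false
set_option linter.unusedSimpArgs false
set_option linter.style.haveILetI false
set_option linter.unusedSectionVars false

open Crest.LubinTate

namespace Crest.Agent.LT

noncomputable section

variable (p : ℕ) [Fact p.Prime]
variable {C : Type} [NontriviallyNormedField C] [IsUltrametricDist C] [CompleteSpace C]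
  [CharP C p] [IsAlgClosed C]

namespace RankAux

section Lin

variable {F : FormalGroup (OC C)} [F.IsComm]

/-- Linearisation of `a • u`. -/
theorem lin_nsmul (u : LawPt F) (a : ℕ) :
    ‖(a • u).val‖ ≤ ‖u.val‖ ∧ ‖(a • u).val - (a : C) * u.val‖ ≤ ‖u.val‖ ^ 2 := by
  induction a with
  | zero =>
      simp
  | succ a ih =>
      obtain ⟨h1, h2⟩ := ih
      have hu := u.norm_lt
      have hau := (a • u).norm_lt
      rw [succ_nsmul, LawPt.val_add]
      have h3 := norm_lawAdd_le F (a • u).val u.val hau hu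
      have h4 := norm_lawAdd_sub_add_le F (a • u).val u.val hau hu
      refine ⟨h3.trans (max_le h1 le_rfl), ?_⟩
      have e : lawAdd F (a • u).val u.val - ((a + 1 : ℕ) : C) * u.val =
          (lawAdd F (a • u).val u.val - ((a • u).val + u.val)) +
            ((a • u).val - (a : C) * u.val) := by
        push_cast; ring
      rw [e]
      refine (IsUltrametricDist.norm_add_le_max _ _).trans (max_le ?_ h2)
      refine h4.trans ?_
      rw [sq]
      exact mul_le_mul_of_nonneg_right h1 (norm_nonneg _)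

/-- Linearisation of a finite sum. -/
theorem lin_sum {ι : Type*} (s : Finset ι) (U : ι → LawPt F) (R : ℝ) (hR0 : 0 ≤ R)
    (hR : ∀ i ∈ s, ‖(U i).val‖ ≤ R) :
    ‖(∑ i ∈ s, U i).val‖ ≤ R ∧ ‖(∑ i ∈ s, U i).val - ∑ i ∈ s, (U i).val‖ ≤ R ^ 2 := by
  classical
  induction s using Finset.induction_on with
  | empty => simp [hR0]
  | insert a s ha ih =>
      obtain ⟨h1, h2⟩ := ih (fun i hi => hR i (Finset.mem_insert_of_mem hi))
      have hUa := hR a (Finset.mem_insert_self _ _)
      rw [Finset.sum_insert ha, Finset.sum_insert ha, LawPt.val_add]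
      have hx := (U a).norm_lt
      have hy := (∑ i ∈ s, U i).norm_lt
      have h3 := norm_lawAdd_le F _ _ hx hy
      have h4 := norm_lawAdd_sub_add_le F _ _ hx hy
      refine ⟨h3.trans (max_le hUa h1), ?_⟩
      have e : lawAdd F (U a).val (∑ i ∈ s, U i).val - ((U a).val + ∑ i ∈ s, (U i).val) =
          (lawAdd F (U a).val (∑ i ∈ s, U i).val - ((U a).val + (∑ i ∈ s, U i).val)) +
            ((∑ i ∈ s, U i).val - ∑ i ∈ s, (U i).val) := by ring
      rw [e]
      refine (IsUltrametricDist.norm_add_le_max _ _).trans (max_le ?_ h2)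
      refine h4.trans ?_
      rw [sq]
      exact mul_le_mul hUa h1 (norm_nonneg _) hR0

end Lin

variable {p} in
/-- A natural number `< p`, nonzero, has norm one in `C`. -/
theorem norm_natCast_eq_one (a : ℕ) (ha : a < p) (ha0 : a ≠ 0) : ‖(a : C)‖ = 1 := by
  have hp : p.Prime := Fact.out
  have hcop : Nat.Coprime a p := ((Nat.Prime.coprime_iff_not_dvd hp).2
    (fun h => ha0 (Nat.eq_zero_of_dvd_of_lt h ha))).symm
  obtain ⟨b, -, hb⟩ := Nat.exists_mul_mod_eq_one_of_coprime hcop hp.one_lt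
  have h1 : ((a : C)) * (b : C) = 1 := by
    have h2 := Nat.mod_add_div (a * b) p
    rw [hb] at h2
    have h3 : ((a * b : ℕ) : C) = 1 := by
      rw [← h2]
      push_cast
      rw [CharP.cast_eq_zero C p]
      simp
    exact_mod_cast h3
  have h4 : ‖(a : C)‖ ≤ 1 := IsUltrametricDist.norm_natCast_le_one C a
  have h5 : ‖(b : C)‖ ≤ 1 := IsUltrametricDist.norm_natCast_le_one C b
  have h6 : ‖(a : C)‖ * ‖(b : C)‖ = 1 := by rw [← norm_mul, h1, norm_one]
  nlinarith [norm_nonneg (a : C), norm_nonneg (b : C)]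

/-- `ev1 (X^q) y = y^q`. -/
theorem ev1_X_pow (q : ℕ) (y : C) :
    ev1 (PowerSeries.X ^ q : PowerSeries (OC C)) y = y ^ q := by
  classical
  unfold ev1
  rw [tsum_eq_single q]
  · simp [PowerSeries.coeff_X_pow]
  · intro b hb
    simp [PowerSeries.coeff_X_pow, hb]

variable {n : ℕ}

/-- `p • y = y^q` on `Γ`. -/
theorem val_p_smul (hn : 1 ≤ n) (y : LawPt (GamC p n C)) :
    (p • y).val = y.val ^ (p ^ n) := by
  haveI : CharP (OC C) p := charP_OC p
  rw [LawPt.val_nsmul, hzv_eParam_pSeries p n hn, ev1_X_pow]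

/-- `p^s • y = y^(q^s)` on `Γ`. -/
theorem val_pow_smul (hn : 1 ≤ n) (s : ℕ) (y : LawPt (GamC p n C)) :
    ((p ^ s) • y).val = y.val ^ ((p ^ n) ^ s) := by
  induction s with
  | zero => simp
  | succ s ih =>
      rw [pow_succ', mul_smul, val_p_smul p hn, ih, ← pow_mul, ← pow_mul, pow_succ']
      congr 1
      ring

end RankAux

variable {p}
variable {r : ℝ} {B : Type} [NontriviallyNormedField B] [IsUltrametricDist B] [CompleteSpace B]

/-- Iterated periodicity. -/
theorem PeriodField.ell_add_mul_period (PF : PeriodField p C r B) (hr0 : 0 < r) (hr1 : r < 1) (N : ℕ)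
    (hN : 1 ≤ N) (u : ℤ) (y : C) (hy : ‖y‖ < 1) (s : ℕ) :
    PF.ell N (u + N * s) y = (p : B) ^ s * PF.ell N u y := by
  induction s with
  | zero => simp
  | succ s ih =>
      have e : u + (N : ℤ) * ((s + 1 : ℕ) : ℤ) = (u + (N : ℤ) * s) + N := by push_cast; ring
      rw [e, PF.ell_add_period hr0 hr1 N hN _ y hy, ih, pow_succ]
      ring

variable (p)

/-- **Rank lemma.** `1 ≤ m < n`, `x_i ∈ Γ(𝔪_C)` nonzero and orthogonal for natural coefficients. There is `r ∈ (0,1)` such that in any period field of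
radius `r`, `det(ell n u x_i)_{u<m} ≠ 0`.

Proof. Scale `x_i` by `p^(s_i)` into a window, sort, and apply `RankAux.rank_core`. -/
theorem rank_lemma (n m : ℕ) (hm : 1 ≤ m) (hmn : m < n) (x : Fin m → LawPt (GamC p n C))
    (hx0 : ∀ i, x i ≠ 0)
    (horth : ∀ a : Fin m → ℕ, (∀ i, ‖(a i • x i).val‖ ≤ ‖(∑ i, a i • x i).val‖) ∧
        ∃ i, ‖(∑ i, a i • x i).val‖ = ‖(a i • x i).val‖) :
    ∃ r : ℝ, 0 < r ∧ r < 1 ∧ ∀ (B : Type) (_ : NontriviallyNormedField B) (_ : IsUltrametricDist B)
      (_ : CompleteSpace B) (_ : CharZero B) (PF : PeriodField p C r B),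
      (Matrix.of fun (i u : Fin m) => PF.ell n ((u : ℕ) : ℤ) (x i).val).det ≠ 0 := by
  classical
  have hp : p.Prime := Fact.out
  have hn1 : 1 ≤ n := by omega
  have hval0 : ∀ i, (x i).val ≠ 0 := by
    intro i h
    apply hx0 i
    apply LawPt.ext'
    rw [h, LawPt.val_zero]
  have hnormpos : ∀ i, 0 < ‖(x i).val‖ := fun i => norm_pos_iff.2 (hval0 i)
  have hnorm1 : ∀ i, ‖(x i).val‖ < 1 := fun i => (x i).norm_lt
  let ν : Fin m → ℝ := fun i => -Real.log ‖(x i).val‖
  have hνpos : ∀ i, 0 < ν i := by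
    intro i
    have := Real.log_neg (hnormpos i) (hnorm1 i)
    simp only [ν]
    linarith
  haveI : Nonempty (Fin m) := ⟨⟨0, by omega⟩⟩
  obtain ⟨i₀, hi₀⟩ := Finite.exists_max ν
  let V : ℝ := ν i₀
  have hV : 0 < V := hνpos i₀
  have hp1 : (1 : ℝ) < p := by exact_mod_cast hp.one_lt
  let q : ℝ := (p : ℝ) ^ n
  have hq1 : 1 < q := one_lt_pow₀ hp1 (by omega)
  have hq0 : 0 < q := by linarith
  -- the exponents
  have hexp : ∀ i, ∃ s : ℕ, V < ν i * q ^ s ∧ ν i * q ^ s ≤ q * V := by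
    intro i
    have h1 : 1 ≤ V / ν i := by
      rw [le_div_iff₀ (hνpos i)]
      simpa using hi₀ i
    obtain ⟨t, ht1, ht2⟩ := exists_nat_pow_near h1 hq1
    refine ⟨t + 1, ?_, ?_⟩
    · rw [div_lt_iff₀ (hνpos i)] at ht2
      linarith
    · rw [le_div_iff₀ (hνpos i)] at ht1
      rw [pow_succ]
      nlinarith
  choose s hs1 hs2 using hexp
  -- scaled points
  let x' : Fin m → LawPt (GamC p n C) := fun i => (p ^ (s i)) • x i
  have hx'val : ∀ i, (x' i).val = (x i).val ^ ((p ^ n) ^ (s i)) :=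
    fun i => RankAux.val_pow_smul p hn1 (s i) (x i)
  have hx'ne : ∀ i, (x' i).val ≠ 0 := fun i => by
    rw [hx'val]; exact pow_ne_zero _ (hval0 i)
  have hν' : ∀ i, -Real.log ‖(x' i).val‖ = ν i * q ^ (s i) := by
    intro i
    rw [hx'val, norm_pow, Real.log_pow]
    push_cast
    simp only [ν, q]
    ring
  -- sorting
  let ρ : Fin m → ℝ := fun i => ‖(x' i).val‖
  let σ : Equiv.Perm (Fin m) := Tuple.sort ρ
  have hσ : Monotone (ρ ∘ σ) := Tuple.monotone_sort ρ
  let z : Fin m → C := fun j => (x' (σ j)).val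
  have hz0 : ∀ j, z j ≠ 0 := fun j => hx'ne _
  have hz1 : ∀ j, ‖z j‖ < 1 := fun j => (x' (σ j)).norm_lt
  have hwin : -Real.log ‖z ⟨0, by omega⟩‖ < (p : ℝ) ^ n * (-Real.log ‖z ⟨m - 1, by omega⟩‖) := by
    simp only [z]
    rw [hν', hν']
    have h1 := hs2 (σ ⟨0, by omega⟩)
    have h2 := hs1 (σ ⟨m - 1, by omega⟩)
    change ν _ * q ^ _ < q * (ν _ * q ^ _)
    nlinarith
  -- independence
  have hind : ∀ (a : Fin m → ℕ) (R : ℝ), (∀ j, a j < p) → (∀ j, a j ≠ 0 → ‖z j‖ = R) →
      (∃ j, a j ≠ 0) → ‖∑ j, (a j : C) * z j‖ = R := by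
    intro a R ha haR hne
    obtain ⟨j₀, hj₀⟩ := hne
    have hRz := haR j₀ hj₀
    have hR0 : 0 < R := by rw [← hRz]; exact norm_pos_iff.2 (hz0 j₀)
    have hR1 : R < 1 := by rw [← hRz]; exact hz1 j₀
    let U : Fin m → LawPt (GamC p n C) := fun j => a j • x' (σ j)
    have hUlin : ∀ j, ‖(U j).val - (a j : C) * z j‖ ≤ R ^ 2 := by
      intro j
      by_cases h0 : a j = 0
      · simp only [U, h0, zero_smul, LawPt.val_zero, Nat.cast_zero, zero_mul, sub_zero, norm_zero]
        positivity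
      · have := (RankAux.lin_nsmul (x' (σ j)) (a j)).2
        rwa [show ‖(x' (σ j)).val‖ = R from haR j h0] at this
    have hUnorm : ∀ j, a j ≠ 0 → ‖(U j).val‖ = R := by
      intro j h0
      have hzj : ‖z j‖ = R := haR j h0
      have h1 := hUlin j
      have h2 : ‖(a j : C) * z j‖ = R := by
        rw [norm_mul, RankAux.norm_natCast_eq_one (a j) (ha j) h0, one_mul, hzj]
      have h3 : R ^ 2 < R := by nlinarith
      have h4 : ‖(U j).val - (a j : C) * z j‖ < ‖(a j : C) * z j‖ := by rw [h2]; linarith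
      have e : (U j).val = ((U j).val - (a j : C) * z j) + (a j : C) * z j := by ring
      rw [e, IsUltrametricDist.norm_add_eq_max_of_norm_ne_norm (ne_of_lt h4), max_eq_right h4.le, h2]
    have hUle : ∀ j, ‖(U j).val‖ ≤ R := by
      intro j
      by_cases h0 : a j = 0
      · simp only [U, h0, zero_smul, LawPt.val_zero, norm_zero]
        exact hR0.le
      · exact (hUnorm j h0).le
    -- the orthogonality relation
    let b : Fin m → ℕ := fun i => a (σ.symm i) * p ^ (s i)
    have hbU : ∀ i, b i • x i = U (σ.symm i) := by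
      intro i
      simp only [U, b, x', Equiv.apply_symm_apply]
      rw [mul_smul]
    have hsumU : ∑ i, b i • x i = ∑ j, U j := by
      simp only [hbU]
      exact Equiv.sum_comp σ.symm U
    obtain ⟨h1, ⟨i₁, h2⟩⟩ := horth b
    rw [hsumU] at h1 h2
    simp only [hbU] at h1 h2
    have hTle : R ≤ ‖(∑ j, U j).val‖ := by
      have := h1 (σ j₀)
      rwa [Equiv.symm_apply_apply, hUnorm j₀ hj₀] at this
    have hT : ‖(∑ j, U j).val‖ = R := by
      apply le_antisymm _ hTle
      rw [h2]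
      exact hUle _
    have hlin := (RankAux.lin_sum Finset.univ U R hR0.le (fun j _ => hUle j)).2
    have hlin2 : ‖∑ j, (U j).val - ∑ j, (a j : C) * z j‖ ≤ R ^ 2 := by
      rw [← Finset.sum_sub_distrib]
      exact IsUltrametricDist.norm_sum_le_of_forall_le_of_nonneg (by positivity)
        (fun j _ => hUlin j)
    have hfinal : ‖(∑ j, U j).val - ∑ j, (a j : C) * z j‖ ≤ R ^ 2 := by
      have e : (∑ j, U j).val - ∑ j, (a j : C) * z j =
          ((∑ j, U j).val - ∑ j, (U j).val) + (∑ j, (U j).val - ∑ j, (a j : C) * z j) := by ring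
      rw [e]
      exact (IsUltrametricDist.norm_add_le_max _ _).trans (max_le hlin hlin2)
    have h3 : R ^ 2 < R := by nlinarith
    have h4 : ‖(∑ j, (a j : C) * z j) - (∑ j, U j).val‖ < ‖(∑ j, U j).val‖ := by
      rw [norm_sub_rev, hT]; linarith
    have e : ∑ j, (a j : C) * z j =
        ((∑ j, (a j : C) * z j) - (∑ j, U j).val) + (∑ j, U j).val := by ring
    rw [e, IsUltrametricDist.norm_add_eq_max_of_norm_ne_norm (ne_of_lt h4), max_eq_right h4.le, hT]
  obtain ⟨r, hr0, hr1, hr⟩ := RankAux.rank_core (p := p) n m hm hmn z hz0 hz1 hσ hwin hind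
  refine ⟨r, hr0, hr1, ?_⟩
  intro B i1 i2 i3 i4 PF
  have hrB := hr B i1 i2 i3 i4 PF
  intro hdet
  apply hrB
  -- the transformation of the determinant
  let F : Matrix (Fin m) (Fin m) B := Matrix.of fun (i u : Fin m) => PF.ell n ((u : ℕ) : ℤ) (x i).val
  have hE : (Matrix.of fun (j u : Fin m) => PF.ell n ((u : ℕ) : ℤ) (z j)) =
      Matrix.of fun j u => (p : B) ^ (s (σ j)) * (F.submatrix σ id) j u := by
    ext j u
    simp only [Matrix.of_apply, Matrix.submatrix_apply, id, F, z]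
    rw [hx'val]
    have e : (x (σ j)).val ^ ((p ^ n) ^ (s (σ j))) =
        fpow p (((n * s (σ j) : ℕ)) : ℤ) (x (σ j)).val := by
      rw [fpow_natCast, pow_mul]
    rw [e, PF.ell_fpow]
    have e2 : ((u : ℕ) : ℤ) + ((n * s (σ j) : ℕ) : ℤ) = ((u : ℕ) : ℤ) + (n : ℤ) * (s (σ j) : ℤ) := by
      push_cast; ring
    rw [e2, PF.ell_add_mul_period hr0 hr1 n hn1 _ _ (hnorm1 _)]
  rw [hE, Matrix.det_mul_column, Matrix.det_permute, show F.det = 0 from hdet]
  simp

end

end Crest.Agent.LT
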