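/-
S0351 package WITT/CL: the final contradiction: a relation `∑^{H₀} ϱ_i(π(β x_i^(p^l))) = 0` for all `β, l` forces all `ϱ_i ∘ π = 0`.
See BLUEPRINT.md §CL.
-/
import Crest.Agent.LT.Witt.Exp
import Crest.Agent.LT.Witt.Rank
import Crest.Agent.LT.Witt.GaussNorm

set_option autoImplicit false

open Crest.LubinTate

namespace Crest.Agent.LT

noncomputable section

variable (p : ℕ) [Fact p.Prime] (h n : ℕ)
variable {C : Type} [NontriviallyNormedField C] [IsUltrametricDist C] [CompleteSpace C]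
  [CharP C p] [IsAlgClosed C]

/-- The token `β y^(p^l)` as a point of `Γ`. -/
def gamTok (β : OC C) (y : LawPt (GamC p n C)) (l : ℕ) (hl : l ≠ 0) : LawPt (GamC p n C) :=
  tokPt (GamC p n C) β y (p ^ l) (pow_ne_zero _ (Fact.out : p.Prime).ne_zero)


/-! ### Auxiliary facts -/

section Aux

variable {p}
variable {r : ℝ} {B : Type} [NontriviallyNormedField B] [IsUltrametricDist B] [CompleteSpace B]

omit [Fact p.Prime] [IsAlgClosed C] [CompleteSpace C] [CharP C p] in
private theorem teich_injective (PF : PeriodField p C r B) : Function.Injective PF.teich := by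
  intro a b hab
  have h1 : (⟨PF.teich a, PF.teich_mem a⟩ : PF.Ap) = ⟨PF.teich b, PF.teich_mem b⟩ := Subtype.ext hab
  have h2 := congrArg PF.theta h1
  rwa [PF.theta_teich, PF.theta_teich] at h2

private theorem LL_zero [CharZero B] (PF : PeriodField p C r B) (hr0 : 0 < r) (hr1 : r < 1) (h : ℕ) (hh : 1 ≤ h) :
    PF.LL h (0 : LawPt (H0C p h C)).val = 0 := by
  have h1 := PF.LL_add hr0 hr1 h hh (0 : LawPt (H0C p h C)) 0
  rw [add_zero] at h1
  exact left_eq_add.mp h1

private theorem LL_sum [CharZero B] (PF : PeriodField p C r B) (hr0 : 0 < r) (hr1 : r < 1) (h : ℕ) (hh : 1 ≤ h)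
    {ι : Type*} (s : Finset ι) (a : ι → LawPt (H0C p h C)) :
    PF.LL h (∑ i ∈ s, a i).val = ∑ i ∈ s, PF.LL h (a i).val := by
  classical
  induction s using Finset.induction_on with
  | empty => simpa using LL_zero PF hr0 hr1 h hh
  | insert i s hi ih =>
    rw [Finset.sum_insert hi, Finset.sum_insert hi, PF.LL_add hr0 hr1 h hh, ih]

/-- The monoid of `q`-fixed elements of `𝒪_C`. -/
private def fixedMon (p n : ℕ) (C : Type) [NontriviallyNormedField C] [IsUltrametricDist C] :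
    Submonoid (OC C) where
  carrier := {β | (β : C) ^ (p ^ n) = β}
  mul_mem' {a b} ha hb := by
    change ((a * b : OC C) : C) ^ (p ^ n) = ((a * b : OC C) : C)
    have ha' : (a : C) ^ (p ^ n) = a := ha
    have hb' : (b : C) ^ (p ^ n) = b := hb
    rw [Subring.coe_mul, mul_pow, ha', hb']
  one_mem' := by
    change ((1 : OC C) : C) ^ (p ^ n) = ((1 : OC C) : C)
    simp

/-- A `q`-fixed element which is not `p^d`-fixed, `1 ≤ d < n`. -/
private theorem exists_fixed_not_fixed (n d : ℕ) (hd1 : 1 ≤ d) (hdn : d < n) :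
    ∃ β : C, β ^ (p ^ n) = β ∧ β ^ (p ^ d) ≠ β := by
  classical
  by_contra hcon
  push Not at hcon
  have hp1 : 1 < p := (Fact.out : p.Prime).one_lt
  let _ : Algebra (ZMod p) C := ZMod.algebra C p
  let kk : GaloisField p n →ₐ[ZMod p] C := IsAlgClosed.lift
  have hn0 : n ≠ 0 := by omega
  have hcard : Nat.card (GaloisField p n) = p ^ n := GaloisField.card p n hn0
  have : Fintype (GaloisField p n) := Fintype.ofFinite _
  have hcard' : Fintype.card (GaloisField p n) = p ^ n := by rw [← Nat.card_eq_fintype_card, hcard]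
  set T : Finset C := Finset.univ.image (fun a : GaloisField p n => kk a) with hT
  have hTcard : T.card = p ^ n := by
    have hinj : Function.Injective (fun a : GaloisField p n => kk a) := RingHom.injective kk.toRingHom
    rw [hT, Finset.card_image_of_injective _ hinj, Finset.card_univ, hcard']
  let Q : Polynomial C := Polynomial.X ^ (p ^ d) - Polynomial.X
  have hpd : 1 < p ^ d := Nat.one_lt_pow (by omega) hp1
  have hQdeg : Q.natDegree = p ^ d := by
    simp only [Q]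
    rw [Polynomial.natDegree_sub_eq_left_of_natDegree_lt]
    · simp
    · simpa using hpd
  have hQ0 : Q ≠ 0 := by
    intro h0
    rw [h0, Polynomial.natDegree_zero] at hQdeg
    omega
  have hsub : T.val ⊆ Q.roots := by
    intro t ht
    rw [Finset.mem_val, hT, Finset.mem_image] at ht
    obtain ⟨a, -, rfl⟩ := ht
    rw [Polynomial.mem_roots hQ0]
    simp only [Polynomial.IsRoot.def, Q, Polynomial.eval_sub, Polynomial.eval_pow, Polynomial.eval_X]
    have h1 : a ^ (p ^ n) = a := by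
      rw [← hcard']; exact FiniteField.pow_card a
    have h2 : (kk a) ^ (p ^ n) = kk a := by rw [← map_pow, h1]
    rw [hcon _ h2, sub_self]
  have hle := Polynomial.card_le_degree_of_subset_roots hsub
  rw [hTcard, hQdeg] at hle
  exact absurd hle (not_le.mpr (Nat.pow_lt_pow_right hp1 hdn))

end Aux

/-- Proof. `r` from `rank_lemma`, `B`, `PF` from `exists_periodField`. Apply `𝓛` (`LL_add`) to the relation, then `exists_Xi`:
`∑_i ∑_{e<n} Ξ_e(ϱ_i) ell n e (β x_i^(p^l)) = 0`, and `ell n e (β x^(p^l)) = [β^(p^e)] ell n (e+l) x`, so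
`∑_{e<n} [β]^(p^e) ∑_i Ξ_e(ϱ_i) ell n (e+l) x_i = 0` for all `β ∈ 𝔽_q`. Let `ω` generate `𝔽_q^×`; Vandermonde in the `n` distinct elements `[ω]^(p^e)` of `B` (`β = ω^b`, `b<n`): for each `e<n`, `l ≥ 1`,
`∑_i Ξ_e(ϱ_i) ell n (e+l) x_i = 0`. Take `l = u - e + n`, `u<m`: `ell n (u+n) = p · ell n u`, so `(Ξ_e(ϱ_i))_i` is killed by the invertible matrix of `rank_lemma`. So all `Ξ_e(ϱ_i) = 0`, so
`𝓛(ϱ_i(π y)) = 0` for all `y`, and `LL_eq_zero` concludes. -/
theorem CL_relation (hh : 1 ≤ h) (hn : h < n) (τ : Fin (n - h) → OC C)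
    (hτ : ∀ j, ‖((τ j : OC C) : C)‖ < 1) (r₀ : ℝ) (S : PiSetup p n (GamC p n C) (HS p h n τ) r₀)
    (x : Fin (n - h) → LawPt (GamC p n C)) (hx0 : ∀ i, x i ≠ 0)
    (horth : ∀ a : Fin (n - h) → ℕ, (∀ i, ‖(a i • x i).val‖ ≤ ‖(∑ i, a i • x i).val‖) ∧
        ∃ i, ‖(∑ i, a i • x i).val‖ = ‖(a i • x i).val‖)
    (ϱ : Fin (n - h) → PowerSeries (OC C)) (hϱ : ∀ i, IsFGHom (HS p h n τ) (H0C p h C) (ϱ i))
    (hrel : ∀ (β : OC C) (_ : (β : C) ^ (p ^ n) = β) (l : ℕ) (hl : l ≠ 0),
      ∑ i, homPt (ϱ i) (hϱ i) (S.pi (gamTok p n β (x i) l hl)) = 0) :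
    ∀ (i : Fin (n - h)) (y : LawPt (GamC p n C)), homPt (ϱ i) (hϱ i) (S.pi y) = 0 := by
  classical
  have hm1 : 1 ≤ n - h := by omega
  have hmn : n - h < n := by omega
  have hn1 : 1 ≤ n := by omega
  haveI : CharP (OC C) p := charP_OC p
  obtain ⟨r, hr0, hr1, hdet⟩ := rank_lemma p n (n - h) hm1 hmn x hx0 horth
  obtain ⟨B, i1, i2, i3, i4, ⟨PF⟩⟩ := exists_periodField p C r hr0 hr1
  have hdet' := hdet B i1 i2 i3 i4 PF
  choose Ξ hΞ using fun i => PF.exists_Xi hr0 hr1 h n hh hn τ hτ r₀ S (ϱ i) (hϱ i)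
  have hp0 : (p : B) ≠ 0 := by
    intro h0
    have := PF.natCast_p_norm
    rw [h0, norm_zero] at this
    exact hr0.ne this
  -- step 1: the relation after applying `𝓛`
  have key : ∀ (β : OC C) (hβ : (β : C) ^ (p ^ n) = β) (l : ℕ) (hl : l ≠ 0),
      ∑ e ∈ Finset.range n, PF.teich (β ^ (p ^ e)) *
        ∑ i, Ξ i e * PF.ell n ((e : ℤ) + (l : ℤ)) (x i).val = 0 := by
    intro β hβ l hl
    have h1 : PF.LL h (∑ i, homPt (ϱ i) (hϱ i) (S.pi (gamTok p n β (x i) l hl))).val =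
        PF.LL h (0 : LawPt (H0C p h C)).val := by rw [hrel β hβ l hl]
    rw [LL_sum PF hr0 hr1 h hh, LL_zero PF hr0 hr1 h hh] at h1
    have h2 : ∀ i, PF.LL h (homPt (ϱ i) (hϱ i) (S.pi (gamTok p n β (x i) l hl))).val =
        ∑ e ∈ Finset.range n, PF.teich (β ^ (p ^ e)) *
          (Ξ i e * PF.ell n ((e : ℤ) + (l : ℤ)) (x i).val) := by
      intro i
      rw [hΞ i]
      refine Finset.sum_congr rfl fun e _ => ?_
      have hval : (gamTok p n β (x i) l hl).val = (β : C) * fpow p (l : ℤ) (x i).val := by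
        rw [fpow_natCast]; rfl
      have hxlt : ‖fpow p (l : ℤ) (x i).val‖ < 1 := by
        rw [fpow_natCast, norm_pow]
        exact pow_lt_one₀ (norm_nonneg _) (x i).norm_lt (pow_ne_zero _ (Fact.out : p.Prime).ne_zero)
      have hβ1 : ‖(β : C)‖ ≤ 1 := β.2
      rw [hval, PF.ell_mul_teich hr0 hr1 n hn1 (e : ℤ) (β : C) _ hβ hβ1 hxlt, PF.ell_fpow]
      have htc : PF.tc (fpow p (e : ℤ) (β : C)) = PF.teich (β ^ (p ^ e)) := by
        rw [fpow_natCast]
        have hle : ‖(β : C) ^ (p ^ e)‖ ≤ 1 := by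
          rw [norm_pow]; exact pow_le_one₀ (norm_nonneg _) hβ1
        simp only [PeriodField.tc, dif_pos hle]
        congr 1
      rw [htc]
      ring
    rw [Finset.sum_congr rfl (fun i _ => h2 i), Finset.sum_comm] at h1
    rw [h1.symm.trans rfl]
    refine Finset.sum_congr rfl fun e _ => ?_
    rw [Finset.mul_sum]
  -- step 2: Dedekind
  let χ : Fin n → (fixedMon p n C →* B) := fun e =>
    PF.teich.comp ((powMonoidHom (p ^ (e : ℕ))).comp (fixedMon p n C).subtype)
  have hχ : Function.Injective χ := by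
    intro e e' hee
    by_contra hne
    have hp1 : 1 < p := (Fact.out : p.Prime).one_lt
    -- wlog
    have main : ∀ a b : Fin n, (a : ℕ) < b → χ a ≠ χ b := by
      intro a b hab hχab
      obtain ⟨β, hβq, hβd⟩ := exists_fixed_not_fixed (p := p) (C := C) n ((b : ℕ) - a) (by omega)
        (by have := b.2; omega)
      have hβ1 : ‖β‖ ≤ 1 := by
        by_cases h0 : β = 0
        · simp [h0]
        · have h3 : ‖β‖ ^ (p ^ n) = ‖β‖ := by rw [← norm_pow, hβq]
          by_contra hgt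
          push Not at hgt
          have hlt : ‖β‖ < ‖β‖ ^ (p ^ n) :=
            lt_self_pow₀ hgt (Nat.one_lt_pow (by omega) hp1)
          rw [h3] at hlt
          exact lt_irrefl _ hlt
      let β' : OC C := ⟨β, hβ1⟩
      have hβ' : β' ∈ fixedMon p n C := hβq
      have h4 := DFunLike.congr_fun hχab ⟨β', hβ'⟩
      have h5 : β' ^ (p ^ (a : ℕ)) = β' ^ (p ^ (b : ℕ)) := teich_injective PF h4
      have h6 : β ^ (p ^ (a : ℕ)) = β ^ (p ^ (b : ℕ)) := by
        have := congrArg (fun z : OC C => (z : C)) h5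
        simpa using this
      apply hβd
      have hab' : (b : ℕ) = ((b : ℕ) - a) + a := by omega
      rw [hab', pow_add, pow_mul] at h6
      have h7 : (β ^ (p ^ ((b : ℕ) - a) : ℕ) - β) ^ (p ^ (a : ℕ)) = 0 := by
        rw [sub_pow_char_pow, ← h6, sub_self]
      exact sub_eq_zero.mp (pow_eq_zero_iff (pow_ne_zero _ (Fact.out : p.Prime).ne_zero) |>.mp h7)
    rcases lt_or_gt_of_ne (fun h => hne (Fin.ext h) : (e : ℕ) ≠ e') with hlt | hgt
    · exact main e e' hlt hee
    · exact main e' e hgt hee.symm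
  have hli : LinearIndependent B (fun e : Fin n => (χ e : fixedMon p n C → B)) :=
    (linearIndependent_monoidHom (fixedMon p n C) B).comp χ hχ
  have hdedekind : ∀ (l : ℕ) (_ : l ≠ 0) (e : Fin n),
      ∑ i, Ξ i e * PF.ell n (((e : ℕ) : ℤ) + (l : ℤ)) (x i).val = 0 := by
    intro l hl
    refine Fintype.linearIndependent_iff.mp hli
      (fun e : Fin n => ∑ i, Ξ i e * PF.ell n (((e : ℕ) : ℤ) + (l : ℤ)) (x i).val) ?_
    funext β
    simp only [Finset.sum_apply, Pi.smul_apply, smul_eq_mul, Pi.zero_apply]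
    have := key β.1 β.2 l hl
    rw [Finset.sum_range] at this
    rw [← this]
    refine Finset.sum_congr rfl fun e _ => ?_
    rw [mul_comm]
    rfl
  -- step 3: the matrix
  have hzero : ∀ (e : Fin n) (i : Fin (n - h)), Ξ i e = 0 := by
    intro e
    set M : Matrix (Fin (n - h)) (Fin (n - h)) B :=
      Matrix.of fun (i u : Fin (n - h)) => PF.ell n (((u : ℕ)) : ℤ) (x i).val with hM
    have hv : Matrix.vecMul (fun i => Ξ i e) M = 0 := by
      funext u
      have hel : (u : ℕ) + n - e ≠ 0 := by have := e.2; omega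
      have h1 := hdedekind ((u : ℕ) + n - e) hel e
      have h2 : ∀ i, PF.ell n (((e : ℕ) : ℤ) + (((u : ℕ) + n - e : ℕ) : ℤ)) (x i).val
          = (p : B) * PF.ell n (((u : ℕ)) : ℤ) (x i).val := by
        intro i
        have h3 : ((e : ℕ) : ℤ) + (((u : ℕ) + n - e : ℕ) : ℤ) = ((u : ℕ) : ℤ) + (n : ℤ) := by
          have := e.2
          omega
        rw [h3]
        exact PF.ell_add_period hr0 hr1 n hn1 _ _ (x i).norm_lt
      simp only [Matrix.vecMul, dotProduct, Pi.zero_apply, hM, Matrix.of_apply]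
      have h4 : (p : B) * ∑ i, Ξ i e * PF.ell n ((u : ℕ) : ℤ) (x i).val = 0 := by
        rw [← h1, Finset.mul_sum]
        refine Finset.sum_congr rfl fun i _ => ?_
        rw [h2 i]
        ring
      exact (mul_eq_zero.mp h4).resolve_left hp0
    exact fun i => congrFun (Matrix.eq_zero_of_vecMul_eq_zero hdet' hv) i
  -- conclusion
  intro i y
  apply LawPt.ext'
  rw [LawPt.val_zero]
  refine PF.LL_eq_zero hr0 hr1 h hh _ (LawPt.norm_lt _) ?_
  rw [hΞ i y]
  refine Finset.sum_eq_zero fun e he => ?_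
  rw [hzero ⟨e, Finset.mem_range.mp he⟩ i, zero_mul]

/-- Nonvanishing: if `Θ : H₀ → H₀` and `ρ : H → H₀` (`ρ_1 ≠ 0`) are homs and `Θ ∘ ρ ∘ π = 0` then `Θ = 0`. Since `‖π y‖ = ‖y‖` for `‖y‖ > r₀`, the image of `π` contains
points of infinitely many norms in a closed ball of radius `< 1`, all zeros of the series `Θ ∘ ρ`, which is `0` by `finite_zeros_ball`; `ρ_1 ≠ 0` so `Θ = 0` (`ρ` has a compositional inverse over `C`; or compare lowest terms). -/
theorem theta_eq_zero_of_comp (τ : Fin (n - h) → OC C) (r₀ : ℝ)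
    (S : PiSetup p n (GamC p n C) (HS p h n τ) r₀) (ρ Θ : PowerSeries (OC C))
    (hρ : IsFGHom (HS p h n τ) (H0C p h C) ρ) (hρ1 : PowerSeries.coeff 1 ρ ≠ 0)
    (hΘ : IsFGHom (H0C p h C) (H0C p h C) Θ)
    (h0 : ∀ y : LawPt (GamC p n C), homPt Θ hΘ (homPt ρ hρ (S.pi y)) = 0) : Θ = 0 := by
  classical
  have hp1 : 1 < p := (Fact.out : p.Prime).one_lt
  have hr1 : r₀ < 1 := S.r1
  have hr0 : 0 ≤ r₀ := S.r0
  have hρ0 : PowerSeries.constantCoeff ρ = 0 := hρ.1
  have hΘ0 : PowerSeries.constantCoeff Θ = 0 := hΘ.1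
  -- the composite vanishes at all `π y`
  set G : PowerSeries (OC C) := PowerSeries.subst ρ Θ with hG
  have hzero : ∀ y : LawPt (GamC p n C), ev1 G (S.pi y).val = 0 := by
    intro y
    rw [hG, ev1_subst Θ ρ hρ0 _ (LawPt.norm_lt _)]
    have := h0 y
    have h2 := congrArg LawPt.val this
    rw [homPt_val, homPt_val, LawPt.val_zero] at h2
    exact h2
  -- an element `b` with `r₀ < ‖b‖²`, `‖b‖ < 1`
  obtain ⟨ϖ, hϖ0, hϖ1⟩ := NormedField.exists_norm_lt_one C
  have hpos : ∀ e : ℕ, 0 < p ^ e := fun e => pow_pos (by omega) e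
  have hexist : ∃ e : ℕ, r₀ ^ (p ^ e) < ‖ϖ‖ ^ 2 := by
    have h1 : Filter.Tendsto (fun e : ℕ => r₀ ^ e) Filter.atTop (nhds 0) :=
      tendsto_pow_atTop_nhds_zero_of_lt_one hr0 hr1
    have h2 : ∀ᶠ e : ℕ in Filter.atTop, r₀ ^ e < ‖ϖ‖ ^ 2 :=
      h1.eventually (gt_mem_nhds (by positivity))
    obtain ⟨N, hN⟩ := Filter.eventually_atTop.mp h2
    refine ⟨N, hN _ ?_⟩
    exact (Nat.lt_pow_self hp1).le
  obtain ⟨e₀, he₀⟩ := hexist
  set b : C := pRoot p e₀ ϖ with hb
  have hb1 : ‖b‖ < 1 := norm_pRoot_lt_one p e₀ ϖ hϖ1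
  have hbpow : ‖b‖ ^ (p ^ e₀) = ‖ϖ‖ := norm_pRoot p e₀ ϖ
  have hb0 : 0 < ‖b‖ := by
    rcases (norm_nonneg b).lt_or_eq with h | h
    · exact h
    · rw [← h, zero_pow (hpos e₀).ne'] at hbpow
      exact absurd hbpow hϖ0.ne
  have hb2 : r₀ < ‖b‖ ^ 2 := by
    refine lt_of_pow_lt_pow_left₀ (p ^ e₀) (by positivity) ?_
    rw [← pow_mul, mul_comm, pow_mul, hbpow]
    exact he₀
  -- the roots
  have hc : ∀ e : ℕ, ‖pRoot p e b‖ ^ (p ^ e) = ‖b‖ := fun e => norm_pRoot p e b
  have hc1 : ∀ e : ℕ, ‖pRoot p e b‖ < 1 := fun e => norm_pRoot_lt_one p e b hb1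
  have hc0 : ∀ e : ℕ, 0 < ‖pRoot p e b‖ := by
    intro e
    rcases (norm_nonneg (pRoot p e b)).lt_or_eq with h | h
    · exact h
    · have := hc e
      rw [← h, zero_pow (hpos e).ne'] at this
      exact absurd this hb0.ne
  have hcge : ∀ e : ℕ, ‖b‖ ≤ ‖pRoot p e b‖ := by
    intro e
    rw [← hc e]
    exact pow_le_of_le_one (norm_nonneg _) (hc1 e).le (hpos e).ne'
  have hcinj : Function.Injective (fun e : ℕ => ‖pRoot p e b‖) := by
    intro e e' hee
    simp only at hee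
    have h1 : ‖pRoot p e b‖ ^ (p ^ e) = ‖pRoot p e b‖ ^ (p ^ e') := by
      rw [hc e, hee, hc e']
    have h2 := pow_right_injective₀ (hc0 e) (hc1 e).ne h1
    exact Nat.pow_right_injective hp1 h2
  -- the points
  have hylt : ∀ e : ℕ, ‖b * pRoot p e b‖ < 1 := by
    intro e
    rw [norm_mul]
    exact mul_lt_one_of_nonneg_of_lt_one_left hb0.le hb1 (hc1 e).le
  let y : ℕ → LawPt (GamC p n C) := fun e => LawPt.mk (b * pRoot p e b) (hylt e)
  have hyval : ∀ e, (y e).val = b * pRoot p e b := fun e => rfl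
  have hynorm : ∀ e, ‖(S.pi (y e)).val‖ = ‖b‖ * ‖pRoot p e b‖ := by
    intro e
    rw [S.norm_pi_eq, hyval, norm_mul]
    rw [hyval, norm_mul]
    calc r₀ < ‖b‖ ^ 2 := hb2
      _ = ‖b‖ * ‖b‖ := by ring
      _ ≤ ‖b‖ * ‖pRoot p e b‖ := by gcongr; exact hcge e
  have hG0 : G = 0 := by
    by_contra hGne
    have hfin := finite_zeros_ball G hGne ‖b‖ hb1
    refine Set.infinite_of_injective_forall_mem (f := fun e : ℕ => (S.pi (y e)).val) ?_ ?_ hfin
    · intro e e' hee
      have h1 : ‖(S.pi (y e)).val‖ = ‖(S.pi (y e')).val‖ := congrArg norm hee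
      rw [hynorm, hynorm] at h1
      exact hcinj (mul_left_cancel₀ hb0.ne' h1)
    · intro e
      refine ⟨?_, hzero (y e)⟩
      rw [hynorm]
      exact mul_le_of_le_one_right hb0.le (hc1 e).le
  -- from `Θ ∘ ρ = 0` to `Θ = 0`
  by_contra hΘne
  have hsub : PowerSeries.HasSubst ρ := PowerSeries.HasSubst.of_constantCoeff_zero' hρ0
  have hUeq := PowerSeries.X_pow_order_mul_divXPowOrder (f := Θ)
  set U : PowerSeries (OC C) := PowerSeries.divXPowOrder Θ with hU
  have hU0 : PowerSeries.coeff 0 U ≠ 0 := by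
    rw [hU, PowerSeries.coeff_divXPowOrder, zero_add]
    exact PowerSeries.coeff_order hΘne
  have hG1 : G = ρ ^ Θ.order.toNat * PowerSeries.subst ρ U := by
    rw [hG]
    conv_lhs => rw [← hUeq]
    rw [PowerSeries.subst_mul hsub, PowerSeries.subst_pow hsub, PowerSeries.subst_X hsub]
  have hρne : ρ ≠ 0 := by
    intro h
    rw [h] at hρ1
    simp at hρ1
  have hsU : PowerSeries.subst ρ U = 0 := by
    rw [hG0] at hG1
    exact (mul_eq_zero.mp hG1.symm).resolve_left (pow_ne_zero _ hρne)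
  have hev : ∀ f : PowerSeries (OC C), ev1 f 0 = ((PowerSeries.coeff 0 f : OC C) : C) := by
    intro f
    unfold ev1
    rw [tsum_eq_single 0]
    · simp
    · intro k hk
      simp [hk]
  have h00 : ‖(0 : C)‖ < 1 := by simp
  have hfin := ev1_subst U ρ hρ0 0 h00
  rw [hsU, hev ρ] at hfin
  have hρc : ((PowerSeries.coeff 0 ρ : OC C) : C) = 0 := by
    have : PowerSeries.coeff 0 ρ = 0 := by
      rw [PowerSeries.coeff_zero_eq_constantCoeff_apply, hρ0]
    rw [this]; rfl
  rw [hρc, hev U, hev 0] at hfin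
  apply hU0
  apply Subtype.ext
  simpa using hfin.symm

end

end Crest.Agent.LT
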